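import Vale.Agent.Lib.P154.Defs2

/-!
Averages over the six permutations, piece J1.
-/

namespace Vale.Agent.Lib.P154

set_option maxRecDepth 100000 in
set_option maxHeartbeats 4000000 in
theorem avg_J1 (y1 y2 v1 v2 : ℝ) :
    (1 / 6) * (FF_J1 y1 y2 (-y1 - y2) v1 v2 (-v1 - v2) + FF_J1 y1 y2 (-y1 - y2) v2 (-v1 - v2) v1
      + FF_J1 y1 y2 (-y1 - y2) (-v1 - v2) v1 v2 + FF_J1 y1 y2 (-y1 - y2) v2 v1 (-v1 - v2)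
      + FF_J1 y1 y2 (-y1 - y2) v1 (-v1 - v2) v2 + FF_J1 y1 y2 (-y1 - y2) (-v1 - v2) v2 v1)
    = PP_J1 (Ic2 y1 y2) (Ic3 y1 y2) (Ic2 v1 v2) (Ic3 v1 v2) := by
  simp only [FF_J1, PP_J1, Ic2, Ic3, JC, NqC, tauC]
  ring

end Vale.Agent.Lib.P154
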