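import Mathlib

/-!
# Broadcasting the `q`-state Potts channel on the rooted `d`-ary tree

Definitions used by the statements of problem P154.
-/

namespace Vale.Agent.Lib.P154

open scoped BigOperators

/-- The `q`-state Potts channel with eigenvalue `lam`:
`P(j | i) = lam * 1_{i = j} + (1 - lam) / q`. -/
noncomputable def potts (q : ℕ) (lam : ℝ) (i j : Fin q) : ℝ :=
  lam * (if i = j then 1 else 0) + (1 - lam) / q

/-- The Kronecker delta on spins. -/
noncomputable def spinDelta (q : ℕ) (i j : Fin q) : ℝ := if i = j then 1 else 0

/-- The spin configurations on the vertices at depth `n` of the rooted `d`-ary tree, with spins in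
`Fin q`: at depth `0` a configuration is the spin of the root, and at depth `n + 1` it is a
`d`-tuple of configurations at depth `n`, one for the subtree of each child of the root. -/
def LeafConfig (d q : ℕ) : ℕ → Type
  | 0 => Fin q
  | n + 1 => Fin d → LeafConfig d q n

/-- The finite type structure on leaf configurations. -/
noncomputable instance leafConfigFintype (d q : ℕ) : (n : ℕ) → Fintype (LeafConfig d q n)
  | 0 => inferInstanceAs (Fintype (Fin q))
  | n + 1 =>
    haveI := leafConfigFintype d q n
    inferInstanceAs (Fintype (Fin d → LeafConfig d q n))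

/-- `leafLik d q lam n i s` is the conditional probability, given that the root has spin `i`, that
the vertices at depth `n` of the `d`-ary tree carry the configuration `s`, when each edge
independently passes the spin of the parent to the child through the Potts channel. -/
noncomputable def leafLik (d q : ℕ) (lam : ℝ) : (n : ℕ) → Fin q → LeafConfig d q n → ℝ
  | 0, i, s => spinDelta q i s
  | n + 1, i, s =>
    ∏ c : Fin d, ∑ j : Fin q,
      potts q lam i j * leafLik d q lam n j ((s : Fin d → LeafConfig d q n) c)

/-- The probability of the leaf configuration `s` when the root spin is uniform on `Fin q`. -/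
noncomputable def leafProb (d q : ℕ) (lam : ℝ) (n : ℕ) (s : LeafConfig d q n) : ℝ :=
  ∑ i : Fin q, (1 / (q : ℝ)) * leafLik d q lam n i s

/-- The posterior probability `Pr(σ_root = i | σ_{L_n} = s)`. -/
noncomputable def rootPosterior (d q : ℕ) (lam : ℝ) (n : ℕ) (s : LeafConfig d q n) (i : Fin q) :
    ℝ :=
  (1 / (q : ℝ)) * leafLik d q lam n i s / leafProb d q lam n s

/-- The quantity
`a_n = E[ (1/2) * ∑ i, |Pr(σ_root = i | σ_{L_n}) - 1/q| ]` of the problem, on the `d`-ary tree. -/
noncomputable def reconError (d q : ℕ) (lam : ℝ) (n : ℕ) : ℝ :=
  ∑ s : LeafConfig d q n,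
    leafProb d q lam n s * ((1 / 2) * ∑ i : Fin q, |rootPosterior d q lam n s i - 1 / (q : ℝ)|)

end Vale.Agent.Lib.P154
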