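import Vale.Agent.Lib.P154.K2

/-!
The recursion for the second moment and the class `E I3 >= rho * E (I2^2)`.
-/

namespace Vale.Agent.Lib.P154

/-- the test function of the class for messages, with `rho = 7/50` -/
noncomputable def fM (x y z : ℝ) : ℝ := I3 x y z - 7 / 50 * (I2 x y z) ^ 2

theorem SymExp.lin3 {E : Ex3} {K : ℝ → ℝ → ℝ → Prop} (h : SymExp E K) (k0 k1 k2 : ℝ) (f g : Fn3) :
    E (fun a b c => k0 + k1 * f a b c + k2 * g a b c) = k0 + k1 * E f + k2 * E g := by
  rw [h.add (fun a b c => k0 + k1 * f a b c) (fun a b c => k2 * g a b c),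
    h.add (fun _ _ _ => k0) (fun a b c => k1 * f a b c), h.const, h.smul, h.smul]

theorem SymExp.lin4 {E : Ex3} {K : ℝ → ℝ → ℝ → Prop} (h : SymExp E K) (k0 k1 k2 k3 : ℝ)
    (f g j : Fn3) :
    E (fun a b c => k0 + k1 * f a b c + k2 * g a b c + k3 * j a b c)
      = k0 + k1 * E f + k2 * E g + k3 * E j := by
  rw [h.add (fun a b c => k0 + k1 * f a b c + k2 * g a b c) (fun a b c => k3 * j a b c),
    h.lin3, h.smul]

theorem I2_le {a b c : ℝ} (h : Simp a b c) : I2 a b c ≤ 2 / 3 := by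
  obtain ⟨ha, hb, hc, hs⟩ := h
  have hc' : c = 1 - a - b := by linarith
  have e1 : 2 / 3 - I2 a b c = 2 * (a * b + b * c + c * a) := by
    subst hc'; unfold I2; ring
  have : 0 ≤ 2 * (a * b + b * c + c * a) := by positivity
  linarith

theorem Msg_I2_le {p q r : ℝ} (h : Msg p q r) : I2 p q r ≤ 25 / 49 * (2 / 3) := by
  rw [I2_stretch p q r]
  have := I2_le h.stretch
  linarith

theorem I2_sub_nonneg {a b c : ℝ} (h : Simp a b c) : 0 ≤ I2 a b c - 3 * I3 a b c := by
  obtain ⟨ha, hb, hc, hs⟩ := h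
  have hc' : c = 1 - a - b := by linarith
  have e2 : I2 a b c - 3 * I3 a b c
      = a * (b - c) ^ 2 + b * (c - a) ^ 2 + c * (a - b) ^ 2 := by
    subst hc'; unfold I2 I3; ring
  rw [e2]
  positivity

/-- integrated form of the first kernel inequality -/
theorem m2_bprod_le {E E' : Ex3} (hE : SymExp E Simp) (hE' : SymExp E' Msg)
    (h1 : 0 ≤ E fK) (h2 : 0 ≤ E' fM) :
    bprod E E' I2 ≤ E I2 + E' I2 - 1 / 100 * E I2 * E' I2 := by
  have hm' : 0 ≤ E' I2 := hE'.nonneg _ (fun p q r _ => I2_nonneg p q r)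
  have hinner : ∀ a b c, Simp a b c →
      E' (fun p q r => wt I2 a b c p q r)
        ≤ E' I2 + (1 - 1 / 100 * E' I2) * I2 a b c + (-(27 / 5) * E' I2) * fK a b c
          + (-(13 / 2) * E' fM) * (I2 a b c - 3 * I3 a b c) := by
    intro a b c hK
    rw [← hE'.sym6 (fun p q r => wt I2 a b c p q r)]
    have hmono := hE'.mono (f := fun p q r => (1 / 6) * (wt I2 a b c p q r + wt I2 a b c q r p
        + wt I2 a b c r p q + wt I2 a b c q p r + wt I2 a b c p r q + wt I2 a b c r q p))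
      (g := fun p q r => I2 a b c + (1 - 27 / 5 * fK a b c - 1 / 100 * I2 a b c) * I2 p q r
        + (-(13 / 2) * (I2 a b c - 3 * I3 a b c)) * fM p q r)
      (fun p q r hK' => by
        refine le_trans (k1_pointwise hK hK') (le_of_eq ?_)
        unfold T1f fK fM
        ring)
    refine le_trans hmono (le_of_eq ?_)
    rw [hE'.lin3]
    ring
  have h3 : bprod E E' I2 ≤ E (fun a b c => E' I2 + (1 - 1 / 100 * E' I2) * I2 a b c
      + (-(27 / 5) * E' I2) * fK a b c + (-(13 / 2) * E' fM) * (I2 a b c - 3 * I3 a b c)) :=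
    hE.mono hinner
  rw [hE.lin4] at h3
  have h4 : 0 ≤ E (fun a b c => I2 a b c - 3 * I3 a b c) :=
    hE.nonneg _ (fun a b c hK => I2_sub_nonneg hK)
  have h5 : 0 ≤ E' I2 * E fK := mul_nonneg hm' h1
  have h6 : 0 ≤ E' fM * E (fun a b c => I2 a b c - 3 * I3 a b c) := mul_nonneg h2 h4
  nlinarith

/-- integrated form of the second kernel inequality -/
theorem class_bprod {E E' : Ex3} (hE : SymExp E Simp) (hE' : SymExp E' Msg)
    (h1 : 0 ≤ E fK) (h2 : 0 ≤ E' fM) :
    0 ≤ bprod E E' fK := by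
  have hinner : ∀ a b c, Simp a b c →
      (1 - 147 / 50 * E' I2) * fK a b c + (E' fM) * (1 - 3 / 2 * I2 a b c)
        ≤ E' (fun p q r => wt fK a b c p q r) := by
    intro a b c hK
    rw [← hE'.sym6 (fun p q r => wt fK a b c p q r)]
    have hmono := hE'.mono
      (f := fun p q r => fK a b c + (-(147 / 50) * fK a b c) * I2 p q r
        + (1 - 3 / 2 * I2 a b c) * fM p q r)
      (g := fun p q r => (1 / 6) * (wt fK a b c p q r + wt fK a b c q r p
        + wt fK a b c r p q + wt fK a b c q p r + wt fK a b c p r q + wt fK a b c r q p))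
      (fun p q r hK' => by
        refine le_trans (le_of_eq ?_) (k2_pointwise hK hK')
        unfold fK fM
        ring)
    refine le_trans (le_of_eq ?_) hmono
    rw [hE'.lin3]
    ring
  have h3 := hE.mono (f := fun a b c => 0 + (1 - 147 / 50 * E' I2) * fK a b c
      + (E' fM) * (1 - 3 / 2 * I2 a b c)) (g := fun a b c => E' (fun p q r => wt fK a b c p q r))
    (fun a b c hK => by simpa using hinner a b c hK)
  rw [hE.lin3] at h3
  have h4 : 0 ≤ E (fun a b c => 1 - 3 / 2 * I2 a b c) :=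
    hE.nonneg _ (fun a b c hK => by have := I2_le hK; linarith)
  have h5 : 0 ≤ 1 - 147 / 50 * E' I2 := by
    have hb : 0 ≤ E' (fun a b c => 1 - 147 / 50 * I2 a b c) :=
      hE'.nonneg _ (fun a b c hK => by have := Msg_I2_le hK; linarith)
    have e := hE'.lin3 1 (-(147 / 50)) 0 I2 I2
    simp only [zero_mul, add_zero] at e
    have e2 : E' (fun a b c => 1 - 147 / 50 * I2 a b c) = 1 + -(147 / 50) * E' I2 := by
      rw [← e]
      congr 1
      funext a b c
      ring
    rw [e2] at hb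
    linarith
  have h6 : 0 ≤ (1 - 147 / 50 * E' I2) * E fK := mul_nonneg h5 h1
  have h7 : 0 ≤ E' fM * E (fun a b c => 1 - 3 / 2 * I2 a b c) := mul_nonneg h2 h4
  have : bprod E E' fK = E (fun a b c => E' (fun p q r => wt fK a b c p q r)) := rfl
  rw [this]
  linarith

theorem chanPt_sub (lam x : ℝ) : chanPt lam x - 1 / 3 = lam * (x - 1 / 3) := by
  unfold chanPt; ring

theorem I2_chan (lam a b c : ℝ) : I2 (chanPt lam a) (chanPt lam b) (chanPt lam c) = lam ^ 2 * I2 a b c := by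
  unfold I2
  rw [chanPt_sub, chanPt_sub, chanPt_sub]
  ring

theorem I3_chan (lam a b c : ℝ) : I3 (chanPt lam a) (chanPt lam b) (chanPt lam c) = lam ^ 3 * I3 a b c := by
  unfold I3
  rw [chanPt_sub, chanPt_sub, chanPt_sub]
  ring

/-- the second moment after the channel -/
theorem m2_chan {E : Ex3} (hE : SymExp E Simp) (lam : ℝ) : chan lam E I2 = lam ^ 2 * E I2 := by
  unfold chan
  rw [← hE.smul]
  congr 1
  funext a b c
  exact I2_chan lam a b c

/-- the channel maps the class for `1/10` into the class for `7/50` -/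
theorem class_chan {E : Ex3} (hE : SymExp E Simp) {lam : ℝ} (h0 : 0 ≤ lam) (h1 : lam ≤ 5 / 7)
    (hc : 0 ≤ E fK) : 0 ≤ chan lam E fM := by
  unfold chan
  have hmono := hE.mono (f := fun a b c => lam ^ 3 * fK a b c)
    (g := fun a b c => fM (chanPt lam a) (chanPt lam b) (chanPt lam c))
    (fun a b c _ => by
      unfold fM fK
      rw [I2_chan, I3_chan]
      have h2 : 0 ≤ lam ^ 3 * ((I2 a b c) ^ 2 * (1 / 10 - 7 / 50 * lam)) := by
        have : 0 ≤ 1 / 10 - 7 / 50 * lam := by linarith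
        positivity
      nlinarith)
  rw [hE.smul] at hmono
  have : 0 ≤ lam ^ 3 * E fK := by positivity
  linarith

/-- the `k`-fold Bayesian product of a message functional -/
noncomputable def Pk (E' : Ex3) : ℕ → Ex3
  | 0 => centre
  | k + 1 => bprod (Pk E' k) E'

theorem Pk_props {E' : Ex3} (hE' : SymExp E' Msg) (h2 : 0 ≤ E' fM) (k : ℕ) :
    SymExp (Pk E' k) Simp ∧ 0 ≤ Pk E' k fK := by
  induction k with
  | zero =>
    refine ⟨centre_symExp, ?_⟩
    show 0 ≤ fK (1 / 3) (1 / 3) (1 / 3)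
    unfold fK I2 I3
    norm_num
  | succ k ih =>
    exact ⟨bprod_symExp ih.1 hE', class_bprod ih.1 hE' ih.2 h2⟩

theorem Pk_step {E' : Ex3} (hE' : SymExp E' Msg) (h2 : 0 ≤ E' fM) (k : ℕ) :
    Pk E' (k + 1) I2 ≤ Pk E' k I2 + E' I2 - 1 / 100 * Pk E' k I2 * E' I2 :=
  m2_bprod_le (Pk_props hE' h2 k).1 hE' (Pk_props hE' h2 k).2 h2

theorem Pk_zero_I2 (E' : Ex3) : Pk E' 0 I2 = 0 := by
  show I2 (1 / 3) (1 / 3) (1 / 3) = 0
  unfold I2
  norm_num

theorem E_I2_nonneg {E : Ex3} {K : ℝ → ℝ → ℝ → Prop} (hE : SymExp E K) : 0 ≤ E I2 :=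
  hE.nonneg _ (fun a b c _ => I2_nonneg a b c)

/-- The second moment after `d >= 2` products. -/
theorem Pk_bound {E' : Ex3} (hE' : SymExp E' Msg) (h2 : 0 ≤ E' fM) {d : ℕ} (hd : 2 ≤ d) :
    Pk E' d I2 ≤ d * E' I2 - 1 / 100 * (E' I2) ^ 2 := by
  set b := E' I2 with hb
  have hb0 : 0 ≤ b := E_I2_nonneg hE'
  have hb1 : b ≤ 1 := by
    have h3 : E' I2 ≤ E' (fun _ _ _ => 1) :=
      hE'.mono (fun a b c hK => by have := Msg_I2_le hK; linarith)
    rw [hE'.one] at h3
    exact h3
  have a0 := Pk_zero_I2 E'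
  have step : ∀ k, Pk E' (k + 1) I2 ≤ Pk E' k I2 + b - 1 / 100 * Pk E' k I2 * b :=
    fun k => Pk_step hE' h2 k
  have nn : ∀ k, 0 ≤ Pk E' k I2 := fun k => E_I2_nonneg (Pk_props hE' h2 k).1
  have a1 : Pk E' 1 I2 ≤ b := by
    have := step 0
    rw [a0] at this
    linarith
  have a2 : Pk E' 2 I2 ≤ 2 * b - 1 / 100 * b ^ 2 := by
    have := step 1
    have h3 : 0 ≤ (b - Pk E' 1 I2) * (1 - 1 / 100 * b) :=
      mul_nonneg (by linarith) (by linarith)
    nlinarith
  obtain ⟨j, rfl⟩ : ∃ j, d = j + 2 := ⟨d - 2, by omega⟩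
  have key : ∀ j : ℕ, Pk E' (j + 2) I2 ≤ (j + 2) * b - 1 / 100 * b ^ 2 := by
    intro j
    induction j with
    | zero =>
      simpa using a2
    | succ j ih =>
      have h3 := step (j + 2)
      have h4 := nn (j + 2)
      have h5 : 0 ≤ Pk E' (j + 2) I2 * b := mul_nonneg h4 hb0
      have e : j + 1 + 2 = j + 2 + 1 := by ring
      rw [e]
      push_cast
      nlinarith
  have := key j
  push_cast
  linarith

/-- the functional of the uniform vertex distribution -/
noncomputable def vertexEx : Ex3 := fun f => 1 / 3 * (f 1 0 0 + f 0 1 0 + f 0 0 1)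

theorem vertexEx_symExp : SymExp vertexEx Simp where
  add f g := by unfold vertexEx; ring
  smul t f := by unfold vertexEx; ring
  nonneg f hf := by
    unfold vertexEx
    have h1 := hf 1 0 0 ⟨by norm_num, by norm_num, by norm_num, by norm_num⟩
    have h2 := hf 0 1 0 ⟨by norm_num, by norm_num, by norm_num, by norm_num⟩
    have h3 := hf 0 0 1 ⟨by norm_num, by norm_num, by norm_num, by norm_num⟩
    positivity
  one := by unfold vertexEx; norm_num
  swap f := by unfold vertexEx; ring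
  cyc f := by unfold vertexEx; ring

/-- the law of the posterior at depth `n`, as a functional -/
noncomputable def Ehat (d : ℕ) (lam : ℝ) : ℕ → Ex3
  | 0 => vertexEx
  | n + 1 => Pk (chan lam (Ehat d lam n)) d

theorem Ehat_props (d : ℕ) {lam : ℝ} (h0 : 0 ≤ lam) (h1 : lam ≤ 5 / 7) (n : ℕ) :
    SymExp (Ehat d lam n) Simp ∧ 0 ≤ Ehat d lam n fK := by
  induction n with
  | zero =>
    refine ⟨vertexEx_symExp, ?_⟩
    show 0 ≤ vertexEx fK
    unfold vertexEx fK I2 I3
    norm_num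
  | succ n ih =>
    have hc := chan_symExp ih.1 h0 h1
    have hm := class_chan ih.1 h0 h1 ih.2
    exact Pk_props hc hm d

/-- the recursion for the second moment -/
theorem Ehat_step {d : ℕ} (hd : 2 ≤ d) {lam : ℝ} (h0 : 0 ≤ lam) (h1 : lam ≤ 5 / 7) (n : ℕ) :
    Ehat d lam (n + 1) I2
      ≤ d * lam ^ 2 * Ehat d lam n I2 - 1 / 100 * lam ^ 4 * (Ehat d lam n I2) ^ 2 := by
  have hp := Ehat_props d h0 h1 n
  have hc := chan_symExp hp.1 h0 h1
  have hm := class_chan hp.1 h0 h1 hp.2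
  have := Pk_bound hc hm hd
  rw [m2_chan hp.1] at this
  have e : Ehat d lam (n + 1) I2 = Pk (chan lam (Ehat d lam n)) d I2 := rfl
  rw [e]
  refine le_trans this (le_of_eq ?_)
  ring

open Filter Topology in
/-- The second moment tends to zero when `d * lam^2 <= 1`. -/
theorem Ehat_tendsto {d : ℕ} (hd : 2 ≤ d) {lam : ℝ} (h0 : 0 ≤ lam) (hKS : d * lam ^ 2 ≤ 1) :
    Tendsto (fun n => Ehat d lam n I2) atTop (𝓝 0) := by
  have hd2 : (2 : ℝ) ≤ d := by exact_mod_cast hd
  have hlam2 : lam ^ 2 ≤ 1 / 2 := by nlinarith [sq_nonneg lam]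
  have h1 : lam ≤ 5 / 7 := by nlinarith
  set m : ℕ → ℝ := fun n => Ehat d lam n I2 with hm
  have hnn : ∀ n, 0 ≤ m n := fun n => E_I2_nonneg (Ehat_props d h0 h1 n).1
  have hrec : ∀ n, m (n + 1) ≤ m n - 1 / 100 * lam ^ 4 * (m n) ^ 2 := by
    intro n
    have h2 := Ehat_step hd h0 h1 n
    have h3 : (d : ℝ) * lam ^ 2 * m n ≤ 1 * m n :=
      mul_le_mul_of_nonneg_right hKS (hnn n)
    simp only [hm] at h2 h3 ⊢
    linarith
  have hanti : Antitone m := by
    refine antitone_nat_of_succ_le (fun n => ?_)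
    have := hrec n
    have h4 : 0 ≤ 1 / 100 * lam ^ 4 * (m n) ^ 2 := by positivity
    linarith
  have hbdd : BddBelow (Set.range m) := ⟨0, by rintro _ ⟨n, rfl⟩; exact hnn n⟩
  have hlim := tendsto_atTop_ciInf hanti hbdd
  set L := ⨅ n, m n with hL
  have hL0 : 0 ≤ L := le_ciInf hnn
  by_cases hlam : lam = 0
  · -- then the sequence vanishes from the first step on
    have hzero : ∀ n, m (n + 1) = 0 := by
      intro n
      have := hrec n
      have h2 := Ehat_step hd h0 h1 n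
      have hl2 : lam ^ 2 = 0 := by rw [hlam]; norm_num
      have hl4 : lam ^ 4 = 0 := by rw [hlam]; norm_num
      rw [hl2, hl4] at h2
      have h3 := hnn (n + 1)
      simp only [hm] at h3 ⊢
      refine le_antisymm ?_ h3
      simpa using h2
    have : L = 0 := by
      refine le_antisymm ?_ hL0
      exact (ciInf_le hbdd 1).trans (by rw [show (1 : ℕ) = 0 + 1 from rfl, hzero 0])
    rwa [this] at hlim
  · have hlpos : 0 < 1 / 100 * lam ^ 4 := by positivity
    have hl1 : Tendsto (fun n => m (n + 1)) atTop (𝓝 L) := hlim.comp (tendsto_add_atTop_nat 1)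
    have hl2 : Tendsto (fun n => m n - 1 / 100 * lam ^ 4 * (m n) ^ 2) atTop
        (𝓝 (L - 1 / 100 * lam ^ 4 * L ^ 2)) :=
      hlim.sub ((hlim.pow 2).const_mul _)
    have hle : L ≤ L - 1 / 100 * lam ^ 4 * L ^ 2 :=
      le_of_tendsto_of_tendsto' hl1 hl2 hrec
    have hL2 : L ^ 2 = 0 := by
      have h5 : 0 ≤ 1 / 100 * lam ^ 4 * L ^ 2 := by positivity
      have h6 : 1 / 100 * lam ^ 4 * L ^ 2 = 0 := by linarith
      rcases mul_eq_zero.1 h6 with h7 | h7
      · exact absurd h7 hlpos.ne'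
      · exact h7
    have : L = 0 := by simpa using hL2
    rwa [this] at hlim

end Vale.Agent.Lib.P154
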