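import Vale.Agent.Lib.P154.NegRec
import Vale.Agent.Lib.P154.Rec

/-!
The class of laws closed under one generation at the Kesten-Stigum bound, for small second moment.
-/

namespace Vale.Agent.Lib.P154

open Filter Topology

/-- the class of laws with small moments -/
structure InClass (kap bp bm : ℝ) (E : Ex3) (M : ℝ) : Prop where
  m_le : E I2 ≤ M
  b_le : E I3 ≤ bp * M ^ 2
  b_ge : -(bm * M ^ 2) ≤ E I3
  q_le : E I2sq ≤ kap * M ^ 2

/-- one row of the table of the envelopes: after `k` products with `x = k/d`,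
`A_k <= M (x - M p + M^2 r)`, `-M^2 vm <= B_k <= M^2 vp`, `Q_k <= M^2 w` for all `0 < M <= M0`. -/
structure Env where
  p : ℚ
  r : ℚ
  vp : ℚ
  vm : ℚ
  w : ℚ

/-- the next row of the table -/
def Env.next (d k : ℕ) (M0 lb kap bp bm : ℚ) (e : Env) : Env :=
  let x : ℚ := (k : ℚ) / d
  let gp : ℚ := lb * bm / d
  let gm : ℚ := lb * bp / d
  let gh : ℚ := max gp gm
  let qb : ℚ := kap / d / d
  let uh : ℚ := x + M0 ^ 2 * e.r
  let vh : ℚ := max e.vp e.vm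
  let eh : ℚ := e.w / d + uh * qb
  let s1 : ℚ := 9 * gm + 6 * qb
  let s2 : ℚ := 9 * e.vm + 6 * e.w
  let t : ℚ := max (e.vp * gp) (e.vm * gm)
  { p := e.p + 3 / 2 * x / d
    r := e.r + 3 / 2 * e.p / d + s1 * x + s2 / d + 27 * M0 * t + M0 ^ 2 * s1 * e.r
    vp := e.vp + gp + 3 * uh / d + M0 * (9 * (e.vm / d + uh * gm) + 9 / 2 * M0 * t + 2 * eh)
    vm := e.vm + gm + M0 * (9 * (e.vp / d + uh * gp) + 9 / 2 * M0 * max (e.vp * gm) (e.vm * gp) + 7 * eh)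
    w := e.w + qb + 4 * uh / d + M0 * (12 * (vh / d + uh * gh) + 18 * M0 * vh * gh + 70 * eh) }

/-- the table after `k` steps -/
def Env.table (d : ℕ) (M0 lb kap bp bm : ℚ) : ℕ → Env
  | 0 => ⟨0, 0, 0, 0, 0⟩
  | k + 1 => Env.next d k M0 lb kap bp bm (Env.table d M0 lb kap bp bm k)

/-- the numerical closure check -/
def Env.check (d : ℕ) (M0 lb kap bp bm c : ℚ) : Bool :=
  let e := Env.table d M0 lb kap bp bm d
  decide (c + M0 * e.r ≤ e.p) && decide (e.vp ≤ bp * (1 - c * M0) ^ 2)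
    && decide (e.vm ≤ bm * (1 - c * M0) ^ 2) && decide (e.w ≤ kap * (1 - c * M0) ^ 2)

/-- entries of a row are nonnegative -/
structure Env.NN (e : Env) : Prop where
  p : 0 ≤ e.p
  r : 0 ≤ e.r
  vp : 0 ≤ e.vp
  vm : 0 ≤ e.vm
  w : 0 ≤ e.w

theorem Env.next_nn {d k : ℕ} {M0 lb kap bp bm : ℚ} (hM0 : 0 < M0) (hlb : 0 ≤ lb) (hk : 0 ≤ kap)
    (hbp : 0 ≤ bp) (hbm : 0 ≤ bm) {e : Env} (he : e.NN) :
    (Env.next d k M0 lb kap bp bm e).NN := by
  have hd : (0 : ℚ) ≤ d := Nat.cast_nonneg d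
  have hkk : (0 : ℚ) ≤ k := Nat.cast_nonneg k
  have hx : (0 : ℚ) ≤ (k : ℚ) / d := div_nonneg hkk hd
  have hgp : (0 : ℚ) ≤ lb * bm / d := by positivity
  have hgm : (0 : ℚ) ≤ lb * bp / d := by positivity
  have hqb : (0 : ℚ) ≤ kap / d / d := by positivity
  obtain ⟨h1, h2, h3, h4, h5⟩ := he
  have huh : (0 : ℚ) ≤ (k : ℚ) / d + M0 ^ 2 * e.r := by positivity
  have heh : (0 : ℚ) ≤ e.w / d + ((k : ℚ) / d + M0 ^ 2 * e.r) * (kap / d / d) := by positivity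
  have hs1 : (0 : ℚ) ≤ 9 * (lb * bp / d) + 6 * (kap / d / d) := by positivity
  have hs2 : (0 : ℚ) ≤ 9 * e.vm + 6 * e.w := by positivity
  have ht : (0 : ℚ) ≤ max (e.vp * (lb * bm / d)) (e.vm * (lb * bp / d)) :=
    le_max_of_le_left (mul_nonneg h3 hgp)
  have ht2 : (0 : ℚ) ≤ max (e.vp * (lb * bp / d)) (e.vm * (lb * bm / d)) :=
    le_max_of_le_left (mul_nonneg h3 hgm)
  have hvh : (0 : ℚ) ≤ max e.vp e.vm := le_max_of_le_left h3
  have hgh : (0 : ℚ) ≤ max (lb * bm / d) (lb * bp / d) := le_max_of_le_left hgp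
  refine ⟨?_, ?_, ?_, ?_, ?_⟩
  · show 0 ≤ e.p + 3 / 2 * ((k : ℚ) / d) / d
    positivity
  · show 0 ≤ e.r + 3 / 2 * e.p / d + (9 * (lb * bp / d) + 6 * (kap / d / d)) * ((k : ℚ) / d)
      + (9 * e.vm + 6 * e.w) / d + 27 * M0 * max (e.vp * (lb * bm / d)) (e.vm * (lb * bp / d))
      + M0 ^ 2 * (9 * (lb * bp / d) + 6 * (kap / d / d)) * e.r
    positivity
  · show 0 ≤ e.vp + lb * bm / d + 3 * ((k : ℚ) / d + M0 ^ 2 * e.r) / d
      + M0 * (9 * (e.vm / d + ((k : ℚ) / d + M0 ^ 2 * e.r) * (lb * bp / d))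
        + 9 / 2 * M0 * max (e.vp * (lb * bm / d)) (e.vm * (lb * bp / d))
        + 2 * (e.w / d + ((k : ℚ) / d + M0 ^ 2 * e.r) * (kap / d / d)))
    positivity
  · show 0 ≤ e.vm + lb * bp / d
      + M0 * (9 * (e.vp / d + ((k : ℚ) / d + M0 ^ 2 * e.r) * (lb * bm / d))
        + 9 / 2 * M0 * max (e.vp * (lb * bp / d)) (e.vm * (lb * bm / d))
        + 7 * (e.w / d + ((k : ℚ) / d + M0 ^ 2 * e.r) * (kap / d / d)))
    positivity
  · show 0 ≤ e.w + kap / d / d + 4 * ((k : ℚ) / d + M0 ^ 2 * e.r) / d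
      + M0 * (12 * (max e.vp e.vm / d
          + ((k : ℚ) / d + M0 ^ 2 * e.r) * max (lb * bm / d) (lb * bp / d))
        + 18 * M0 * max e.vp e.vm * max (lb * bm / d) (lb * bp / d)
        + 70 * (e.w / d + ((k : ℚ) / d + M0 ^ 2 * e.r) * (kap / d / d)))
    positivity

theorem Env.table_nn {d : ℕ} {M0 lb kap bp bm : ℚ} (hM0 : 0 < M0) (hlb : 0 ≤ lb) (hk : 0 ≤ kap)
    (hbp : 0 ≤ bp) (hbm : 0 ≤ bm) (k : ℕ) : (Env.table d M0 lb kap bp bm k).NN := by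
  induction k with
  | zero => exact ⟨le_refl _, le_refl _, le_refl _, le_refl _, le_refl _⟩
  | succ k ih => exact Env.next_nn hM0 hlb hk hbp hbm ih

/-- product of two numbers with two-sided bounds -/
theorem mul_le_of_bounds {B G a b c e X t : ℝ} (hX : 0 ≤ X) (hb : 0 ≤ b) (ha : 0 ≤ a)
    (h1 : -(a * X) ≤ B) (h2 : B ≤ b * X) (h3 : -(c * X) ≤ G) (h4 : G ≤ e * X)
    (ht1 : b * e ≤ t) (ht2 : a * c ≤ t) : B * G ≤ t * X ^ 2 := by
  have hX2 : 0 ≤ X ^ 2 := sq_nonneg X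
  rcases le_total 0 G with hG | hG
  · have h5 : B * G ≤ (b * X) * G := mul_le_mul_of_nonneg_right h2 hG
    have h6 : (b * X) * G ≤ (b * X) * (e * X) := mul_le_mul_of_nonneg_left h4 (mul_nonneg hb hX)
    have h7 : (b * e) * X ^ 2 ≤ t * X ^ 2 := mul_le_mul_of_nonneg_right ht1 hX2
    linarith only [h5, h6, h7]
  · have h5 : (-(a * X)) * G ≥ B * G := mul_le_mul_of_nonpos_right h1 hG
    have h6 : (a * X) * (-G) ≤ (a * X) * (c * X) :=
      mul_le_mul_of_nonneg_left (by linarith) (mul_nonneg ha hX)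
    have h7 : (a * c) * X ^ 2 ≤ t * X ^ 2 := mul_le_mul_of_nonneg_right ht2 hX2
    linarith only [h5, h6, h7]

/-- One row of the recursion, over the reals. -/
theorem env_step_real {i M M0 x p r vp vm w gp gm qb A B Q C G q A' B' Q' uh eh s1 s2 t t2 vh gh : ℝ}
    (hi0 : 0 ≤ i) (hi1 : i ≤ 1) (hM : 0 < M) (hMM : M ≤ M0) (hM01 : M0 ≤ 1 / 10) (hx : 0 ≤ x)
    (hp : 0 ≤ p) (hr : 0 ≤ r) (hvp : 0 ≤ vp) (hvm : 0 ≤ vm) (hw : 0 ≤ w)
    (hgp : 0 ≤ gp) (hgm : 0 ≤ gm) (hqb : 0 ≤ qb)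
    (hA0 : 0 ≤ A) (hA23 : A ≤ 2 / 3) (hA : A ≤ M * (x - M * p + M ^ 2 * r))
    (hB1 : -(M ^ 2 * vm) ≤ B) (hB2 : B ≤ M ^ 2 * vp) (hQ : Q ≤ M ^ 2 * w)
    (hC0 : 0 ≤ C) (hC : C ≤ M * i) (hG1 : -(gm * M ^ 2) ≤ G) (hG2 : G ≤ gp * M ^ 2)
    (hq : q ≤ qb * M ^ 2)
    (R1 : A' ≤ A + C - 3 / 2 * (A * C) - 9 * (B * C + A * G) + 27 * (B * G)
      + 6 * (Q * C + A * q))
    (R2 : B + G + 3 * (A * C) - 9 * (B * C + A * G) + 9 / 2 * (B * G)
      - 7 * (Q * C + A * q) ≤ B')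
    (R3 : B' ≤ B + G + 3 * (A * C) - 9 * (B * C + A * G) + 9 / 2 * (B * G)
      + 2 * (Q * C + A * q))
    (R4 : Q' ≤ Q + q + 4 * (A * C) + 12 * (B * C + A * G) - 18 * (B * G)
      + 70 * (Q * C + A * q))
    (huh : uh = x + M0 ^ 2 * r) (heh : eh = w * i + uh * qb)
    (hs1 : s1 = 9 * gm + 6 * qb) (hs2 : s2 = 9 * vm + 6 * w)
    (ht1 : vp * gp ≤ t) (ht2 : vm * gm ≤ t) (ht3 : vp * gm ≤ t2) (ht4 : vm * gp ≤ t2)
    (hvh1 : vp ≤ vh) (hvh2 : vm ≤ vh) (hgh1 : gp ≤ gh) (hgh2 : gm ≤ gh) :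
    A' ≤ M * ((x + i) - M * (p + 3 / 2 * x * i)
      + M ^ 2 * (r + 3 / 2 * p * i + s1 * x + s2 * i + 27 * M0 * t + M0 ^ 2 * s1 * r))
    ∧ B' ≤ M ^ 2 * (vp + gp + 3 * uh * i
        + M0 * (9 * (vm * i + uh * gm) + 9 / 2 * M0 * t + 2 * eh))
    ∧ -(M ^ 2 * (vm + gm + M0 * (9 * (vp * i + uh * gp) + 9 / 2 * M0 * t2 + 7 * eh))) ≤ B'
    ∧ Q' ≤ M ^ 2 * (w + qb + 4 * uh * i
        + M0 * (12 * (vh * i + uh * gh) + 18 * M0 * vh * gh + 70 * eh)) := by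
  have hM0 : 0 < M0 := lt_of_lt_of_le hM hMM
  have hM2 : 0 < M ^ 2 := by positivity
  have hMM2 : M ^ 2 ≤ M0 ^ 2 := pow_le_pow_left₀ hM.le hMM 2
  have hd0 : 0 ≤ M0 - M := by linarith
  have hd2 : 0 ≤ M0 ^ 2 - M ^ 2 := by linarith
  have huh0 : 0 ≤ uh := by rw [huh]; positivity
  have heh0 : 0 ≤ eh := by rw [heh]; positivity
  have hs10 : 0 ≤ s1 := by rw [hs1]; positivity
  have hs20 : 0 ≤ s2 := by rw [hs2]; positivity
  have ht0 : 0 ≤ t := le_trans (mul_nonneg hvp hgp) ht1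
  have ht20 : 0 ≤ t2 := le_trans (mul_nonneg hvp hgm) ht3
  have hvh0 : 0 ≤ vh := le_trans hvp hvh1
  have hgh0 : 0 ≤ gh := le_trans hgp hgh1
  -- `A <= M uh`
  have hAu : A ≤ M * uh := by
    have h1 : M * (x - M * p + M ^ 2 * r) ≤ M * uh := by
      apply mul_le_mul_of_nonneg_left _ hM.le
      rw [huh]
      have h2 : M ^ 2 * r ≤ M0 ^ 2 * r := mul_le_mul_of_nonneg_right hMM2 hr
      have h3 : 0 ≤ M * p := mul_nonneg hM.le hp
      linarith only [h2, h3]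
    linarith only [h1, hA]
  -- products
  have P1 : B * C ≤ M ^ 2 * vp * (M * i) := by
    have h1 : B * C ≤ (M ^ 2 * vp) * C := mul_le_mul_of_nonneg_right hB2 hC0
    have h2 : (M ^ 2 * vp) * C ≤ (M ^ 2 * vp) * (M * i) :=
      mul_le_mul_of_nonneg_left hC (by positivity)
    linarith only [h1, h2]
  have P2 : -(B * C) ≤ M ^ 2 * vm * (M * i) := by
    have h1 : (-(M ^ 2 * vm)) * C ≤ B * C := mul_le_mul_of_nonneg_right hB1 hC0
    have h2 : (M ^ 2 * vm) * C ≤ (M ^ 2 * vm) * (M * i) :=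
      mul_le_mul_of_nonneg_left hC (by positivity)
    linarith only [h1, h2]
  have P3 : A * G ≤ (M * uh) * (gp * M ^ 2) := by
    have h1 : A * G ≤ A * (gp * M ^ 2) := mul_le_mul_of_nonneg_left hG2 hA0
    have h2 : A * (gp * M ^ 2) ≤ (M * uh) * (gp * M ^ 2) :=
      mul_le_mul_of_nonneg_right hAu (by positivity)
    linarith only [h1, h2]
  have P4' : -(A * G) ≤ A * (gm * M ^ 2) := by
    have h1 : A * (-(gm * M ^ 2)) ≤ A * G := mul_le_mul_of_nonneg_left hG1 hA0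
    linarith only [h1]
  have P4 : -(A * G) ≤ (M * uh) * (gm * M ^ 2) := by
    have h2 : A * (gm * M ^ 2) ≤ (M * uh) * (gm * M ^ 2) :=
      mul_le_mul_of_nonneg_right hAu (by positivity)
    linarith only [P4', h2]
  have P5 : B * G ≤ t * (M ^ 2) ^ 2 :=
    mul_le_of_bounds hM2.le hvp hvm (by linarith only [hB1]) (by linarith only [hB2])
      (by linarith only [hG1]) (by linarith only [hG2]) ht1 ht2
  have P6 : -(B * G) ≤ t2 * (M ^ 2) ^ 2 := by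
    have := mul_le_of_bounds (B := B) (G := -G) (a := vm) (b := vp) (c := gp) (e := gm)
      (X := M ^ 2) (t := t2) hM2.le hvp hvm (by linarith only [hB1]) (by linarith only [hB2])
      (by linarith only [hG2]) (by linarith only [hG1]) ht3 ht4
    linarith only [this]
  have P6' : -(B * G) ≤ (vh * gh) * (M ^ 2) ^ 2 := by
    have := mul_le_of_bounds (B := B) (G := -G) (a := vm) (b := vp) (c := gp) (e := gm)
      (X := M ^ 2) (t := vh * gh) hM2.le hvp hvm (by linarith only [hB1]) (by linarith only [hB2])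
      (by linarith only [hG2]) (by linarith only [hG1])
      (mul_le_mul hvh1 hgh2 hgm hvh0) (mul_le_mul hvh2 hgh1 hgp hvh0)
    linarith only [this]
  have P7 : Q * C ≤ (M ^ 2 * w) * (M * i) := by
    have h1 : Q * C ≤ (M ^ 2 * w) * C := mul_le_mul_of_nonneg_right hQ hC0
    have h2 : (M ^ 2 * w) * C ≤ (M ^ 2 * w) * (M * i) :=
      mul_le_mul_of_nonneg_left hC (by positivity)
    linarith only [h1, h2]
  have P8 : A * q ≤ (M * uh) * (qb * M ^ 2) := by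
    have h1 : A * q ≤ A * (qb * M ^ 2) := mul_le_mul_of_nonneg_left hq hA0
    have h2 : A * (qb * M ^ 2) ≤ (M * uh) * (qb * M ^ 2) :=
      mul_le_mul_of_nonneg_right hAu (by positivity)
    linarith only [h1, h2]
  have P9 : A * C ≤ (M * uh) * (M * i) := mul_le_mul hAu hC hC0 (by positivity)
  have P10 : 0 ≤ A * C := mul_nonneg hA0 hC0
  have Peh : Q * C + A * q ≤ M ^ 3 * eh := by
    rw [heh]
    linarith only [P7, P8]
  have hG2' : G ≤ gh * M ^ 2 := le_trans hG2 (mul_le_mul_of_nonneg_right hgh1 hM2.le)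
  have P3' : A * G ≤ (M * uh) * (gh * M ^ 2) := by
    have h1 : A * G ≤ A * (gh * M ^ 2) := mul_le_mul_of_nonneg_left hG2' hA0
    have h2 : A * (gh * M ^ 2) ≤ (M * uh) * (gh * M ^ 2) :=
      mul_le_mul_of_nonneg_right hAu (by positivity)
    linarith only [h1, h2]
  have P1' : B * C ≤ M ^ 2 * vh * (M * i) := by
    have h0 : B ≤ M ^ 2 * vh := le_trans hB2 (mul_le_mul_of_nonneg_left hvh1 hM2.le)
    have h1 : B * C ≤ (M ^ 2 * vh) * C := mul_le_mul_of_nonneg_right h0 hC0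
    have h2 : (M ^ 2 * vh) * C ≤ (M ^ 2 * vh) * (M * i) :=
      mul_le_mul_of_nonneg_left hC (by positivity)
    linarith only [h1, h2]
  -- powers of `M`
  have hm3 : ∀ K : ℝ, 0 ≤ K → M ^ 3 * K ≤ M ^ 2 * (M0 * K) := by
    intro K hK
    have h1 : 0 ≤ M ^ 2 * ((M0 - M) * K) := by positivity
    linarith only [h1]
  have hm4 : ∀ K : ℝ, 0 ≤ K → (M ^ 2) ^ 2 * K ≤ M ^ 2 * (M0 * (M0 * K)) := by
    intro K hK
    have h1 : 0 ≤ M ^ 2 * ((M0 ^ 2 - M ^ 2) * K) := by positivity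
    linarith only [h1]
  refine ⟨?_, ?_, ?_, ?_⟩
  · -- the second moment
    have hPhi : A' ≤ A + C - 3 / 2 * (A * C) + s1 * M ^ 2 * A + s2 * M ^ 2 * C
        + 27 * t * (M ^ 2) ^ 2 := by
      have h1 : Q * C ≤ (M ^ 2 * w) * C := mul_le_mul_of_nonneg_right hQ hC0
      have h2 : A * q ≤ A * (qb * M ^ 2) := mul_le_mul_of_nonneg_left hq hA0
      have h3 : (-(M ^ 2 * vm)) * C ≤ B * C := mul_le_mul_of_nonneg_right hB1 hC0
      rw [hs1, hs2]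
      linarith only [R1, h1, h2, h3, P4', P5]
    have hstepC : A + C - 3 / 2 * (A * C) + s1 * M ^ 2 * A + s2 * M ^ 2 * C
        ≤ A + M * i - 3 / 2 * (A * (M * i)) + s1 * M ^ 2 * A + s2 * M ^ 2 * (M * i) := by
      have h1 : 0 ≤ (M * i - C) * (1 - 3 / 2 * A + s2 * M ^ 2) := by
        apply mul_nonneg (by linarith only [hC])
        have : 0 ≤ s2 * M ^ 2 := by positivity
        linarith only [this, hA23]
      linarith only [h1]
    have hMi : M * i ≤ 1 / 10 * 1 :=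
      mul_le_mul (hMM.trans hM01) hi1 hi0 (by norm_num)
    have hstepA : A + M * i - 3 / 2 * (A * (M * i)) + s1 * M ^ 2 * A + s2 * M ^ 2 * (M * i)
        ≤ M * (x - M * p + M ^ 2 * r) + M * i - 3 / 2 * (M * (x - M * p + M ^ 2 * r) * (M * i))
          + s1 * M ^ 2 * (M * (x - M * p + M ^ 2 * r)) + s2 * M ^ 2 * (M * i) := by
      have h1 : 0 ≤ (M * (x - M * p + M ^ 2 * r) - A) * (1 - 3 / 2 * (M * i) + s1 * M ^ 2) := by
        apply mul_nonneg (by linarith only [hA])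
        have : 0 ≤ s1 * M ^ 2 := by positivity
        linarith only [this, hMi]
      linarith only [h1]
    have hfin : M * (x - M * p + M ^ 2 * r) + M * i - 3 / 2 * (M * (x - M * p + M ^ 2 * r) * (M * i))
          + s1 * M ^ 2 * (M * (x - M * p + M ^ 2 * r)) + s2 * M ^ 2 * (M * i)
        + 27 * t * (M ^ 2) ^ 2
        ≤ M * ((x + i) - M * (p + 3 / 2 * x * i)
          + M ^ 2 * (r + 3 / 2 * p * i + s1 * x + s2 * i + 27 * M0 * t + M0 ^ 2 * s1 * r)) := by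
      have h1 : 0 ≤ 27 * t * M ^ 3 * (M0 - M) := by positivity
      have h2 : 0 ≤ s1 * r * M ^ 3 * (M0 ^ 2 - M ^ 2) := by positivity
      have h3 : 0 ≤ 3 / 2 * M ^ 4 * r * i := by positivity
      have h4 : 0 ≤ s1 * M ^ 4 * p := by positivity
      linarith only [h1, h2, h3, h4]
    linarith only [hPhi, hstepC, hstepA, hfin]
  · -- upper bound on the third moment
    have k1 := hm3 (9 * (vm * i + uh * gm) + 2 * eh) (by positivity)
    have k2 := hm4 (9 / 2 * t) (by positivity)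
    linarith only [k1, k2, R3, hB2, hG2, P9, P2, P4, P5, Peh]
  · -- lower bound on the third moment
    have k1 := hm3 (9 * (vp * i + uh * gp) + 7 * eh) (by positivity)
    have k2 := hm4 (9 / 2 * t2) (by positivity)
    linarith only [k1, k2, R2, hB1, hG1, P10, P1, P3, P6, Peh]
  · -- the squared moment
    have k1 := hm3 (12 * (vh * i + uh * gh) + 70 * eh) (by positivity)
    have k2 := hm4 (18 * vh * gh) (by positivity)
    linarith only [k1, k2, R4, hQ, hq, P9, P1', P3', P6', Peh]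

/-- the auxiliary quantities of a row -/
def Env.xq (d k : ℕ) : ℚ := (k : ℚ) / d
/-- the envelope of the upper bound of the third moment of the message -/
def Env.gpq (d : ℕ) (lb bm : ℚ) : ℚ := lb * bm / d
/-- the envelope of the lower bound of the third moment of the message -/
def Env.gmq (d : ℕ) (lb bp : ℚ) : ℚ := lb * bp / d
/-- the envelope of the squared moment of the message -/
def Env.qbq (d : ℕ) (kap : ℚ) : ℚ := kap / d / d
/-- the bound for `A_k / M` -/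
def Env.uhq (d k : ℕ) (M0 : ℚ) (e : Env) : ℚ := Env.xq d k + M0 ^ 2 * e.r
/-- the bound for the error term -/
def Env.ehq (d k : ℕ) (M0 kap : ℚ) (e : Env) : ℚ :=
  e.w / d + Env.uhq d k M0 e * Env.qbq d kap

theorem Env.next_p (d k : ℕ) (M0 lb kap bp bm : ℚ) (e : Env) :
    (Env.next d k M0 lb kap bp bm e).p = e.p + 3 / 2 * Env.xq d k / d := rfl

theorem Env.next_r (d k : ℕ) (M0 lb kap bp bm : ℚ) (e : Env) :
    (Env.next d k M0 lb kap bp bm e).r = e.r + 3 / 2 * e.p / d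
      + (9 * Env.gmq d lb bp + 6 * Env.qbq d kap) * Env.xq d k + (9 * e.vm + 6 * e.w) / d
      + 27 * M0 * max (e.vp * Env.gpq d lb bm) (e.vm * Env.gmq d lb bp)
      + M0 ^ 2 * (9 * Env.gmq d lb bp + 6 * Env.qbq d kap) * e.r := rfl

theorem Env.next_vp (d k : ℕ) (M0 lb kap bp bm : ℚ) (e : Env) :
    (Env.next d k M0 lb kap bp bm e).vp = e.vp + Env.gpq d lb bm + 3 * Env.uhq d k M0 e / d
      + M0 * (9 * (e.vm / d + Env.uhq d k M0 e * Env.gmq d lb bp)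
        + 9 / 2 * M0 * max (e.vp * Env.gpq d lb bm) (e.vm * Env.gmq d lb bp)
        + 2 * Env.ehq d k M0 kap e) := rfl

theorem Env.next_vm (d k : ℕ) (M0 lb kap bp bm : ℚ) (e : Env) :
    (Env.next d k M0 lb kap bp bm e).vm = e.vm + Env.gmq d lb bp
      + M0 * (9 * (e.vp / d + Env.uhq d k M0 e * Env.gpq d lb bm)
        + 9 / 2 * M0 * max (e.vp * Env.gmq d lb bp) (e.vm * Env.gpq d lb bm)
        + 7 * Env.ehq d k M0 kap e) := rfl

theorem Env.next_w (d k : ℕ) (M0 lb kap bp bm : ℚ) (e : Env) :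
    (Env.next d k M0 lb kap bp bm e).w = e.w + Env.qbq d kap + 4 * Env.uhq d k M0 e / d
      + M0 * (12 * (max e.vp e.vm / d
          + Env.uhq d k M0 e * max (Env.gpq d lb bm) (Env.gmq d lb bp))
        + 18 * M0 * max e.vp e.vm * max (Env.gpq d lb bm) (Env.gmq d lb bp)
        + 70 * Env.ehq d k M0 kap e) := rfl

theorem Pk_symExp0 {E' : Ex3} (hE' : SymExp E' Simp) (k : ℕ) : SymExp (Pk E' k) Simp := by
  induction k with
  | zero => exact centre_symExp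
  | succ k ih => exact bprod_symExp0 ih hE'

theorem E_I2_le {E : Ex3} (hE : SymExp E Simp) : E I2 ≤ 2 / 3 := by
  have h := hE.mono (f := I2) (g := fun _ _ _ => 2 / 3) (fun a b c hK => I2_le hK)
  rwa [hE.const] at h

theorem E_I2sq_nonneg {E : Ex3} {K : ℝ → ℝ → ℝ → Prop} (hE : SymExp E K) : 0 ≤ E I2sq :=
  hE.nonneg _ (fun a b c _ => sq_nonneg _)

/-- the moments of the message of a law in the class -/
theorem chan_bounds {d : ℕ} (hd : 1 ≤ d) {lb kap bp bm : ℝ} (hlb : 0 ≤ lb)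
    {lam : ℝ} (h1 : lam ≤ 0) (hlam : -lb ≤ lam) (hKS : (d : ℝ) * lam ^ 2 ≤ 1)
    {E : Ex3} (hE : SymExp E Simp) {M : ℝ} (hM : 0 < M)
    (hm : E I2 ≤ M) (hb1 : E I3 ≤ bp * M ^ 2) (hb2 : -(bm * M ^ 2) ≤ E I3)
    (hq : E I2sq ≤ kap * M ^ 2) (hbm : 0 ≤ bm) (hbp : 0 ≤ bp) :
    0 ≤ chan lam E I2 ∧ chan lam E I2 ≤ M * (d : ℝ)⁻¹
      ∧ -((lb * bp * (d : ℝ)⁻¹) * M ^ 2) ≤ chan lam E I3
      ∧ chan lam E I3 ≤ (lb * bm * (d : ℝ)⁻¹) * M ^ 2
      ∧ chan lam E I2sq ≤ (kap * (d : ℝ)⁻¹ * (d : ℝ)⁻¹) * M ^ 2 := by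
  have hD : (0 : ℝ) < d := by exact_mod_cast hd
  set i : ℝ := (d : ℝ)⁻¹ with hi
  have hi0 : 0 < i := inv_pos.2 hD
  have hl2 : lam ^ 2 ≤ i := by
    have h2 : i * ((d : ℝ) * lam ^ 2) ≤ i * 1 := mul_le_mul_of_nonneg_left hKS hi0.le
    have h3 : i * ((d : ℝ) * lam ^ 2) = lam ^ 2 := by
      rw [hi]; field_simp
    linarith only [h2, h3]
  have hl20 : 0 ≤ lam ^ 2 := sq_nonneg lam
  have hm0 : 0 ≤ E I2 := E_I2_nonneg hE
  have hq0 : 0 ≤ E I2sq := E_I2sq_nonneg hE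
  have hl0 : 0 ≤ -lam := by linarith only [h1]
  have hll : -lam ≤ lb := by linarith only [hlam]
  have hl3 : (-lam) ^ 3 ≤ lb * i := by
    have e : (-lam) ^ 3 = (-lam) * lam ^ 2 := by ring
    rw [e]
    exact mul_le_mul hll hl2 hl20 hlb
  have hl30 : 0 ≤ (-lam) ^ 3 := by positivity
  have hM2 : 0 ≤ M ^ 2 := sq_nonneg M
  rw [m2_chan hE, I3_chan_E hE, I2sq_chan hE]
  refine ⟨by positivity, ?_, ?_, ?_, ?_⟩
  · calc lam ^ 2 * E I2 ≤ i * M := mul_le_mul hl2 hm hm0 hi0.le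
      _ = M * i := by ring
  · have e : lam ^ 3 * E I3 = -((-lam) ^ 3 * E I3) := by ring
    rw [e]
    have h2 : (-lam) ^ 3 * E I3 ≤ (-lam) ^ 3 * (bp * M ^ 2) :=
      mul_le_mul_of_nonneg_left hb1 hl30
    have h3 : (-lam) ^ 3 * (bp * M ^ 2) ≤ (lb * i) * (bp * M ^ 2) :=
      mul_le_mul_of_nonneg_right hl3 (by positivity)
    linarith only [h2, h3]
  · have e : lam ^ 3 * E I3 = -((-lam) ^ 3 * E I3) := by ring
    rw [e]
    have h2 : (-lam) ^ 3 * (-(bm * M ^ 2)) ≤ (-lam) ^ 3 * E I3 :=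
      mul_le_mul_of_nonneg_left hb2 hl30
    have h3 : (-lam) ^ 3 * (bm * M ^ 2) ≤ (lb * i) * (bm * M ^ 2) :=
      mul_le_mul_of_nonneg_right hl3 (by positivity)
    linarith only [h2, h3]
  · have h4 : lam ^ 4 ≤ i * i := by
      have e : lam ^ 4 = lam ^ 2 * lam ^ 2 := by ring
      rw [e]
      exact mul_le_mul hl2 hl2 hl20 hi0.le
    have hk0 : 0 ≤ kap * M ^ 2 := le_trans hq0 hq
    calc lam ^ 4 * E I2sq ≤ (i * i) * (kap * M ^ 2) := mul_le_mul h4 hq hq0 (by positivity)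
      _ = kap * i * i * M ^ 2 := by ring

/-- The table bounds the moments of the iterated products. -/
theorem tail_rows {d : ℕ} (hd : 1 ≤ d) {M0 lb kap bp bm : ℚ} (hM0 : 0 < M0)
    (hlb : 0 ≤ lb) (hk : 0 ≤ kap) (hbp : 0 ≤ bp) (hbm : 0 ≤ bm) (hM01 : M0 ≤ 1 / 10)
    {lam : ℝ} (h0 : -(1 / 2) ≤ lam) (h1 : lam ≤ 0) (hlam : -(lb : ℝ) ≤ lam)
    (hKS : (d : ℝ) * lam ^ 2 ≤ 1)
    {E : Ex3} (hE : SymExp E Simp) {M : ℝ} (hM : 0 < M) (hMM : M ≤ M0)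
    (hcl : InClass kap bp bm E M) (k : ℕ) :
    Pk (chan lam E) k I2 ≤ M * ((k : ℝ) * (d : ℝ)⁻¹ - M * ((Env.table d M0 lb kap bp bm k).p : ℝ)
        + M ^ 2 * ((Env.table d M0 lb kap bp bm k).r : ℝ))
    ∧ -(M ^ 2 * ((Env.table d M0 lb kap bp bm k).vm : ℝ)) ≤ Pk (chan lam E) k I3
    ∧ Pk (chan lam E) k I3 ≤ M ^ 2 * ((Env.table d M0 lb kap bp bm k).vp : ℝ)
    ∧ Pk (chan lam E) k I2sq ≤ M ^ 2 * ((Env.table d M0 lb kap bp bm k).w : ℝ) := by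
  have hD : (0 : ℝ) < d := by exact_mod_cast hd
  have hD1 : (1 : ℝ) ≤ d := by exact_mod_cast hd
  have hE'N : SymExp (chan lam E) MsgN := chan_symExp_neg hE h0 h1
  have hE' : SymExp (chan lam E) Simp := hE'N.of_subset (fun _ _ _ h => MsgN.simp h)
  have hlbR : (0 : ℝ) ≤ lb := by exact_mod_cast hlb
  have hbpR : (0 : ℝ) ≤ bp := by exact_mod_cast hbp
  have hbmR : (0 : ℝ) ≤ bm := by exact_mod_cast hbm
  have hkR : (0 : ℝ) ≤ kap := by exact_mod_cast hk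
  have hM01R : (M0 : ℝ) ≤ 1 / 10 := by
    have h : ((M0 : ℚ) : ℝ) ≤ ((1 / 10 : ℚ) : ℝ) := Rat.cast_le.2 hM01
    simpa using h
  have hmsg := chan_bounds hd hlbR h1 hlam hKS hE hM hcl.m_le hcl.b_le hcl.b_ge hcl.q_le hbmR hbpR
  obtain ⟨hC0, hC, hG1, hG2, hq⟩ := hmsg
  have hi0 : (0 : ℝ) ≤ (d : ℝ)⁻¹ := (inv_pos.2 hD).le
  have hi1 : (d : ℝ)⁻¹ ≤ 1 := inv_le_one_of_one_le₀ hD1
  induction k with
  | zero =>
    have e1 : Pk (chan lam E) 0 I2 = 0 := Pk_zero_I2 _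
    have e2 : Pk (chan lam E) 0 I3 = 0 := by
      show I3 (1 / 3) (1 / 3) (1 / 3) = 0
      unfold I3
      norm_num
    have e3 : Pk (chan lam E) 0 I2sq = 0 := by
      show (I2 (1 / 3) (1 / 3) (1 / 3)) ^ 2 = 0
      unfold I2
      norm_num
    rw [e1, e2, e3]
    simp [Env.table]
  | succ k ih =>
    obtain ⟨iA, iB1, iB2, iQ⟩ := ih
    set e := Env.table d M0 lb kap bp bm k with he
    have hnn : e.NN := Env.table_nn hM0 hlb hk hbp hbm k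
    have hP : SymExp (Pk (chan lam E) k) Simp := Pk_symExp0 hE' k
    have hxc : ((Env.xq d k : ℚ) : ℝ) = (k : ℝ) * (d : ℝ)⁻¹ := by
      unfold Env.xq
      push_cast
      ring
    have hgpc : ((Env.gpq d lb bm : ℚ) : ℝ) = (lb : ℝ) * bm * (d : ℝ)⁻¹ := by
      unfold Env.gpq
      push_cast
      ring
    have hgmc : ((Env.gmq d lb bp : ℚ) : ℝ) = (lb : ℝ) * bp * (d : ℝ)⁻¹ := by
      unfold Env.gmq
      push_cast
      ring
    have hqbc : ((Env.qbq d kap : ℚ) : ℝ) = (kap : ℝ) * (d : ℝ)⁻¹ * (d : ℝ)⁻¹ := by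
      unfold Env.qbq
      push_cast
      ring
    have hdq : (0 : ℚ) ≤ d := Nat.cast_nonneg d
    have hgpq0 : (0 : ℚ) ≤ Env.gpq d lb bm := by unfold Env.gpq; positivity
    have hgmq0 : (0 : ℚ) ≤ Env.gmq d lb bp := by unfold Env.gmq; positivity
    have hqbq0 : (0 : ℚ) ≤ Env.qbq d kap := by unfold Env.qbq; positivity
    have hxq0 : (0 : ℚ) ≤ Env.xq d k := by unfold Env.xq; positivity
    have step := env_step_real (i := (d : ℝ)⁻¹) (M := M) (M0 := (M0 : ℝ))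
      (x := ((Env.xq d k : ℚ) : ℝ)) (p := (e.p : ℝ)) (r := (e.r : ℝ)) (vp := (e.vp : ℝ))
      (vm := (e.vm : ℝ)) (w := (e.w : ℝ)) (gp := ((Env.gpq d lb bm : ℚ) : ℝ))
      (gm := ((Env.gmq d lb bp : ℚ) : ℝ)) (qb := ((Env.qbq d kap : ℚ) : ℝ))
      (A := Pk (chan lam E) k I2) (B := Pk (chan lam E) k I3) (Q := Pk (chan lam E) k I2sq)
      (C := chan lam E I2) (G := chan lam E I3) (q := chan lam E I2sq)
      (A' := Pk (chan lam E) (k + 1) I2) (B' := Pk (chan lam E) (k + 1) I3)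
      (Q' := Pk (chan lam E) (k + 1) I2sq)
      (uh := ((Env.uhq d k M0 e : ℚ) : ℝ)) (eh := ((Env.ehq d k M0 kap e : ℚ) : ℝ))
      (s1 := 9 * ((Env.gmq d lb bp : ℚ) : ℝ) + 6 * ((Env.qbq d kap : ℚ) : ℝ))
      (s2 := 9 * (e.vm : ℝ) + 6 * (e.w : ℝ))
      (t := max ((e.vp : ℝ) * ((Env.gpq d lb bm : ℚ) : ℝ)) ((e.vm : ℝ) * ((Env.gmq d lb bp : ℚ) : ℝ)))
      (t2 := max ((e.vp : ℝ) * ((Env.gmq d lb bp : ℚ) : ℝ)) ((e.vm : ℝ) * ((Env.gpq d lb bm : ℚ) : ℝ)))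
      (vh := max (e.vp : ℝ) (e.vm : ℝ))
      (gh := max ((Env.gpq d lb bm : ℚ) : ℝ) ((Env.gmq d lb bp : ℚ) : ℝ))
      hi0 hi1 hM hMM hM01R (by exact_mod_cast hxq0)
      (by exact_mod_cast hnn.p) (by exact_mod_cast hnn.r) (by exact_mod_cast hnn.vp)
      (by exact_mod_cast hnn.vm) (by exact_mod_cast hnn.w)
      (by exact_mod_cast hgpq0) (by exact_mod_cast hgmq0) (by exact_mod_cast hqbq0)
      (E_I2_nonneg hP) (E_I2_le hP) (by rw [hxc]; exact iA) iB1 iB2 iQ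
      hC0 hC (by rw [hgmc]; exact hG1) (by rw [hgpc]; exact hG2) (by rw [hqbc]; exact hq)
      (bprod_R1 hP hE'N) (bprod_R2 hP hE'N) (bprod_R3 hP hE'N) (bprod_R4 hP hE'N)
      (by unfold Env.uhq; push_cast; ring)
      (by unfold Env.ehq; push_cast; ring)
      rfl rfl (le_max_left _ _) (le_max_right _ _) (le_max_left _ _) (le_max_right _ _)
      (le_max_left _ _) (le_max_right _ _) (le_max_left _ _) (le_max_right _ _)
    obtain ⟨s1, s2, s3, s4⟩ := step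
    have hcast : ((k + 1 : ℕ) : ℝ) * (d : ℝ)⁻¹ = ((Env.xq d k : ℚ) : ℝ) + (d : ℝ)⁻¹ := by
      rw [hxc]; push_cast; ring
    have ep : ((Env.table d M0 lb kap bp bm (k + 1)).p : ℝ)
        = (e.p : ℝ) + 3 / 2 * ((Env.xq d k : ℚ) : ℝ) * (d : ℝ)⁻¹ := by
      show ((Env.next d k M0 lb kap bp bm e).p : ℝ) = _
      rw [Env.next_p]
      push_cast
      ring
    have er : ((Env.table d M0 lb kap bp bm (k + 1)).r : ℝ)
        = (e.r : ℝ) + 3 / 2 * (e.p : ℝ) * (d : ℝ)⁻¹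
          + (9 * ((Env.gmq d lb bp : ℚ) : ℝ) + 6 * ((Env.qbq d kap : ℚ) : ℝ)) * ((Env.xq d k : ℚ) : ℝ)
          + (9 * (e.vm : ℝ) + 6 * (e.w : ℝ)) * (d : ℝ)⁻¹
          + 27 * (M0 : ℝ) * max ((e.vp : ℝ) * ((Env.gpq d lb bm : ℚ) : ℝ))
              ((e.vm : ℝ) * ((Env.gmq d lb bp : ℚ) : ℝ))
          + (M0 : ℝ) ^ 2 * (9 * ((Env.gmq d lb bp : ℚ) : ℝ) + 6 * ((Env.qbq d kap : ℚ) : ℝ)) * (e.r : ℝ) := by
      show ((Env.next d k M0 lb kap bp bm e).r : ℝ) = _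
      rw [Env.next_r]
      push_cast
      ring
    have evp : ((Env.table d M0 lb kap bp bm (k + 1)).vp : ℝ)
        = (e.vp : ℝ) + ((Env.gpq d lb bm : ℚ) : ℝ) + 3 * ((Env.uhq d k M0 e : ℚ) : ℝ) * (d : ℝ)⁻¹
          + (M0 : ℝ) * (9 * ((e.vm : ℝ) * (d : ℝ)⁻¹ + ((Env.uhq d k M0 e : ℚ) : ℝ) * ((Env.gmq d lb bp : ℚ) : ℝ))
            + 9 / 2 * (M0 : ℝ) * max ((e.vp : ℝ) * ((Env.gpq d lb bm : ℚ) : ℝ))
              ((e.vm : ℝ) * ((Env.gmq d lb bp : ℚ) : ℝ))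
            + 2 * ((Env.ehq d k M0 kap e : ℚ) : ℝ)) := by
      show ((Env.next d k M0 lb kap bp bm e).vp : ℝ) = _
      rw [Env.next_vp]
      push_cast
      ring
    have evm : ((Env.table d M0 lb kap bp bm (k + 1)).vm : ℝ)
        = (e.vm : ℝ) + ((Env.gmq d lb bp : ℚ) : ℝ)
          + (M0 : ℝ) * (9 * ((e.vp : ℝ) * (d : ℝ)⁻¹ + ((Env.uhq d k M0 e : ℚ) : ℝ) * ((Env.gpq d lb bm : ℚ) : ℝ))
            + 9 / 2 * (M0 : ℝ) * max ((e.vp : ℝ) * ((Env.gmq d lb bp : ℚ) : ℝ))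
              ((e.vm : ℝ) * ((Env.gpq d lb bm : ℚ) : ℝ))
            + 7 * ((Env.ehq d k M0 kap e : ℚ) : ℝ)) := by
      show ((Env.next d k M0 lb kap bp bm e).vm : ℝ) = _
      rw [Env.next_vm]
      push_cast
      ring
    have ew : ((Env.table d M0 lb kap bp bm (k + 1)).w : ℝ)
        = (e.w : ℝ) + ((Env.qbq d kap : ℚ) : ℝ) + 4 * ((Env.uhq d k M0 e : ℚ) : ℝ) * (d : ℝ)⁻¹
          + (M0 : ℝ) * (12 * (max (e.vp : ℝ) (e.vm : ℝ) * (d : ℝ)⁻¹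
              + ((Env.uhq d k M0 e : ℚ) : ℝ) * max ((Env.gpq d lb bm : ℚ) : ℝ) ((Env.gmq d lb bp : ℚ) : ℝ))
            + 18 * (M0 : ℝ) * max (e.vp : ℝ) (e.vm : ℝ) * max ((Env.gpq d lb bm : ℚ) : ℝ) ((Env.gmq d lb bp : ℚ) : ℝ)
            + 70 * ((Env.ehq d k M0 kap e : ℚ) : ℝ)) := by
      show ((Env.next d k M0 lb kap bp bm e).w : ℝ) = _
      rw [Env.next_w]
      push_cast
      ring
    rw [ep, er, evp, evm, ew, hcast]
    exact ⟨s1, s3, s2, s4⟩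

/-- One generation maps the class for `M` into the class for `M - c M^2`. -/
theorem tail_step {d : ℕ} (hd : 1 ≤ d) {M0 lb kap bp bm c : ℚ} (hc : 0 < c) (hM0 : 0 < M0)
    (hlb : 0 ≤ lb) (hk : 0 ≤ kap) (hbp : 0 ≤ bp) (hbm : 0 ≤ bm) (hM01 : M0 ≤ 1 / 10)
    (hcM : c * M0 ≤ 1)
    (hchk : Env.check d M0 lb kap bp bm c = true)
    {lam : ℝ} (h0 : -(1 / 2) ≤ lam) (h1 : lam ≤ 0) (hlam : -(lb : ℝ) ≤ lam)
    (hKS : (d : ℝ) * lam ^ 2 ≤ 1)
    {E : Ex3} (hE : SymExp E Simp) {M : ℝ} (hM : 0 < M) (hMM : M ≤ M0)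
    (hcl : InClass kap bp bm E M) :
    InClass kap bp bm (Pk (chan lam E) d) (M - c * M ^ 2) := by
  obtain ⟨iA, iB1, iB2, iQ⟩ := tail_rows hd hM0 hlb hk hbp hbm hM01 h0 h1 hlam hKS hE hM hMM hcl d
  set e := Env.table d M0 lb kap bp bm d with he
  have hnn : e.NN := Env.table_nn hM0 hlb hk hbp hbm d
  have hchk' : c + M0 * e.r ≤ e.p ∧ e.vp ≤ bp * (1 - c * M0) ^ 2 ∧
      e.vm ≤ bm * (1 - c * M0) ^ 2 ∧ e.w ≤ kap * (1 - c * M0) ^ 2 := by
    have h := hchk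
    unfold Env.check at h
    simp only [Bool.and_eq_true, decide_eq_true_eq] at h
    rw [← he] at h
    obtain ⟨⟨⟨a1, a2⟩, a3⟩, a4⟩ := h
    exact ⟨a1, a2, a3, a4⟩
  obtain ⟨c1, c2, c3, c4⟩ := hchk'
  have c1R : (c : ℝ) + (M0 : ℝ) * (e.r : ℝ) ≤ (e.p : ℝ) := by exact_mod_cast c1
  have c2R : (e.vp : ℝ) ≤ (bp : ℝ) * (1 - (c : ℝ) * (M0 : ℝ)) ^ 2 := by exact_mod_cast c2
  have c3R : (e.vm : ℝ) ≤ (bm : ℝ) * (1 - (c : ℝ) * (M0 : ℝ)) ^ 2 := by exact_mod_cast c3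
  have c4R : (e.w : ℝ) ≤ (kap : ℝ) * (1 - (c : ℝ) * (M0 : ℝ)) ^ 2 := by exact_mod_cast c4
  have hD : (0 : ℝ) < d := by exact_mod_cast hd
  have hcR : (0 : ℝ) < c := by exact_mod_cast hc
  have hrR : (0 : ℝ) ≤ e.r := by exact_mod_cast hnn.r
  have hcMR : (c : ℝ) * (M0 : ℝ) ≤ 1 := by exact_mod_cast hcM
  have hbpR : (0 : ℝ) ≤ bp := by exact_mod_cast hbp
  have hbmR : (0 : ℝ) ≤ bm := by exact_mod_cast hbm
  have hkR : (0 : ℝ) ≤ kap := by exact_mod_cast hk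
  -- the new radius
  have hsq : M ^ 2 * (1 - (c : ℝ) * (M0 : ℝ)) ^ 2 ≤ (M - c * M ^ 2) ^ 2 := by
    have h2 : M * (1 - (c : ℝ) * (M0 : ℝ)) ≤ M - c * M ^ 2 := by
      have h3 : (c : ℝ) * M ^ 2 ≤ M * (c * (M0 : ℝ)) := by
        have h4 : M * (c * M) ≤ M * (c * (M0 : ℝ)) :=
          mul_le_mul_of_nonneg_left (mul_le_mul_of_nonneg_left hMM hcR.le) hM.le
        linarith only [h4]
      linarith only [h3]
    have h5 : 0 ≤ M * (1 - (c : ℝ) * (M0 : ℝ)) := mul_nonneg hM.le (by linarith only [hcMR])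
    calc M ^ 2 * (1 - (c : ℝ) * (M0 : ℝ)) ^ 2 = (M * (1 - (c : ℝ) * (M0 : ℝ))) ^ 2 := by ring
      _ ≤ (M - c * M ^ 2) ^ 2 := pow_le_pow_left₀ h5 h2 2
  refine ⟨?_, ?_, ?_, ?_⟩
  · have hdd : (d : ℝ) * (d : ℝ)⁻¹ = 1 := mul_inv_cancel₀ hD.ne'
    rw [hdd] at iA
    have h2 : M ^ 2 * ((c : ℝ) + M * (e.r : ℝ)) ≤ M ^ 2 * (e.p : ℝ) := by
      apply mul_le_mul_of_nonneg_left _ (sq_nonneg M)
      have h3 : M * (e.r : ℝ) ≤ (M0 : ℝ) * (e.r : ℝ) := mul_le_mul_of_nonneg_right hMM hrR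
      linarith only [h3, c1R]
    linarith only [h2, iA]
  · have h2 : M ^ 2 * (e.vp : ℝ) ≤ M ^ 2 * ((bp : ℝ) * (1 - (c : ℝ) * (M0 : ℝ)) ^ 2) :=
      mul_le_mul_of_nonneg_left c2R (sq_nonneg M)
    have h3 := mul_le_mul_of_nonneg_left hsq hbpR
    linarith only [h2, h3, iB2]
  · have h2 : M ^ 2 * (e.vm : ℝ) ≤ M ^ 2 * ((bm : ℝ) * (1 - (c : ℝ) * (M0 : ℝ)) ^ 2) :=
      mul_le_mul_of_nonneg_left c3R (sq_nonneg M)
    have h3 := mul_le_mul_of_nonneg_left hsq hbmR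
    linarith only [h2, h3, iB1]
  · have h2 : M ^ 2 * (e.w : ℝ) ≤ M ^ 2 * ((kap : ℝ) * (1 - (c : ℝ) * (M0 : ℝ)) ^ 2) :=
      mul_le_mul_of_nonneg_left c4R (sq_nonneg M)
    have h3 := mul_le_mul_of_nonneg_left hsq hkR
    linarith only [h2, h3, iQ]

/-- The iterates from a law in the class. -/
noncomputable def tailIter (d : ℕ) (lam : ℝ) (E0 : Ex3) : ℕ → Ex3
  | 0 => E0
  | n + 1 => Pk (chan lam (tailIter d lam E0 n)) d

theorem tailIter_symExp {d : ℕ} {lam : ℝ} (h0 : -(1 / 2) ≤ lam) (h1 : lam ≤ 0) {E0 : Ex3}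
    (hE : SymExp E0 Simp) (n : ℕ) : SymExp (tailIter d lam E0 n) Simp := by
  induction n with
  | zero => exact hE
  | succ n ih =>
    exact Pk_symExp0 ((chan_symExp_neg ih h0 h1).of_subset (fun _ _ _ h => MsgN.simp h)) d

theorem InClass.mono {kap bp bm : ℝ} {E : Ex3} {M M' : ℝ} (hbp : 0 ≤ bp) (hbm : 0 ≤ bm)
    (hk : 0 ≤ kap) (h0 : 0 ≤ M) (hMM : M ≤ M') (h : InClass kap bp bm E M) :
    InClass kap bp bm E M' := by
  have hs : M ^ 2 ≤ M' ^ 2 := pow_le_pow_left₀ h0 hMM 2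
  refine ⟨h.m_le.trans hMM, h.b_le.trans (mul_le_mul_of_nonneg_left hs hbp), ?_,
    h.q_le.trans (mul_le_mul_of_nonneg_left hs hk)⟩
  have := mul_le_mul_of_nonneg_left hs hbm
  linarith only [this, h.b_ge]

/-- Second moments of the iterates tend to zero. -/
theorem tail_tendsto {d : ℕ} (hd : 1 ≤ d) {M0 lb kap bp bm c : ℚ} (hc : 0 < c) (hM0 : 0 < M0)
    (hlb : 0 ≤ lb) (hk : 0 ≤ kap) (hbp : 0 ≤ bp) (hbm : 0 ≤ bm) (hM01 : M0 ≤ 1 / 10)
    (hcM : c * M0 ≤ 1)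
    (hchk : Env.check d M0 lb kap bp bm c = true)
    {lam : ℝ} (h0 : -(1 / 2) ≤ lam) (h1 : lam ≤ 0) (hlam : -(lb : ℝ) ≤ lam)
    (hKS : (d : ℝ) * lam ^ 2 ≤ 1)
    {E0 : Ex3} (hE : SymExp E0 Simp) (hcl : InClass kap bp bm E0 M0) :
    Tendsto (fun n => tailIter d lam E0 n I2) atTop (𝓝 0) := by
  have hcR : (0 : ℝ) < c := by exact_mod_cast hc
  have hM0R : (0 : ℝ) < M0 := by exact_mod_cast hM0
  have hcMR : (c : ℝ) * (M0 : ℝ) ≤ 1 := by exact_mod_cast hcM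
  have hbpR : (0 : ℝ) ≤ bp := by exact_mod_cast hbp
  have hbmR : (0 : ℝ) ≤ bm := by exact_mod_cast hbm
  have hkR : (0 : ℝ) ≤ kap := by exact_mod_cast hk
  -- the radii
  let m : ℕ → ℝ := fun n => Nat.rec (M0 : ℝ) (fun _ x => x - (c : ℝ) / 2 * x ^ 2) n
  have hm0 : m 0 = M0 := rfl
  have hms : ∀ n, m (n + 1) = m n - (c : ℝ) / 2 * m n ^ 2 := fun n => rfl
  have hbd : ∀ n, 0 < m n ∧ m n ≤ M0 := by
    intro n
    induction n with
    | zero => exact ⟨hM0R, le_refl _⟩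
    | succ n ih =>
      obtain ⟨i1, i2⟩ := ih
      rw [hms]
      have h2 : (c : ℝ) / 2 * m n ≤ 1 / 2 := by
        have := mul_le_mul_of_nonneg_left i2 hcR.le
        linarith only [this, hcMR]
      have h3 : m n - (c : ℝ) / 2 * m n ^ 2 = m n * (1 - (c : ℝ) / 2 * m n) := by ring
      constructor
      · rw [h3]
        exact mul_pos i1 (by linarith only [h2])
      · have : 0 ≤ (c : ℝ) / 2 * m n ^ 2 := by positivity
        linarith only [this, i2]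
  have hclass : ∀ n, InClass kap bp bm (tailIter d lam E0 n) (m n) := by
    intro n
    induction n with
    | zero => exact hcl
    | succ n ih =>
      obtain ⟨i1, i2⟩ := hbd n
      have h2 := tail_step hd hc hM0 hlb hk hbp hbm hM01 hcM hchk h0 h1 hlam hKS
        (tailIter_symExp h0 h1 hE n) i1 i2 ih
      have h3 : m n - (c : ℝ) * m n ^ 2 ≤ m (n + 1) := by
        rw [hms]
        have : 0 ≤ (c : ℝ) / 2 * m n ^ 2 := by positivity
        linarith only [this]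
      have h4 : 0 ≤ m n - (c : ℝ) * m n ^ 2 := by
        have h5 : (c : ℝ) * m n ≤ 1 := by
          have := mul_le_mul_of_nonneg_left i2 hcR.le
          linarith only [this, hcMR]
        have h6 : m n - (c : ℝ) * m n ^ 2 = m n * (1 - (c : ℝ) * m n) := by ring
        rw [h6]
        exact mul_nonneg i1.le (by linarith only [h5])
      exact InClass.mono hbpR hbmR hkR h4 h3 h2
  -- the radii tend to zero
  have hanti : Antitone m := by
    refine antitone_nat_of_succ_le (fun n => ?_)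
    rw [hms]
    have : 0 ≤ (c : ℝ) / 2 * m n ^ 2 := by positivity
    linarith only [this]
  have hbdd : BddBelow (Set.range m) := ⟨0, by rintro _ ⟨n, rfl⟩; exact (hbd n).1.le⟩
  have hlim := tendsto_atTop_ciInf hanti hbdd
  set L := ⨅ n, m n with hL
  have hL0 : 0 ≤ L := le_ciInf (fun n => (hbd n).1.le)
  have hl1 : Tendsto (fun n => m (n + 1)) atTop (𝓝 L) := hlim.comp (tendsto_add_atTop_nat 1)
  have hl2 : Tendsto (fun n => m n - (c : ℝ) / 2 * m n ^ 2) atTop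
      (𝓝 (L - (c : ℝ) / 2 * L ^ 2)) :=
    hlim.sub ((hlim.pow 2).const_mul _)
  have hLeq : L = L - (c : ℝ) / 2 * L ^ 2 := by
    refine tendsto_nhds_unique hl1 ?_
    exact hl2.congr (fun n => (hms n).symm)
  have hL2 : L ^ 2 = 0 := by
    have h5 : (c : ℝ) / 2 * L ^ 2 = 0 := by linarith only [hLeq]
    rcases mul_eq_zero.1 h5 with h7 | h7
    · exact absurd h7 (by positivity)
    · exact h7
  have hLz : L = 0 := by simpa using hL2
  rw [hLz] at hlim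
  refine squeeze_zero (fun n => E_I2_nonneg (tailIter_symExp h0 h1 hE n)) (fun n => ?_) hlim
  exact (hclass n).m_le

/-- the numerical table closes at these parameters -/
example : Env.check 4 (233 / 10000) (1 / 2) 7 (5 / 2) 2 (1 / 20) = true := by decide +kernel

end Vale.Agent.Lib.P154
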