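import Vale.Agent.Lib.P154.Defs
import Vale.Agent.Lib.P154.Rec

/-!
The link between the tree recursion and the functionals.
-/

namespace Vale.Agent.Lib.P154

open scoped BigOperators
open Filter Topology

section generic

variable {C : Type} [Fintype C]

/-- algebra of one product step -/
theorem step_algebra (f : Fn3) (W wt' L0 L1 L2 p q r : ℝ) (k : ℕ)
    (hS : 0 < L0 + L1 + L2) (hS' : 0 < p * L0 + q * L1 + r * L2) :
    (W * (3 ^ k / 3 * (L0 + L1 + L2))) *
        (wt' * wt f (L0 / (L0 + L1 + L2)) (L1 / (L0 + L1 + L2)) (L2 / (L0 + L1 + L2)) p q r)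
      = (wt' * W) * (3 ^ (k + 1) / 3 * (p * L0 + q * L1 + r * L2)) *
        f (p * L0 / (p * L0 + q * L1 + r * L2)) (q * L1 / (p * L0 + q * L1 + r * L2))
          (r * L2 / (p * L0 + q * L1 + r * L2)) := by
  unfold wt
  set S := L0 + L1 + L2 with hSd
  set S' := p * L0 + q * L1 + r * L2 with hSd'
  have hne : S ≠ 0 := hS.ne'
  have hne' : S' ≠ 0 := hS'.ne'
  have e0 : L0 / S * p + L1 / S * q + L2 / S * r = S' / S := by
    rw [hSd']
    field_simp
  have e1 : L0 / S * p / (S' / S) = p * L0 / S' := by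
    field_simp
  have e2 : L1 / S * q / (S' / S) = q * L1 / S' := by
    field_simp
  have e3 : L2 / S * r / (S' / S) = r * L2 / S' := by
    field_simp
  rw [e0, e1, e2, e3]
  field_simp
  ring

/-- The `k`-fold product functional as a sum over `k`-tuples. -/
theorem Pk_sum (w y0 y1 y2 : C → ℝ) (h0 : ∀ t, 0 < y0 t) (h1 : ∀ t, 0 < y1 t) (h2 : ∀ t, 0 < y2 t)
    (E' : Ex3) (hE' : ∀ f : Fn3, E' f = ∑ t, w t * f (y0 t) (y1 t) (y2 t)) (k : ℕ) :
    ∀ f : Fn3, Pk E' k f = ∑ s : Fin k → C,
      (∏ c, w (s c)) * (3 ^ k / 3 * (∏ c, y0 (s c) + ∏ c, y1 (s c) + ∏ c, y2 (s c))) *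
        f ((∏ c, y0 (s c)) / (∏ c, y0 (s c) + ∏ c, y1 (s c) + ∏ c, y2 (s c)))
          ((∏ c, y1 (s c)) / (∏ c, y0 (s c) + ∏ c, y1 (s c) + ∏ c, y2 (s c)))
          ((∏ c, y2 (s c)) / (∏ c, y0 (s c) + ∏ c, y1 (s c) + ∏ c, y2 (s c))) := by
  induction k with
  | zero =>
    intro f
    rw [Fintype.sum_unique]
    simp only [Pk, centre, Finset.univ_eq_empty, Finset.prod_empty]
    norm_num
  | succ k ih =>
    intro f
    have hstep : Pk E' (k + 1) f
        = Pk E' k (fun a b c => E' (fun p q r => wt f a b c p q r)) := rfl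
    rw [hstep, ih]
    simp only [hE']
    have hequiv := (Fin.consEquiv (fun _ : Fin (k + 1) => C)).sum_comp
      (fun s : Fin (k + 1) → C => (∏ c, w (s c)) *
        (3 ^ (k + 1) / 3 * (∏ c, y0 (s c) + ∏ c, y1 (s c) + ∏ c, y2 (s c))) *
        f ((∏ c, y0 (s c)) / (∏ c, y0 (s c) + ∏ c, y1 (s c) + ∏ c, y2 (s c)))
          ((∏ c, y1 (s c)) / (∏ c, y0 (s c) + ∏ c, y1 (s c) + ∏ c, y2 (s c)))
          ((∏ c, y2 (s c)) / (∏ c, y0 (s c) + ∏ c, y1 (s c) + ∏ c, y2 (s c))))
    rw [← hequiv, Fintype.sum_prod_type, Finset.sum_comm]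
    refine Finset.sum_congr rfl (fun s _ => ?_)
    rw [Finset.mul_sum]
    refine Finset.sum_congr rfl (fun t _ => ?_)
    have hcons : ∀ g : C → ℝ, ∏ c, g ((Fin.consEquiv (fun _ : Fin (k + 1) => C)) (t, s) c)
        = g t * ∏ c, g (s c) := by
      intro g
      rw [Fin.prod_univ_succ]
      rfl
    simp only [hcons]
    have p0 : 0 < ∏ c, y0 (s c) := Finset.prod_pos (fun c _ => h0 _)
    have p1 : 0 < ∏ c, y1 (s c) := Finset.prod_pos (fun c _ => h1 _)
    have p2 : 0 < ∏ c, y2 (s c) := Finset.prod_pos (fun c _ => h2 _)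
    have hS : 0 < ∏ c, y0 (s c) + ∏ c, y1 (s c) + ∏ c, y2 (s c) := by positivity
    have hS' : 0 < y0 t * ∏ c, y0 (s c) + y1 t * ∏ c, y1 (s c) + y2 t * ∏ c, y2 (s c) := by
      have := h0 t
      have := h1 t
      have := h2 t
      positivity
    exact step_algebra f _ _ _ _ _ _ _ _ k hS hS'

end generic

section tree

variable {d : ℕ} {lam : ℝ}

/-- the total likelihood of a configuration -/
noncomputable def totLik (d : ℕ) (lam : ℝ) (n : ℕ) (s : LeafConfig d 3 n) : ℝ :=
  leafLik d 3 lam n 0 s + leafLik d 3 lam n 1 s + leafLik d 3 lam n 2 s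

theorem sum_potts (lam : ℝ) (i : Fin 3) (g : Fin 3 → ℝ) :
    ∑ j : Fin 3, potts 3 lam i j * g j = lam * g i + (1 - lam) / 3 * (g 0 + g 1 + g 2) := by
  rw [Fin.sum_univ_three]
  unfold potts
  fin_cases i <;> simp <;> ring

theorem leafLik_succ (lam : ℝ) (n : ℕ) (i : Fin 3) (s : LeafConfig d 3 (n + 1)) :
    leafLik d 3 lam (n + 1) i s = ∏ c : Fin d,
      (lam * leafLik d 3 lam n i ((s : Fin d → LeafConfig d 3 n) c)
        + (1 - lam) / 3 * totLik d lam n ((s : Fin d → LeafConfig d 3 n) c)) := by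
  show (∏ c : Fin d, ∑ j : Fin 3, potts 3 lam i j * leafLik d 3 lam n j
    ((s : Fin d → LeafConfig d 3 n) c)) = _
  refine Finset.prod_congr rfl (fun c _ => ?_)
  rw [sum_potts]
  rfl

theorem delta_sum (s : Fin 3) : spinDelta 3 0 s + spinDelta 3 1 s + spinDelta 3 2 s = 1 := by
  have hs : ∀ t : Fin 3, t = 0 ∨ t = 1 ∨ t = 2 := by decide
  rcases hs s with h | h | h <;> rw [h] <;> simp [spinDelta]

/-- positivity of the likelihoods -/
theorem leafLik_props (h0 : 0 ≤ lam) (h1 : lam < 1) (n : ℕ) :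
    ∀ s : LeafConfig d 3 n, (∀ i, 0 ≤ leafLik d 3 lam n i s) ∧ 0 < totLik d lam n s := by
  induction n with
  | zero =>
    show ∀ s : Fin 3, (∀ i : Fin 3, 0 ≤ spinDelta 3 i s)
      ∧ 0 < spinDelta 3 0 s + spinDelta 3 1 s + spinDelta 3 2 s
    intro s
    constructor
    · intro i
      unfold spinDelta
      split_ifs <;> norm_num
    · rw [delta_sum]
      norm_num
  | succ n ih =>
    intro s
    have hf : ∀ (i : Fin 3) (c : Fin d),
        0 < lam * leafLik d 3 lam n i ((s : Fin d → LeafConfig d 3 n) c)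
          + (1 - lam) / 3 * totLik d lam n ((s : Fin d → LeafConfig d 3 n) c) := by
      intro i c
      have h2 := ih ((s : Fin d → LeafConfig d 3 n) c)
      have h3 := h2.1 i
      have h4 := h2.2
      have h5 : 0 < (1 - lam) / 3 := by linarith
      positivity
    have hpos : ∀ i, 0 < leafLik d 3 lam (n + 1) i s := by
      intro i
      rw [leafLik_succ]
      exact Finset.prod_pos (fun c _ => hf i c)
    refine ⟨fun i => (hpos i).le, ?_⟩
    unfold totLik
    have := hpos 0
    have := hpos 1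
    have := hpos 2
    positivity

/-- the coordinates of the posterior -/
noncomputable def postC (d : ℕ) (lam : ℝ) (n : ℕ) (i : Fin 3) (s : LeafConfig d 3 n) : ℝ :=
  leafLik d 3 lam n i s / totLik d lam n s

/-- The functional of the recursion is the law of the posterior. -/
theorem Ehat_eq_sum (h0 : 0 ≤ lam) (h1 : lam < 1) (n : ℕ) :
    ∀ f : Fn3, Ehat d lam n f = ∑ s : LeafConfig d 3 n,
      (1 / 3 * totLik d lam n s) * f (postC d lam n 0 s) (postC d lam n 1 s) (postC d lam n 2 s) := by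
  induction n with
  | zero =>
    intro f
    show 1 / 3 * (f 1 0 0 + f 0 1 0 + f 0 0 1) = ∑ s : Fin 3, _
    rw [Fin.sum_univ_three]
    have T : ∀ (s : Fin 3), totLik d lam 0 s = spinDelta 3 0 s + spinDelta 3 1 s + spinDelta 3 2 s :=
      fun _ => rfl
    have v : ∀ (s i : Fin 3), postC d lam 0 i s
        = spinDelta 3 i s / (spinDelta 3 0 s + spinDelta 3 1 s + spinDelta 3 2 s) :=
      fun _ _ => rfl
    have d00 : spinDelta 3 0 0 = 1 := by simp [spinDelta]
    have d01 : spinDelta 3 0 1 = 0 := by simp [spinDelta]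
    have d02 : spinDelta 3 0 2 = 0 := by simp [spinDelta]
    have d10 : spinDelta 3 1 0 = 0 := by simp [spinDelta]
    have d11 : spinDelta 3 1 1 = 1 := by simp [spinDelta]
    have d12 : spinDelta 3 1 2 = 0 := by simp [spinDelta]
    have d20 : spinDelta 3 2 0 = 0 := by simp [spinDelta]
    have d21 : spinDelta 3 2 1 = 0 := by simp [spinDelta]
    have d22 : spinDelta 3 2 2 = 1 := by simp [spinDelta]
    simp only [v, T, d00, d01, d02, d10, d11, d12, d20, d21, d22]
    norm_num
    ring
  | succ n ih =>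
    intro f
    -- the message functional
    set C := LeafConfig d 3 n
    have htot : ∀ t : C, 0 < totLik d lam n t := fun t => (leafLik_props h0 h1 n t).2
    have hlik : ∀ (t : C) (i : Fin 3), 0 ≤ leafLik d 3 lam n i t :=
      fun t i => (leafLik_props h0 h1 n t).1 i
    have hy : ∀ (i : Fin 3) (t : C), 0 < chanPt lam (postC d lam n i t) := by
      intro i t
      unfold chanPt postC
      have h2 : 0 ≤ leafLik d 3 lam n i t / totLik d lam n t :=
        div_nonneg (hlik t i) (htot t).le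
      have h3 : 0 < (1 - lam) / 3 := by linarith
      positivity
    have hE' : ∀ g : Fn3, chan lam (Ehat d lam n) g
        = ∑ t : C, (1 / 3 * totLik d lam n t) *
          g (chanPt lam (postC d lam n 0 t)) (chanPt lam (postC d lam n 1 t))
            (chanPt lam (postC d lam n 2 t)) := by
      intro g
      unfold chan
      rw [ih]
    have hstep : Ehat d lam (n + 1) f = Pk (chan lam (Ehat d lam n)) d f := rfl
    rw [hstep, Pk_sum _ _ _ _ (hy 0) (hy 1) (hy 2) _ hE' d f]
    show _ = ∑ s : Fin d → C, _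
    refine Finset.sum_congr rfl (fun s _ => ?_)
    -- the likelihood of a tuple
    have hchild : ∀ (i : Fin 3) (t : C),
        lam * leafLik d 3 lam n i t + (1 - lam) / 3 * totLik d lam n t
          = totLik d lam n t * chanPt lam (postC d lam n i t) := by
      intro i t
      unfold chanPt postC
      have := (htot t).ne'
      field_simp
    have hL : ∀ i : Fin 3, leafLik d 3 lam (n + 1) i s
        = (∏ c, totLik d lam n (s c)) * ∏ c, chanPt lam (postC d lam n i (s c)) := by
      intro i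
      rw [← Finset.prod_mul_distrib]
      refine (leafLik_succ lam n i s).trans ?_
      refine Finset.prod_congr rfl (fun c _ => ?_)
      exact hchild i (s c)
    have hT : 0 < ∏ c, totLik d lam n (s c) := Finset.prod_pos (fun c _ => htot _)
    have p0 : 0 < ∏ c, chanPt lam (postC d lam n 0 (s c)) := Finset.prod_pos (fun c _ => hy 0 _)
    have p1 : 0 < ∏ c, chanPt lam (postC d lam n 1 (s c)) := Finset.prod_pos (fun c _ => hy 1 _)
    have p2 : 0 < ∏ c, chanPt lam (postC d lam n 2 (s c)) := Finset.prod_pos (fun c _ => hy 2 _)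
    set L0 := ∏ c, chanPt lam (postC d lam n 0 (s c))
    set L1 := ∏ c, chanPt lam (postC d lam n 1 (s c))
    set L2 := ∏ c, chanPt lam (postC d lam n 2 (s c))
    set T := ∏ c, totLik d lam n (s c)
    have hS : 0 < L0 + L1 + L2 := by positivity
    have hL0 : leafLik d 3 lam (n + 1) 0 s = T * L0 := hL 0
    have hL1 : leafLik d 3 lam (n + 1) 1 s = T * L1 := hL 1
    have hL2 : leafLik d 3 lam (n + 1) 2 s = T * L2 := hL 2
    have htt : totLik d lam (n + 1) s = T * (L0 + L1 + L2) := by
      unfold totLik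
      rw [hL0, hL1, hL2]
      ring
    have hx0 : postC d lam (n + 1) 0 s = L0 / (L0 + L1 + L2) := by
      unfold postC
      rw [htt, hL0]
      field_simp
    have hx1 : postC d lam (n + 1) 1 s = L1 / (L0 + L1 + L2) := by
      unfold postC
      rw [htt, hL1]
      field_simp
    have hx2 : postC d lam (n + 1) 2 s = L2 / (L0 + L1 + L2) := by
      unfold postC
      rw [htt, hL2]
      field_simp
    rw [hx0, hx1, hx2, htt]
    have hW : ∏ c, (1 / 3 * totLik d lam n (s c)) = (1 / 3) ^ d * T := by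
      rw [Finset.prod_mul_distrib]
      simp
      rfl
    rw [hW]
    congr 1
    have : ((1 : ℝ) / 3) ^ d * 3 ^ d = 1 := by
      rw [← mul_pow]
      norm_num
    linear_combination (1 / 3 * T * (L0 + L1 + L2)) * this

end tree

/-- The reconstruction error in terms of the functional. -/
theorem reconError_eq {d : ℕ} {lam : ℝ} (h0 : 0 ≤ lam) (h1 : lam < 1) (n : ℕ) :
    reconError d 3 lam n
      = Ehat d lam n (fun a b c => 1 / 2 * (|a - 1 / 3| + |b - 1 / 3| + |c - 1 / 3|)) := by
  rw [Ehat_eq_sum h0 h1]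
  unfold reconError
  refine Finset.sum_congr rfl (fun s _ => ?_)
  have hT := (leafLik_props h0 h1 n s).2
  have hprob : leafProb d 3 lam n s = 1 / 3 * totLik d lam n s := by
    unfold leafProb totLik
    rw [Fin.sum_univ_three]
    push_cast
    ring
  have hpost : ∀ i, rootPosterior d 3 lam n s i = postC d lam n i s := by
    intro i
    unfold rootPosterior postC
    rw [hprob]
    have := hT.ne'
    push_cast
    field_simp
  rw [hprob, Fin.sum_univ_three, hpost, hpost, hpost]
  push_cast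
  ring

/-- a pointwise bound with a free parameter -/
theorem abs_bound {e a b c : ℝ} (he : 0 < e) :
    1 / 2 * (|a - 1 / 3| + |b - 1 / 3| + |c - 1 / 3|) ≤ 3 / 2 * e + 1 / (8 * e) * I2 a b c := by
  have key : ∀ t : ℝ, |t| ≤ e + 1 / (4 * e) * t ^ 2 := by
    intro t
    have h2 : 0 ≤ (|t| - 2 * e) ^ 2 / (4 * e) := by positivity
    have h3 : (|t| - 2 * e) ^ 2 / (4 * e) = e + 1 / (4 * e) * t ^ 2 - |t| := by
      have : |t| ^ 2 = t ^ 2 := sq_abs t
      field_simp
      ring_nf
      rw [this]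
      ring
    linarith
  have h1 := key (a - 1 / 3)
  have h2 := key (b - 1 / 3)
  have h3 := key (c - 1 / 3)
  unfold I2
  have e1 : 1 / (8 * e) = 1 / 2 * (1 / (4 * e)) := by
    field_simp
    norm_num
  rw [e1]
  nlinarith

/-- Nonreconstruction for the three-state ferromagnetic Potts channel. -/
theorem tendsto_reconError {d : ℕ} (hd : 2 ≤ d) {lam : ℝ} (h0 : 0 ≤ lam)
    (hKS : (d : ℝ) * lam ^ 2 ≤ 1) :
    Tendsto (reconError d 3 lam) atTop (𝓝 0) := by
  have hd2 : (2 : ℝ) ≤ d := by exact_mod_cast hd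
  have hlam2 : lam ^ 2 ≤ 1 / 2 := by nlinarith [sq_nonneg lam]
  have h57 : lam ≤ 5 / 7 := by nlinarith
  have h1 : lam < 1 := by linarith
  have hm := Ehat_tendsto hd h0 hKS
  rw [Metric.tendsto_atTop] at hm ⊢
  intro ε hε
  set e := ε / 3 with he
  have hepos : 0 < e := by positivity
  obtain ⟨N, hN⟩ := hm (8 * e * e) (by positivity)
  refine ⟨N, fun n hn => ?_⟩
  have hp := (Ehat_props d h0 h57 n).1
  have hb := hN n hn
  rw [Real.dist_eq, sub_zero] at hb ⊢
  have hm0 := E_I2_nonneg hp
  rw [abs_of_nonneg hm0] at hb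
  rw [reconError_eq h0 h1]
  have hnn : 0 ≤ Ehat d lam n (fun a b c => 1 / 2 * (|a - 1 / 3| + |b - 1 / 3| + |c - 1 / 3|)) :=
    hp.nonneg _ (fun a b c _ => by positivity)
  rw [abs_of_nonneg hnn]
  have hle := hp.mono (f := fun a b c => 1 / 2 * (|a - 1 / 3| + |b - 1 / 3| + |c - 1 / 3|))
    (g := fun a b c => 3 / 2 * e + 1 / (8 * e) * I2 a b c + 0 * I2 a b c)
    (fun a b c _ => by
      have := abs_bound (a := a) (b := b) (c := c) hepos
      linarith)
  rw [hp.lin3] at hle
  have h8 : 1 / (8 * e) * Ehat d lam n I2 < e := by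
    rw [div_mul_eq_mul_div, one_mul, div_lt_iff₀ (by positivity)]
    linarith
  have he3 : ε = 3 * e := by rw [he]; ring
  linarith

end Vale.Agent.Lib.P154
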