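import Vale.Agent.Lib.P154.Func

/-!
Invariants of a point of the simplex.
-/

namespace Vale.Agent.Lib.P154

/-- the second centred moment -/
noncomputable def I2 (a b c : ℝ) : ℝ := (a - 1 / 3) ^ 2 + (b - 1 / 3) ^ 2 + (c - 1 / 3) ^ 2

/-- the third centred moment -/
noncomputable def I3 (a b c : ℝ) : ℝ := (a - 1 / 3) ^ 3 + (b - 1 / 3) ^ 3 + (c - 1 / 3) ^ 3

theorem I2_nonneg (a b c : ℝ) : 0 ≤ I2 a b c := by
  unfold I2; positivity

theorem I2_swap (a b c : ℝ) : I2 b a c = I2 a b c := by unfold I2; ring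
theorem I2_cyc (a b c : ℝ) : I2 b c a = I2 a b c := by unfold I2; ring
theorem I3_swap (a b c : ℝ) : I3 b a c = I3 a b c := by unfold I3; ring
theorem I3_cyc (a b c : ℝ) : I3 b c a = I3 a b c := by unfold I3; ring

/-- sorted Schur inequality -/
theorem schur_sorted {x y z : ℝ} (hz : 0 ≤ z) (hyz : z ≤ y) (hxy : y ≤ x) :
    0 ≤ x * (x - y) * (x - z) + y * (y - x) * (y - z) + z * (z - x) * (z - y) := by
  have e : x * (x - y) * (x - z) + y * (y - x) * (y - z) + z * (z - x) * (z - y)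
      = (x - y) ^ 2 * (x + y - z) + z * ((x - z) * (y - z)) := by ring
  rw [e]
  have h1 : 0 ≤ x + y - z := by linarith
  have h2 : 0 ≤ x - z := by linarith
  have h3 : 0 ≤ y - z := by linarith
  positivity

/-- Schur's inequality -/
theorem schur {a b c : ℝ} (ha : 0 ≤ a) (hb : 0 ≤ b) (hc : 0 ≤ c) :
    0 ≤ a * (a - b) * (a - c) + b * (b - a) * (b - c) + c * (c - a) * (c - b) := by
  rcases le_total a b with h1 | h1 <;> rcases le_total b c with h2 | h2 <;>
    rcases le_total a c with h3 | h3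
  · have := schur_sorted ha h1 h2; linarith
  · have := schur_sorted ha h1 h2; linarith
  · have := schur_sorted ha h3 h2; linarith
  · have := schur_sorted hc h3 h1; linarith
  · have := schur_sorted hb h1 h3; linarith
  · have := schur_sorted hb h2 h3; linarith
  · have := schur_sorted hc h2 h1; linarith
  · have := schur_sorted hc h2 h1; linarith

/-- the inequalities between `u = 3/2 * I2` and `x = 3 * I3 / I2` on the simplex -/
structure Atoms (u x : ℝ) : Prop where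
  hu : 0 ≤ u
  het : 0 ≤ 1 - u
  hka : 0 ≤ 1 - x
  hmu : 0 ≤ 1 + 2 * x
  hom : 0 ≤ u - x ^ 2
  hbh : 0 ≤ 1 - 3 * u + 2 * u * x
  hch : 0 ≤ 1 + x - 2 * u

theorem tan_nn {u x : ℝ} (h : 0 ≤ u - x ^ 2) (t : ℝ) : 0 ≤ u - 2 * t * x + t ^ 2 := by
  nlinarith [sq_nonneg (x - t)]

theorem Simp.atoms {a b c : ℝ} (h : Simp a b c) (hA : I2 a b c ≠ 0) :
    Atoms (3 / 2 * I2 a b c) (3 * I3 a b c / I2 a b c) := by
  have hpos : 0 < I2 a b c := lt_of_le_of_ne (I2_nonneg a b c) (Ne.symm hA)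
  obtain ⟨ha, hb, hc, hs⟩ := h
  have hc' : c = 1 - a - b := by linarith
  have e1 : 1 - 3 / 2 * I2 a b c = 3 * (a * b + b * c + c * a) := by
    subst hc'; unfold I2; ring
  have e2 : I2 a b c - 3 * I3 a b c
      = a * (b - c) ^ 2 + b * (c - a) ^ 2 + c * (a - b) ^ 2 := by
    subst hc'; unfold I2 I3; ring
  have e3 : I2 a b c + 6 * I3 a b c
      = 2 * (a * (a - b) * (a - c) + b * (b - a) * (b - c) + c * (c - a) * (c - b)) := by
    subst hc'; unfold I2 I3; ring
  have e4 : (I2 a b c) ^ 3 - 6 * (I3 a b c) ^ 2 = 2 * ((a - b) * (b - c) * (c - a)) ^ 2 := by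
    subst hc'; unfold I2 I3; ring
  have e5 : 1 - 9 / 2 * I2 a b c + 9 * I3 a b c = 27 * (a * b * c) := by
    subst hc'; unfold I2 I3; ring
  have hka : 0 ≤ 1 - 3 * I3 a b c / I2 a b c := by
    have : 1 - 3 * I3 a b c / I2 a b c = (I2 a b c - 3 * I3 a b c) / I2 a b c := by
      field_simp
    rw [this, e2]
    positivity
  have hmu : 0 ≤ 1 + 2 * (3 * I3 a b c / I2 a b c) := by
    have : 1 + 2 * (3 * I3 a b c / I2 a b c) = (I2 a b c + 6 * I3 a b c) / I2 a b c := by
      field_simp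
      ring
    rw [this, e3]
    have := schur ha hb hc
    positivity
  have hbh : 0 ≤ 1 - 3 * (3 / 2 * I2 a b c) + 2 * (3 / 2 * I2 a b c) * (3 * I3 a b c / I2 a b c) := by
    have : 1 - 3 * (3 / 2 * I2 a b c) + 2 * (3 / 2 * I2 a b c) * (3 * I3 a b c / I2 a b c)
        = 1 - 9 / 2 * I2 a b c + 9 * I3 a b c := by
      field_simp
      ring
    rw [this, e5]
    positivity
  refine ⟨by positivity, ?_, hka, hmu, ?_, hbh, ?_⟩
  · rw [e1]; positivity
  · have : 3 / 2 * I2 a b c - (3 * I3 a b c / I2 a b c) ^ 2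
        = 3 / 2 * ((I2 a b c) ^ 3 - 6 * (I3 a b c) ^ 2) / (I2 a b c) ^ 2 := by
      field_simp
      ring
    rw [this, e4]
    positivity
  · set x := 3 * I3 a b c / I2 a b c with hx
    set u := 3 / 2 * I2 a b c with hu
    have h3 : 0 < 3 - 2 * x := by linarith
    have key : (1 + x - 2 * u) * (3 - 2 * x) = (1 + 2 * x) * (1 - x) + 2 * (1 - 3 * u + 2 * u * x) := by
      ring
    have h5 : 0 ≤ (1 + x - 2 * u) * (3 - 2 * x) := by
      rw [key]; positivity
    exact nonneg_of_mul_nonneg_left h5 h3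

/-- on the simplex, if the second moment vanishes then so does the third -/
theorem I3_eq_zero_of_I2 {a b c : ℝ} (hA : I2 a b c = 0) : I3 a b c = 0 := by
  unfold I2 at hA
  have h1 : a - 1 / 3 = 0 := by nlinarith [sq_nonneg (a - 1 / 3), sq_nonneg (b - 1 / 3), sq_nonneg (c - 1 / 3)]
  have h2 : b - 1 / 3 = 0 := by nlinarith [sq_nonneg (a - 1 / 3), sq_nonneg (b - 1 / 3), sq_nonneg (c - 1 / 3)]
  have h3 : c - 1 / 3 = 0 := by nlinarith [sq_nonneg (a - 1 / 3), sq_nonneg (b - 1 / 3), sq_nonneg (c - 1 / 3)]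
  unfold I3
  rw [h1, h2, h3]
  norm_num

/-- stretching a message back to a point of the simplex -/
theorem Msg.stretch {p q r : ℝ} (h : Msg p q r) :
    Simp (7 / 5 * p - 2 / 15) (7 / 5 * q - 2 / 15) (7 / 5 * r - 2 / 15) := by
  obtain ⟨h1, h2, h3, h4⟩ := h
  refine ⟨by linarith, by linarith, by linarith, by linarith⟩

theorem I2_stretch (p q r : ℝ) :
    I2 p q r = 25 / 49 * I2 (7 / 5 * p - 2 / 15) (7 / 5 * q - 2 / 15) (7 / 5 * r - 2 / 15) := by
  unfold I2; ring

theorem I3_stretch (p q r : ℝ) :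
    I3 p q r = 125 / 343 * I3 (7 / 5 * p - 2 / 15) (7 / 5 * q - 2 / 15) (7 / 5 * r - 2 / 15) := by
  unfold I3; ring

end Vale.Agent.Lib.P154
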