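import Vale.Agent.Lib.P154.PolyCheck
import Vale.Agent.Lib.P154.Inv

/-!
The atoms of the certificates, as dense polynomials.
-/

namespace Vale.Agent.Lib.P154

open PolyCheck

/-- the tangent line atom `q^2 * u - 2 * p * q * x + p^2` to the parabola `u = x^2` -/
def tanA (p q : ℤ) : P2 := [[p ^ 2, -2 * p * q], [q ^ 2]]

/-- the square atom `(q * x - p)^2` -/
def sqA (p q : ℤ) : P2 := [[p ^ 2, -2 * p * q, q ^ 2]]

/-- the list of atoms -/
def atomL : List P2 :=
  [[[], [1]], [[1], [-1]], [[1, -1]], [[1, 2]], [[1], [-3, 2]], [[1, 1], [-2]],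
    tanA 1 1, tanA 3 4, tanA 1 2, tanA 1 4, tanA (-1) 4, tanA (-1) 2,
    sqA 1 1, sqA 1 2, sqA 0 1, sqA (-1) 2]

theorem tanA_nonneg {u x : ℝ} (h : 0 ≤ u - x ^ 2) (p q : ℤ) : 0 ≤ ev2 u x (tanA p q) := by
  have e : ev2 u x (tanA p q) = (q : ℝ) ^ 2 * (u - x ^ 2) + ((q : ℝ) * x - p) ^ 2 := by
    simp only [tanA, ev2, ev1, evL]
    push_cast
    ring
  rw [e]
  positivity

theorem sqA_nonneg (u x : ℝ) (p q : ℤ) : 0 ≤ ev2 u x (sqA p q) := by
  have e : ev2 u x (sqA p q) = ((q : ℝ) * x - p) ^ 2 := by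
    simp only [sqA, ev2, ev1, evL]
    push_cast
    ring
  rw [e]
  positivity

theorem atomL_nonneg {u x : ℝ} (h : Atoms u x) : ∀ a ∈ atomL, 0 ≤ ev2 u x a := by
  obtain ⟨hu, het, hka, hmu, hom, hbh, hch⟩ := h
  have t : ∀ p q : ℤ, 0 ≤ ev2 u x (tanA p q) := tanA_nonneg hom
  have s : ∀ p q : ℤ, 0 ≤ ev2 u x (sqA p q) := sqA_nonneg u x
  intro a ha
  simp only [atomL, List.mem_cons, List.not_mem_nil, or_false] at ha
  rcases ha with rfl | rfl | rfl | rfl | rfl | rfl | rfl | rfl | rfl | rfl | rfl | rfl | rfl | rfl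
    | rfl | rfl
  · simpa [ev2, ev1, evL] using hu
  · have : ev2 u x [[1], [-1]] = 1 - u := by
      simp only [ev2, ev1, evL]; push_cast; ring
    rw [this]; exact het
  · have : ev2 u x [[1, -1]] = 1 - x := by
      simp only [ev2, ev1, evL]; push_cast; ring
    rw [this]; exact hka
  · have : ev2 u x [[1, 2]] = 1 + 2 * x := by
      simp only [ev2, ev1, evL]; push_cast; ring
    rw [this]; exact hmu
  · have : ev2 u x [[1], [-3, 2]] = 1 - 3 * u + 2 * u * x := by
      simp only [ev2, ev1, evL]; push_cast; ring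
    rw [this]; exact hbh
  · have : ev2 u x [[1, 1], [-2]] = 1 + x - 2 * u := by
      simp only [ev2, ev1, evL]; push_cast; ring
    rw [this]; exact hch
  all_goals first | exact t _ _ | exact s _ _

end Vale.Agent.Lib.P154
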