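import Mathlib

/-!
Symmetric expectation functionals on triples, the channel and the Bayesian product.
-/

namespace Vale.Agent.Lib.P154

/-- functions of a triple -/
abbrev Fn3 := ℝ → ℝ → ℝ → ℝ

/-- functionals on functions of a triple -/
abbrev Ex3 := Fn3 → ℝ

/-- the probability simplex -/
structure Simp (a b c : ℝ) : Prop where
  ha : 0 ≤ a
  hb : 0 ≤ b
  hc : 0 ≤ c
  hs : a + b + c = 1

/-- messages after a channel of eigenvalue at most `5/7` -/
structure Msg (a b c : ℝ) : Prop where
  ha : 2 / 21 ≤ a
  hb : 2 / 21 ≤ b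
  hc : 2 / 21 ≤ c
  hs : a + b + c = 1

theorem Msg.simp {a b c : ℝ} (h : Msg a b c) : Simp a b c :=
  ⟨by linarith [h.ha], by linarith [h.hb], by linarith [h.hc], h.hs⟩

/-- A symmetric expectation functional, supported on the set `K`. -/
structure SymExp (E : Ex3) (K : ℝ → ℝ → ℝ → Prop) : Prop where
  add : ∀ f g : Fn3, E (fun a b c => f a b c + g a b c) = E f + E g
  smul : ∀ (t : ℝ) (f : Fn3), E (fun a b c => t * f a b c) = t * E f
  nonneg : ∀ f : Fn3, (∀ a b c, K a b c → 0 ≤ f a b c) → 0 ≤ E f
  one : E (fun _ _ _ => 1) = 1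
  swap : ∀ f : Fn3, E (fun a b c => f b a c) = E f
  cyc : ∀ f : Fn3, E (fun a b c => f b c a) = E f

namespace SymExp

variable {E : Ex3} {K : ℝ → ℝ → ℝ → Prop}

theorem neg (h : SymExp E K) (f : Fn3) : E (fun a b c => - f a b c) = - E f := by
  have := h.smul (-1) f
  simpa using this

theorem sub (h : SymExp E K) (f g : Fn3) :
    E (fun a b c => f a b c - g a b c) = E f - E g := by
  have h1 := h.add f (fun a b c => - g a b c)
  rw [h.neg] at h1
  simpa [sub_eq_add_neg] using h1

theorem mono (h : SymExp E K) {f g : Fn3} (hfg : ∀ a b c, K a b c → f a b c ≤ g a b c) :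
    E f ≤ E g := by
  have h1 := h.nonneg (fun a b c => g a b c - f a b c)
    (fun a b c hK => sub_nonneg.2 (hfg a b c hK))
  rw [h.sub] at h1
  linarith

theorem congr_on (h : SymExp E K) {f g : Fn3} (hfg : ∀ a b c, K a b c → f a b c = g a b c) :
    E f = E g :=
  le_antisymm (h.mono fun a b c hK => (hfg a b c hK).le)
    (h.mono fun a b c hK => (hfg a b c hK).ge)

theorem const (h : SymExp E K) (t : ℝ) : E (fun _ _ _ => t) = t := by
  have := h.smul t (fun _ _ _ => 1)
  simpa [h.one] using this

/-- average over the six permutations -/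
theorem sym6 (h : SymExp E K) (F : Fn3) :
    E (fun p q r => (1 / 6) * (F p q r + F q r p + F r p q + F q p r + F p r q + F r q p)) = E F := by
  have c1 : E (fun p q r => F q r p) = E F := h.cyc F
  have c2 : E (fun p q r => F r p q) = E F := by
    have := h.cyc (fun p q r => F q r p)
    simpa [c1] using this
  have s1 : E (fun p q r => F q p r) = E F := h.swap F
  have s2 : E (fun p q r => F r q p) = E F := by
    have := h.cyc (fun p q r => F q p r)
    simpa [s1] using this
  have s3 : E (fun p q r => F p r q) = E F := by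
    have := h.cyc (fun p q r => F r q p)
    simpa [s2] using this
  rw [h.smul (1 / 6) (fun p q r => F p q r + F q r p + F r p q + F q p r + F p r q + F r q p)]
  rw [h.add (fun p q r => F p q r + F q r p + F r p q + F q p r + F p r q) (fun p q r => F r q p)]
  rw [h.add (fun p q r => F p q r + F q r p + F r p q + F q p r) (fun p q r => F p r q)]
  rw [h.add (fun p q r => F p q r + F q r p + F r p q) (fun p q r => F q p r)]
  rw [h.add (fun p q r => F p q r + F q r p) (fun p q r => F r p q)]
  rw [h.add (fun p q r => F p q r) (fun p q r => F q r p)]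
  rw [c1, c2, s1, s2, s3]
  ring

end SymExp

/-- coordinates have mean `1/3` -/
theorem SymExp.means {E : Ex3} {K : ℝ → ℝ → ℝ → Prop} (h : SymExp E K)
    (hK : ∀ a b c, K a b c → a + b + c = 1) :
    E (fun a _ _ => a) = 1 / 3 ∧ E (fun _ b _ => b) = 1 / 3 ∧ E (fun _ _ c => c) = 1 / 3 := by
  have h2 : E (fun _ b _ => b) = E (fun a _ _ => a) := h.cyc (fun a _ _ => a)
  have h3 : E (fun _ _ c => c) = E (fun _ b _ => b) := h.cyc (fun _ b _ => b)
  have hsum : E (fun a b c => a + b + c) = 1 := by
    rw [h.congr_on (g := fun _ _ _ => 1) (fun a b c hk => hK a b c hk)]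
    exact h.one
  rw [h.add (fun a b _ => a + b) (fun _ _ c => c), h.add (fun a _ _ => a) (fun _ b _ => b)] at hsum
  refine ⟨?_, ?_, ?_⟩ <;> linarith

/-- the point map of the channel of eigenvalue `lam` -/
noncomputable def chanPt (lam x : ℝ) : ℝ := lam * x + (1 - lam) / 3

/-- the push-forward through the channel of eigenvalue `lam` -/
noncomputable def chan (lam : ℝ) (E : Ex3) : Ex3 :=
  fun f => E (fun a b c => f (chanPt lam a) (chanPt lam b) (chanPt lam c))

/-- the integrand of the Bayesian product -/
noncomputable def wt (f : Fn3) (a b c p q r : ℝ) : ℝ :=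
  3 * (a * p + b * q + c * r) *
    f (a * p / (a * p + b * q + c * r)) (b * q / (a * p + b * q + c * r))
      (c * r / (a * p + b * q + c * r))

/-- the Bayesian product of two symmetric functionals -/
noncomputable def bprod (E E' : Ex3) : Ex3 :=
  fun f => E (fun a b c => E' (fun p q r => wt f a b c p q r))

/-- the Dirac functional at the centre -/
noncomputable def centre : Ex3 := fun f => f (1 / 3) (1 / 3) (1 / 3)

theorem centre_symExp : SymExp centre Simp where
  add _ _ := rfl
  smul _ _ := rfl
  nonneg f hf := hf _ _ _ ⟨by norm_num, by norm_num, by norm_num, by norm_num⟩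
  one := rfl
  swap _ := rfl
  cyc _ := rfl

/-- the functional of the channel output -/
theorem chan_symExp {E : Ex3} (hE : SymExp E Simp) {lam : ℝ} (h0 : 0 ≤ lam) (h1 : lam ≤ 5 / 7) :
    SymExp (chan lam E) Msg where
  add f g := hE.add _ _
  smul t f := hE.smul _ _
  nonneg f hf := by
    refine hE.nonneg _ (fun a b c hK => hf _ _ _ ?_)
    have key : ∀ x : ℝ, 0 ≤ x → 2 / 21 ≤ chanPt lam x := by
      intro x hx
      unfold chanPt
      nlinarith [mul_nonneg h0 hx]
    refine ⟨key _ hK.ha, key _ hK.hb, key _ hK.hc, ?_⟩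
    unfold chanPt
    have := hK.hs
    linear_combination lam * this
  one := hE.one
  swap f := hE.swap (fun a b c => f (chanPt lam a) (chanPt lam b) (chanPt lam c))
  cyc f := hE.cyc (fun a b c => f (chanPt lam a) (chanPt lam b) (chanPt lam c))

/-- the dot product is positive -/
theorem dot_pos {a b c p q r : ℝ} (h : Simp a b c) (h' : Msg p q r) :
    0 < a * p + b * q + c * r := by
  have h1 := h.ha
  have h2 := h.hb
  have h3 := h.hc
  have h4 := h.hs
  have := h'.ha
  have := h'.hb
  have := h'.hc
  nlinarith [mul_le_mul_of_nonneg_left h'.ha h1, mul_le_mul_of_nonneg_left h'.hb h2,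
    mul_le_mul_of_nonneg_left h'.hc h3]

theorem wt_add (f g : Fn3) (a b c p q r : ℝ) :
    wt (fun x y z => f x y z + g x y z) a b c p q r = wt f a b c p q r + wt g a b c p q r := by
  unfold wt; ring

theorem wt_smul (t : ℝ) (f : Fn3) (a b c p q r : ℝ) :
    wt (fun x y z => t * f x y z) a b c p q r = t * wt f a b c p q r := by
  unfold wt; ring

theorem wt_one (a b c p q r : ℝ) :
    wt (fun _ _ _ => 1) a b c p q r = 3 * a * p + 3 * b * q + 3 * c * r := by
  unfold wt; ring

theorem wt_swap (f : Fn3) (a b c p q r : ℝ) :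
    wt (fun x y z => f y x z) a b c p q r = wt f b a c q p r := by
  unfold wt
  have : b * q + a * p + c * r = a * p + b * q + c * r := by ring
  rw [this]

theorem wt_cyc (f : Fn3) (a b c p q r : ℝ) :
    wt (fun x y z => f y z x) a b c p q r = wt f b c a q r p := by
  unfold wt
  have : b * q + c * r + a * p = a * p + b * q + c * r := by ring
  rw [this]

/-- the Bayesian product of symmetric functionals is again one -/
theorem bprod_symExp {E E' : Ex3} (hE : SymExp E Simp) (hE' : SymExp E' Msg) :
    SymExp (bprod E E') Simp where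
  add f g := by
    unfold bprod
    rw [← hE.add]
    congr 1
    funext a b c
    rw [← hE'.add]
    congr 1
    funext p q r
    exact wt_add f g a b c p q r
  smul t f := by
    unfold bprod
    rw [← hE.smul]
    congr 1
    funext a b c
    rw [← hE'.smul]
    congr 1
    funext p q r
    exact wt_smul t f a b c p q r
  nonneg f hf := by
    refine hE.nonneg _ (fun a b c hK => hE'.nonneg _ (fun p q r hK' => ?_))
    have hS := dot_pos hK hK'
    unfold wt
    refine mul_nonneg (by positivity) (hf _ _ _ ?_)
    have hp := hK'.simp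
    refine ⟨div_nonneg (mul_nonneg hK.ha hp.ha) hS.le, div_nonneg (mul_nonneg hK.hb hp.hb) hS.le,
      div_nonneg (mul_nonneg hK.hc hp.hc) hS.le, ?_⟩
    field_simp
  one := by
    unfold bprod
    refine Eq.trans (hE.congr_on (g := fun _ _ _ => 1) (fun a b c hK => ?_)) hE.one
    obtain ⟨m1, m2, m3⟩ := hE'.means (fun _ _ _ h => h.hs)
    have e1 : (fun p q r => wt (fun _ _ _ => 1) a b c p q r)
        = fun p q r => ((3 * a) * p + (3 * b) * q) + (3 * c) * r := by
      funext p q r
      rw [wt_one]
    rw [e1, hE'.add (fun p q _ => (3 * a) * p + (3 * b) * q) (fun _ _ r => (3 * c) * r),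
      hE'.add (fun p _ _ => (3 * a) * p) (fun _ q _ => (3 * b) * q),
      hE'.smul (3 * a) (fun p _ _ => p), hE'.smul (3 * b) (fun _ q _ => q),
      hE'.smul (3 * c) (fun _ _ r => r), m1, m2, m3]
    have := hK.hs
    linarith
  swap f := by
    unfold bprod
    have := hE.swap (fun a b c => E' (fun p q r => wt f a b c p q r))
    rw [← this]
    congr 1
    funext a b c
    rw [← hE'.swap (fun p q r => wt f b a c p q r)]
    congr 1
    funext p q r
    exact wt_swap f a b c p q r
  cyc f := by
    unfold bprod
    have := hE.cyc (fun a b c => E' (fun p q r => wt f a b c p q r))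
    rw [← this]
    congr 1
    funext a b c
    rw [← hE'.cyc (fun p q r => wt f b c a p q r)]
    congr 1
    funext p q r
    exact wt_cyc f a b c p q r

end Vale.Agent.Lib.P154
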