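import Vale.Agent.Lib.P154.Neg.KS
import Vale.Agent.Lib.P154Q4.KS

/-!
The sharp form of the answer: from the four nonreconstruction theorems at and below the
Kesten-Stigum bound (hypotheses here) and the reconstruction theorems above it.
-/

namespace Vale.Agent.Lib.P154.IffAll

open Filter Topology
open Vale.Agent.Lib.P154 (poissonLaw reconError gwError gwProb gwTerm)

/-- total probability one and summability on the Poisson tree, three states -/
theorem q3_sums {d lam : ℝ} (hd : 0 < d) (hl : Neg.Adm lam) :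
    (∀ n, HasSum (gwProb 3 (poissonLaw d) lam n) 1) ∧
      (∀ n, Summable (gwTerm 3 (poissonLaw d) lam n)) := by
  have hp0 := Neg.poisson_nonneg hd.le
  have hp1 := Neg.poisson_hasSum d
  have hR := Neg.gwEx_rep hp0 hp1 hl
  have hE := Neg.gwEx_bexp hp0 hp1 hl
  have hprob : ∀ n, gwProb 3 (poissonLaw d) lam n = fun s => 1 / 3 * Neg.gwTot (poissonLaw d) lam n s :=
    fun n => funext (fun s => Neg.gwProb_eq n s)
  have hterm : ∀ n, gwTerm 3 (poissonLaw d) lam n = fun s => (1 / 3 * Neg.gwTot (poissonLaw d) lam n s)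
      * Neg.errFn (Neg.gwPost (poissonLaw d) lam n 0 s) (Neg.gwPost (poissonLaw d) lam n 1 s)
        (Neg.gwPost (poissonLaw d) lam n 2 s) :=
    fun n => funext (fun s => Neg.gwTerm_eq n s)
  refine ⟨fun n => ?_, fun n => ?_⟩
  · rw [hprob]
    have e1 := (hR n).eq (fun _ _ _ => 1) (Neg.Bd.const 1)
    rw [(hE n).one] at e1
    simp only [mul_one] at e1
    have := (hR n).w_summable.hasSum
    rwa [← e1] at this
  · rw [hterm]
    exact (hR n).summable_term Neg.bd_errFn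

/-- total probability one and summability on the Poisson tree, four states -/
theorem q4_sums {d lam : ℝ} (hd : 0 < d) (h0 : 0 ≤ lam) (h1 : lam ≤ 1) :
    (∀ n, HasSum (gwProb 4 (poissonLaw d) lam n) 1) ∧
      (∀ n, Summable (gwTerm 4 (poissonLaw d) lam n)) := by
  have hp0 := P154Q4.poisson_nonneg hd.le
  have hp1 := P154Q4.poisson_hasSum d
  have hR := P154Q4.gwEx_rep (p := poissonLaw d) (lam := lam) hp0 hp1 h0 h1
  have hE := P154Q4.gwEx_bexp hp0 hp1 h0 h1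
  have hprob : ∀ n, gwProb 4 (poissonLaw d) lam n = fun s => 1 / 4 * P154Q4.gwTot (poissonLaw d) lam n s :=
    fun n => funext (fun s => P154Q4.gwProb_eq n s)
  have hterm : ∀ n, gwTerm 4 (poissonLaw d) lam n = fun s => (1 / 4 * P154Q4.gwTot (poissonLaw d) lam n s)
      * P154Q4.errFn (P154Q4.gwPost (poissonLaw d) lam n 0 s) (P154Q4.gwPost (poissonLaw d) lam n 1 s)
        (P154Q4.gwPost (poissonLaw d) lam n 2 s) (P154Q4.gwPost (poissonLaw d) lam n 3 s) :=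
    fun n => funext (fun s => P154Q4.gwTerm_eq n s)
  refine ⟨fun n => ?_, fun n => ?_⟩
  · rw [hprob]
    have e1 := (hR n).eq (fun _ _ _ _ => 1) (P154Q4.Bd.const 1)
    rw [(hE n).one] at e1
    simp only [mul_one] at e1
    have := (hR n).w_summable.hasSum
    rwa [← e1] at this
  · rw [hterm]
    exact (hR n).summable_term P154Q4.bd_errFn

/-- The sharp form, given the nonreconstruction theorems at and below the bound. -/
theorem main
    (h3p : ∀ d lam : ℝ, 0 < d → -(1 / 2) ≤ lam → lam ≤ 1 → d * lam ^ 2 ≤ 1 →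
      Tendsto (gwError 3 (poissonLaw d) lam) atTop (𝓝 0))
    (h3d : ∀ (d : ℕ) (lam : ℝ), 2 ≤ d → -(1 / 2) ≤ lam → (d : ℝ) * lam ^ 2 ≤ 1 →
      Tendsto (reconError d 3 lam) atTop (𝓝 0))
    (h4d : ∀ (d : ℕ) (lam : ℝ), 2 ≤ d → 0 ≤ lam → (d : ℝ) * lam ^ 2 ≤ 1 →
      Tendsto (reconError d 4 lam) atTop (𝓝 0))
    (h4p : ∀ d lam : ℝ, 0 < d → 0 ≤ lam → lam ≤ 1 → d * lam ^ 2 ≤ 1 →
      Tendsto (gwError 4 (poissonLaw d) lam) atTop (𝓝 0)) :
    (∀ d lam : ℝ, 0 < d → -(1 / 2) ≤ lam → lam ≤ 1 →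
      (∀ n, HasSum (gwProb 3 (poissonLaw d) lam n) 1) ∧
        (∀ n, Summable (gwTerm 3 (poissonLaw d) lam n)) ∧
        (Tendsto (gwError 3 (poissonLaw d) lam) atTop (𝓝 0) ↔ d * lam ^ 2 ≤ 1)) ∧
    (∀ (d : ℕ) (lam : ℝ), 2 ≤ d → -(1 / 2) ≤ lam → lam ≤ 1 →
      (Tendsto (reconError d 3 lam) atTop (𝓝 0) ↔ (d : ℝ) * lam ^ 2 ≤ 1)) ∧
    (∀ (d : ℕ) (lam : ℝ), 2 ≤ d → 0 ≤ lam → lam ≤ 1 →
      (Tendsto (reconError d 4 lam) atTop (𝓝 0) ↔ (d : ℝ) * lam ^ 2 ≤ 1)) ∧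
    (∀ d lam : ℝ, 0 < d → 0 ≤ lam → lam ≤ 1 →
      (∀ n, HasSum (gwProb 4 (poissonLaw d) lam n) 1) ∧
        (∀ n, Summable (gwTerm 4 (poissonLaw d) lam n)) ∧
        (Tendsto (gwError 4 (poissonLaw d) lam) atTop (𝓝 0) ↔ d * lam ^ 2 ≤ 1)) := by
  refine ⟨fun d lam hd h1 h2 => ?_, fun d lam hd h1 h2 => ?_, fun d lam hd h0 h1 => ?_,
    fun d lam hd h0 h1 => ?_⟩
  · have hl : Neg.Adm lam := ⟨by linarith, h2⟩
    obtain ⟨a, b⟩ := q3_sums hd hl
    refine ⟨a, b, fun h => ?_, h3p d lam hd h1 h2⟩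
    by_contra hc
    exact Neg.poisson_ks hd hl (not_le.mp hc) h
  · have hl : Neg.Adm lam := ⟨by linarith, h2⟩
    refine ⟨fun h => ?_, h3d d lam hd h1⟩
    by_contra hc
    exact Neg.dary_ks (by omega) hl (not_le.mp hc) h
  · refine ⟨fun h => ?_, h4d d lam hd h0⟩
    by_contra hc
    exact P154Q4.dary_ks (by omega) h0 h1 (not_le.mp hc) h
  · obtain ⟨a, b⟩ := q4_sums hd h0 h1
    refine ⟨a, b, fun h => ?_, h4p d lam hd h0 h1⟩
    by_contra hc
    exact P154Q4.poisson_ks hd h0 h1 (not_le.mp hc) h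

end Vale.Agent.Lib.P154.IffAll
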