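import Vale.Agent.Lib.P154.AvgA
import Vale.Agent.Lib.P154.AvgB
import Vale.Agent.Lib.P154.AvgC
import Vale.Agent.Lib.P154.Cert2
import Vale.Agent.Lib.P154.K1

/-!
The second kernel inequality: closure of the class under the Bayesian product.
-/

namespace Vale.Agent.Lib.P154

/-- the test function of the class, with `rho = 1/10` -/
noncomputable def fK (x y z : ℝ) : ℝ := I3 x y z - 1 / 10 * (I2 x y z) ^ 2

/-- the polynomial lower bound for `D * fK`, for one permutation -/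
noncomputable def LL (K D Nq : ℝ) : ℝ :=
  K * (1 - 2 * (D - 1) + 3 * (D - 1) ^ 2 - 4 * (D - 1) ^ 3) - D / 9
    + 13 / 30 * Nq * (1 - (D - 1) + 3 / 4 * (D - 1) ^ 2 - 1 / 4 * (D - 1) ^ 3)
    + Nq * (1 - (D - 1) + 2 / 5 * (D - 1) ^ 2)
      * (1 / 15 - 1 / 10 * (Nq * (1 - 2 * (D - 1)) + 2 / 3 * (D - 1) ^ 2 * (3 + 2 * (D - 1))))

theorem LL_le {K D Nq w : ℝ} (hK : 0 ≤ K) (hw : D * w = 1) (hD : 0 < D) (hD2 : D ≤ 5 / 2)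
    (h0 : 0 ≤ Nq) (hq : Nq ≤ 2 / 3 * D ^ 2) :
    LL K D Nq ≤ K * w ^ 2 - D / 9 + (Nq * w) * (1 / 2 - 1 / 10 * (Nq * w ^ 2)) := by
  have hwpos : 0 < w := by
    by_contra hneg
    have : D * w ≤ 0 := mul_nonpos_of_nonneg_of_nonpos hD.le (not_lt.1 hneg)
    linarith
  obtain ⟨t, rfl⟩ : ∃ t, D = 1 + t := ⟨D - 1, by ring⟩
  have ht : -1 < t := by linarith
  have ht2 : 1 + t - 1 = t := by ring
  unfold LL
  rw [ht2]
  -- the elementary bounds on `w`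
  have w1 : 1 - (1 + t) * (1 - t + 3 / 4 * t ^ 2 - 1 / 4 * t ^ 3) = 1 / 4 * t ^ 2 * (1 - t) ^ 2 := by
    ring
  have f4 : 1 - t + 3 / 4 * t ^ 2 - 1 / 4 * t ^ 3 ≤ w := by
    have e : w - (1 - t + 3 / 4 * t ^ 2 - 1 / 4 * t ^ 3) = w * (1 / 4 * t ^ 2 * (1 - t) ^ 2) := by
      rw [← w1]
      linear_combination (1 - t + 3 / 4 * t ^ 2 - 1 / 4 * t ^ 3) * hw
    have : 0 ≤ w * (1 / 4 * t ^ 2 * (1 - t) ^ 2) := by positivity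
    linarith
  have w25 : 2 / 5 ≤ w := by
    have : (1 + t) * (w - 2 / 5) = 1 - 2 / 5 * (1 + t) := by linear_combination hw
    have h5 : 0 ≤ (1 + t) * (w - 2 / 5) := by rw [this]; linarith
    have := nonneg_of_mul_nonneg_right h5 hD
    linarith
  have f5 : 1 - t + 2 / 5 * t ^ 2 ≤ w := by
    have e : w - (1 - t + 2 / 5 * t ^ 2) = t ^ 2 * (w - 2 / 5) := by
      linear_combination (1 - t) * hw
    have h5 : 0 ≤ t ^ 2 * (w - 2 / 5) := mul_nonneg (by positivity) (by linarith)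
    linarith
  have f6 : 0 ≤ 1 - t + 2 / 5 * t ^ 2 := by nlinarith [sq_nonneg (t - 5 / 4)]
  have hw2 : (1 + t) ^ 2 * w ^ 2 = 1 := by
    have : (1 + t) ^ 2 * w ^ 2 = ((1 + t) * w) ^ 2 := by ring
    rw [this, hw]; norm_num
  have f3 : 1 - 2 * t ≤ w ^ 2 := by
    have e : w ^ 2 - (1 - 2 * t) = w ^ 2 * (t ^ 2 * (3 + 2 * t)) := by
      linear_combination (1 - 2 * t) * hw2
    have h3 : 0 ≤ 3 + 2 * t := by linarith
    have : 0 ≤ w ^ 2 * (t ^ 2 * (3 + 2 * t)) := by positivity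
    linarith
  have f7 : 1 - 2 * t + 3 * t ^ 2 - 4 * t ^ 3 ≤ w ^ 2 := by
    have e : w ^ 2 - (1 - 2 * t + 3 * t ^ 2 - 4 * t ^ 3) = w ^ 2 * (t ^ 4 * (5 + 4 * t)) := by
      linear_combination (1 - 2 * t + 3 * t ^ 2 - 4 * t ^ 3) * hw2
    have h3 : 0 ≤ 5 + 4 * t := by linarith
    have : 0 ≤ w ^ 2 * (t ^ 4 * (5 + 4 * t)) := by positivity
    linarith
  -- the bound on `I`
  set I := Nq * w ^ 2 with hI
  set J := Nq * (1 - 2 * t) + 2 / 3 * t ^ 2 * (3 + 2 * t) with hJ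
  have hI23 : I ≤ 2 / 3 := by
    have : Nq * w ^ 2 ≤ (2 / 3 * (1 + t) ^ 2) * w ^ 2 :=
      mul_le_mul_of_nonneg_right hq (by positivity)
    have e : (2 / 3 * (1 + t) ^ 2) * w ^ 2 = 2 / 3 := by
      linear_combination (2 / 3) * hw2
    rw [hI]
    linarith
  have hIJ : I ≤ J := by
    have e : J - I = (w ^ 2 - (1 - 2 * t)) * (2 / 3 * (1 + t) ^ 2 - Nq) := by
      rw [hJ, hI]
      linear_combination (-(2 / 3)) * hw2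
    have h1 : 0 ≤ w ^ 2 - (1 - 2 * t) := by linarith
    have h2 : 0 ≤ 2 / 3 * (1 + t) ^ 2 - Nq := by linarith
    have : 0 ≤ (w ^ 2 - (1 - 2 * t)) * (2 / 3 * (1 + t) ^ 2 - Nq) := mul_nonneg h1 h2
    linarith
  have t1 : 0 ≤ K * (w ^ 2 - (1 - 2 * t + 3 * t ^ 2 - 4 * t ^ 3)) :=
    mul_nonneg hK (by linarith)
  have t2 : 0 ≤ 13 / 30 * Nq * (w - (1 - t + 3 / 4 * t ^ 2 - 1 / 4 * t ^ 3)) :=
    mul_nonneg (by positivity) (by linarith)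
  have t3 : 0 ≤ Nq * ((w - (1 - t + 2 / 5 * t ^ 2)) * (1 / 15 - 1 / 10 * I)) :=
    mul_nonneg h0 (mul_nonneg (by linarith) (by linarith))
  have t4 : 0 ≤ Nq * ((1 - t + 2 / 5 * t ^ 2) * (1 / 10 * (J - I))) :=
    mul_nonneg h0 (mul_nonneg f6 (by linarith))
  have key : K * w ^ 2 - (1 + t) / 9 + Nq * w * (1 / 2 - 1 / 10 * I)
      - (K * (1 - 2 * t + 3 * t ^ 2 - 4 * t ^ 3) - (1 + t) / 9
        + 13 / 30 * Nq * (1 - t + 3 / 4 * t ^ 2 - 1 / 4 * t ^ 3)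
        + Nq * (1 - t + 2 / 5 * t ^ 2) * (1 / 15 - 1 / 10 * J))
      = K * (w ^ 2 - (1 - 2 * t + 3 * t ^ 2 - 4 * t ^ 3))
        + 13 / 30 * Nq * (w - (1 - t + 3 / 4 * t ^ 2 - 1 / 4 * t ^ 3))
        + Nq * ((w - (1 - t + 2 / 5 * t ^ 2)) * (1 / 15 - 1 / 10 * I))
        + Nq * ((1 - t + 2 / 5 * t ^ 2) * (1 / 10 * (J - I))) := by
    ring
  linarith

theorem I3_simplex {z1 z2 z3 : ℝ} (h : z1 + z2 + z3 = 1) :
    I3 z1 z2 z3 = 3 * (z1 * z2 * z3) - 1 / 9 + 1 / 2 * I2 z1 z2 z3 := by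
  have h3 : z3 = 1 - z1 - z2 := by linarith
  subst h3
  unfold I2 I3
  ring

/-- The pointwise bound for one permutation. -/
theorem perpi {N1 N2 N3 : ℝ} (h1 : 0 ≤ N1) (h2 : 0 ≤ N2) (h3 : 0 ≤ N3) (hD : 0 < N1 + N2 + N3)
    (hD2 : N1 + N2 + N3 ≤ 5 / 2) :
    LL (3 * N1 * N2 * N3) (N1 + N2 + N3)
        (N1 ^ 2 + N2 ^ 2 + N3 ^ 2 - (N1 + N2 + N3) ^ 2 / 3)
      ≤ (N1 + N2 + N3) *
        fK (N1 / (N1 + N2 + N3)) (N2 / (N1 + N2 + N3)) (N3 / (N1 + N2 + N3)) := by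
  set D := N1 + N2 + N3 with hDd
  have hne : D ≠ 0 := hD.ne'
  obtain ⟨w, hw⟩ : ∃ w, D * w = 1 := ⟨1 / D, by field_simp⟩
  have hw' : 1 / D = w := by
    field_simp
    linarith
  have z1 : N1 / D = N1 * w := by rw [div_eq_mul_one_div, hw']
  have z2 : N2 / D = N2 * w := by rw [div_eq_mul_one_div, hw']
  have z3 : N3 / D = N3 * w := by rw [div_eq_mul_one_div, hw']
  rw [z1, z2, z3]
  have hsum : N1 * w + N2 * w + N3 * w = 1 := by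
    have : N1 * w + N2 * w + N3 * w = D * w := by rw [hDd]; ring
    rw [this, hw]
  have hNq0 : 0 ≤ N1 ^ 2 + N2 ^ 2 + N3 ^ 2 - D ^ 2 / 3 := by
    have e : N1 ^ 2 + N2 ^ 2 + N3 ^ 2 - D ^ 2 / 3
        = ((N1 - N2) ^ 2 + (N2 - N3) ^ 2 + (N3 - N1) ^ 2) / 3 := by
      rw [hDd]; ring
    rw [e]; positivity
  have hNq1 : N1 ^ 2 + N2 ^ 2 + N3 ^ 2 - D ^ 2 / 3 ≤ 2 / 3 * D ^ 2 := by
    have e : 2 / 3 * D ^ 2 - (N1 ^ 2 + N2 ^ 2 + N3 ^ 2 - D ^ 2 / 3)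
        = 2 * (N1 * N2 + N2 * N3 + N3 * N1) := by
      rw [hDd]; ring
    have : 0 ≤ 2 * (N1 * N2 + N2 * N3 + N3 * N1) := by positivity
    linarith
  have key := LL_le (K := 3 * N1 * N2 * N3) (D := D) (by positivity) hw hD hD2 hNq0 hNq1
  refine le_trans key (le_of_eq ?_)
  unfold fK
  rw [I3_simplex hsum]
  have hI : I2 (N1 * w) (N2 * w) (N3 * w) = (N1 ^ 2 + N2 ^ 2 + N3 ^ 2 - D ^ 2 / 3) * w ^ 2 := by
    have e : I2 (N1 * w) (N2 * w) (N3 * w)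
        = (N1 ^ 2 + N2 ^ 2 + N3 ^ 2) * w ^ 2 - 2 / 3 * (N1 * w + N2 * w + N3 * w) + 1 / 3 := by
      unfold I2; ring
    rw [e, hsum]
    have h2 : D ^ 2 * w ^ 2 = 1 := by
      have : D ^ 2 * w ^ 2 = (D * w) ^ 2 := by ring
      rw [this, hw]; norm_num
    linear_combination (1 / 3) * h2
  rw [hI]
  have hD3 : D * (3 * (N1 * w * (N2 * w) * (N3 * w))) = 3 * N1 * N2 * N3 * w ^ 2 := by
    linear_combination (3 * N1 * N2 * N3 * w ^ 2) * hw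
  have hD4 : D * w ^ 2 = w := by
    linear_combination w * hw
  set Nq := N1 ^ 2 + N2 ^ 2 + N3 ^ 2 - D ^ 2 / 3 with hNq
  calc 3 * N1 * N2 * N3 * w ^ 2 - D / 9 + Nq * w * (1 / 2 - 1 / 10 * (Nq * w ^ 2))
      = D * (3 * (N1 * w * (N2 * w) * (N3 * w))) - D / 9
          + Nq * (D * w ^ 2) * (1 / 2 - 1 / 10 * (Nq * w ^ 2)) := by rw [hD3, hD4]
    _ = D * (3 * (N1 * w * (N2 * w) * (N3 * w)) - 1 / 9 + 1 / 2 * (Nq * w ^ 2)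
          - 1 / 10 * (Nq * w ^ 2) ^ 2) := by ring

/-- the integrand in centred coordinates -/
noncomputable def Gv (y1 y2 y3 v1 v2 v3 : ℝ) : ℝ :=
  LL (3 * ((1 / 3 + y1) * (1 + 3 * v1)) * ((1 / 3 + y2) * (1 + 3 * v2))
      * ((1 / 3 + y3) * (1 + 3 * v3)))
    ((1 / 3 + y1) * (1 + 3 * v1) + (1 / 3 + y2) * (1 + 3 * v2) + (1 / 3 + y3) * (1 + 3 * v3))
    (((1 / 3 + y1) * (1 + 3 * v1)) ^ 2 + ((1 / 3 + y2) * (1 + 3 * v2)) ^ 2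
      + ((1 / 3 + y3) * (1 + 3 * v3)) ^ 2
      - ((1 / 3 + y1) * (1 + 3 * v1) + (1 / 3 + y2) * (1 + 3 * v2)
        + (1 / 3 + y3) * (1 + 3 * v3)) ^ 2 / 3)

/-- expansion of the integrand into its pieces -/
theorem Gv_expand {y1 y2 y3 v1 v2 v3 : ℝ} (hy : y1 + y2 + y3 = 0) (hv : v1 + v2 + v3 = 0) :
    Gv y1 y2 y3 v1 v2 v3
      = 3 * ((1 / 3 + y1) * (1 / 3 + y2) * (1 / 3 + y3)) * ((1 + 3 * v1) * (1 + 3 * v2) * (1 + 3 * v3))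
          * (1 - 2 * tauC y1 y2 y3 v1 v2 v3 + 3 * (tauC y1 y2 y3 v1 v2 v3) ^ 2
              - 4 * (tauC y1 y2 y3 v1 v2 v3) ^ 3)
        - (1 + tauC y1 y2 y3 v1 v2 v3) / 9
        + 13 / 30 * (FF_Nq0 y1 y2 y3 v1 v2 v3 - FF_Nq1 y1 y2 y3 v1 v2 v3
            + 3 / 4 * FF_Nq2 y1 y2 y3 v1 v2 v3 - 1 / 4 * FF_Nq3 y1 y2 y3 v1 v2 v3)
        + 1 / 15 * (FF_Nq0 y1 y2 y3 v1 v2 v3 - FF_Nq1 y1 y2 y3 v1 v2 v3
            + 2 / 5 * FF_Nq2 y1 y2 y3 v1 v2 v3)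
        - 1 / 10 * (FF_J0 y1 y2 y3 v1 v2 v3 - FF_J1 y1 y2 y3 v1 v2 v3
            + 2 / 5 * FF_J2 y1 y2 y3 v1 v2 v3) := by
  have hD : (1 / 3 + y1) * (1 + 3 * v1) + (1 / 3 + y2) * (1 + 3 * v2) + (1 / 3 + y3) * (1 + 3 * v3)
      = 1 + tauC y1 y2 y3 v1 v2 v3 := by
    unfold tauC
    linear_combination (1 : ℝ) * hv + 3 * 0 * hv + (1 : ℝ) * hy
  unfold Gv
  rw [hD]
  have hNq : ((1 / 3 + y1) * (1 + 3 * v1)) ^ 2 + ((1 / 3 + y2) * (1 + 3 * v2)) ^ 2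
      + ((1 / 3 + y3) * (1 + 3 * v3)) ^ 2 - (1 + tauC y1 y2 y3 v1 v2 v3) ^ 2 / 3
      = NqC y1 y2 y3 v1 v2 v3 := rfl
  rw [hNq]
  unfold LL FF_Nq0 FF_Nq1 FF_Nq2 FF_Nq3 FF_J0 FF_J1 FF_J2 JC
  have ht : 1 + tauC y1 y2 y3 v1 v2 v3 - 1 = tauC y1 y2 y3 v1 v2 v3 := by ring
  rw [ht]
  ring

/-- averages of the powers of `tau` -/
theorem avg_P2 (y1 y2 v1 v2 : ℝ) :
    (1 / 6) * (
      (1 - 2 * tauC y1 y2 (-y1 - y2) v1 v2 (-v1 - v2) + 3 * (tauC y1 y2 (-y1 - y2) v1 v2 (-v1 - v2)) ^ 2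
        - 4 * (tauC y1 y2 (-y1 - y2) v1 v2 (-v1 - v2)) ^ 3)
      + (1 - 2 * tauC y1 y2 (-y1 - y2) v2 (-v1 - v2) v1 + 3 * (tauC y1 y2 (-y1 - y2) v2 (-v1 - v2) v1) ^ 2
        - 4 * (tauC y1 y2 (-y1 - y2) v2 (-v1 - v2) v1) ^ 3)
      + (1 - 2 * tauC y1 y2 (-y1 - y2) (-v1 - v2) v1 v2 + 3 * (tauC y1 y2 (-y1 - y2) (-v1 - v2) v1 v2) ^ 2
        - 4 * (tauC y1 y2 (-y1 - y2) (-v1 - v2) v1 v2) ^ 3)
      + (1 - 2 * tauC y1 y2 (-y1 - y2) v2 v1 (-v1 - v2) + 3 * (tauC y1 y2 (-y1 - y2) v2 v1 (-v1 - v2)) ^ 2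
        - 4 * (tauC y1 y2 (-y1 - y2) v2 v1 (-v1 - v2)) ^ 3)
      + (1 - 2 * tauC y1 y2 (-y1 - y2) v1 (-v1 - v2) v2 + 3 * (tauC y1 y2 (-y1 - y2) v1 (-v1 - v2) v2) ^ 2
        - 4 * (tauC y1 y2 (-y1 - y2) v1 (-v1 - v2) v2) ^ 3)
      + (1 - 2 * tauC y1 y2 (-y1 - y2) (-v1 - v2) v2 v1 + 3 * (tauC y1 y2 (-y1 - y2) (-v1 - v2) v2 v1) ^ 2
        - 4 * (tauC y1 y2 (-y1 - y2) (-v1 - v2) v2 v1) ^ 3))
    = 1 + 27 / 2 * Ic2 y1 y2 * Ic2 v1 v2 - 162 * Ic3 y1 y2 * Ic3 v1 v2 := by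
  simp only [tauC, Ic2, Ic3]
  ring

theorem avg_tau (y1 y2 v1 v2 : ℝ) :
    (1 / 6) * (tauC y1 y2 (-y1 - y2) v1 v2 (-v1 - v2) + tauC y1 y2 (-y1 - y2) v2 (-v1 - v2) v1
      + tauC y1 y2 (-y1 - y2) (-v1 - v2) v1 v2 + tauC y1 y2 (-y1 - y2) v2 v1 (-v1 - v2)
      + tauC y1 y2 (-y1 - y2) v1 (-v1 - v2) v2 + tauC y1 y2 (-y1 - y2) (-v1 - v2) v2 v1) = 0 := by
  simp only [tauC]
  ring

theorem KK_eq (y1 y2 v1 v2 : ℝ) :
    3 * ((1 / 3 + y1) * (1 / 3 + y2) * (1 / 3 + (-y1 - y2)))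
        * ((1 + 3 * v1) * (1 + 3 * v2) * (1 + 3 * (-v1 - v2)))
      = 1 / 9 * (1 - 9 / 2 * Ic2 y1 y2 + 9 * Ic3 y1 y2) * (1 - 9 / 2 * Ic2 v1 v2 + 9 * Ic3 v1 v2) := by
  simp only [Ic2, Ic3]
  ring

/-- The average over the six permutations of the polynomial lower bound. -/
theorem avg_Gv (y1 y2 v1 v2 : ℝ) :
    (1 / 6) * (Gv y1 y2 (-y1 - y2) v1 v2 (-v1 - v2) + Gv y1 y2 (-y1 - y2) v2 (-v1 - v2) v1
      + Gv y1 y2 (-y1 - y2) (-v1 - v2) v1 v2 + Gv y1 y2 (-y1 - y2) v2 v1 (-v1 - v2)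
      + Gv y1 y2 (-y1 - y2) v1 (-v1 - v2) v2 + Gv y1 y2 (-y1 - y2) (-v1 - v2) v2 v1)
    = LBf (Ic2 y1 y2) (Ic3 y1 y2) (Ic2 v1 v2) (Ic3 v1 v2) := by
  have hy : y1 + y2 + (-y1 - y2) = 0 := by ring
  have hv1 : v1 + v2 + (-v1 - v2) = 0 := by ring
  have hv2 : v2 + (-v1 - v2) + v1 = 0 := by ring
  have hv3 : (-v1 - v2) + v1 + v2 = 0 := by ring
  have hv4 : v2 + v1 + (-v1 - v2) = 0 := by ring
  have hv5 : v1 + (-v1 - v2) + v2 = 0 := by ring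
  have hv6 : (-v1 - v2) + v2 + v1 = 0 := by ring
  rw [Gv_expand hy hv1, Gv_expand hy hv2, Gv_expand hy hv3, Gv_expand hy hv4, Gv_expand hy hv5,
    Gv_expand hy hv6]
  have a1 := avg_Nq0 y1 y2 v1 v2
  have a2 := avg_Nq1 y1 y2 v1 v2
  have a3 := avg_Nq2 y1 y2 v1 v2
  have a4 := avg_Nq3 y1 y2 v1 v2
  have a5 := avg_J0 y1 y2 v1 v2
  have a6 := avg_J1 y1 y2 v1 v2
  have a7 := avg_J2 y1 y2 v1 v2
  have a8 := avg_P2 y1 y2 v1 v2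
  have a9 := avg_tau y1 y2 v1 v2
  have a10 := KK_eq y1 y2 v1 v2
  set K := 3 * ((1 / 3 + y1) * (1 / 3 + y2) * (1 / 3 + (-y1 - y2)))
        * ((1 + 3 * v1) * (1 + 3 * v2) * (1 + 3 * (-v1 - v2))) with hK
  have r2 : 3 * ((1 / 3 + y1) * (1 / 3 + y2) * (1 / 3 + (-y1 - y2)))
        * ((1 + 3 * v2) * (1 + 3 * (-v1 - v2)) * (1 + 3 * v1)) = K := by rw [hK]; ring
  have r3 : 3 * ((1 / 3 + y1) * (1 / 3 + y2) * (1 / 3 + (-y1 - y2)))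
        * ((1 + 3 * (-v1 - v2)) * (1 + 3 * v1) * (1 + 3 * v2)) = K := by rw [hK]; ring
  have r4 : 3 * ((1 / 3 + y1) * (1 / 3 + y2) * (1 / 3 + (-y1 - y2)))
        * ((1 + 3 * v2) * (1 + 3 * v1) * (1 + 3 * (-v1 - v2))) = K := by rw [hK]; ring
  have r5 : 3 * ((1 / 3 + y1) * (1 / 3 + y2) * (1 / 3 + (-y1 - y2)))
        * ((1 + 3 * v1) * (1 + 3 * (-v1 - v2)) * (1 + 3 * v2)) = K := by rw [hK]; ring
  have r6 : 3 * ((1 / 3 + y1) * (1 / 3 + y2) * (1 / 3 + (-y1 - y2)))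
        * ((1 + 3 * (-v1 - v2)) * (1 + 3 * v2) * (1 + 3 * v1)) = K := by rw [hK]; ring
  rw [r2, r3, r4, r5, r6]
  unfold LBf
  rw [show 1 / 9 * (1 - 9 / 2 * Ic2 y1 y2 + 9 * Ic3 y1 y2) * (1 - 9 / 2 * Ic2 v1 v2 + 9 * Ic3 v1 v2)
      * (1 + 27 / 2 * Ic2 y1 y2 * Ic2 v1 v2 - 162 * Ic3 y1 y2 * Ic3 v1 v2)
      = K * (1 + 27 / 2 * Ic2 y1 y2 * Ic2 v1 v2 - 162 * Ic3 y1 y2 * Ic3 v1 v2) by rw [a10]]
  rw [← a1, ← a2, ← a3, ← a4, ← a5, ← a6, ← a7, ← a8]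
  linear_combination (-(1 / 9 : ℝ)) * a9

theorem P2_nonneg {a b c p q r : ℝ} (h : Simp a b c) (h' : Msg p q r) :
    0 ≤ P2f (I2 a b c) (I3 a b c) (I2 p q r) (I3 p q r) := by
  by_cases hA : I2 a b c = 0
  · rw [hA, I3_eq_zero_of_I2 hA]
    simp only [P2f, LBf, PP_Nq0, PP_Nq1, PP_Nq2, PP_Nq3, PP_J0, PP_J1, PP_J2]
    apply le_of_eq
    ring
  by_cases hC : I2 p q r = 0
  · rw [hC, I3_eq_zero_of_I2 hC]
    simp only [P2f, LBf, PP_Nq0, PP_Nq1, PP_Nq2, PP_Nq3, PP_J0, PP_J1, PP_J2]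
    apply le_of_eq
    ring
  have hs := h'.stretch
  rw [I2_stretch p q r] at hC
  rw [I2_stretch p q r, I3_stretch p q r]
  have hC2 : I2 (7 / 5 * p - 2 / 15) (7 / 5 * q - 2 / 15) (7 / 5 * r - 2 / 15) ≠ 0 := by
    intro h0
    rw [h0] at hC
    simp at hC
  have a1 := h.atoms hA
  have a2 := hs.atoms hC2
  have key := cert2 a1 a2
  set A := I2 a b c
  set B := I3 a b c
  set C := I2 (7 / 5 * p - 2 / 15) (7 / 5 * q - 2 / 15) (7 / 5 * r - 2 / 15)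
  set E := I3 (7 / 5 * p - 2 / 15) (7 / 5 * q - 2 / 15) (7 / 5 * r - 2 / 15)
  have e1 : 2 / 3 * (3 / 2 * A) = A := by ring
  have e2 : 2 / 9 * (3 / 2 * A) * (3 * B / A) = B := by field_simp; ring
  have e3 : 2 / 3 * (25 / 49 * (3 / 2 * C)) = 25 / 49 * C := by ring
  have e4 : 2 / 9 * (125 / 343 * (3 / 2 * C)) * (3 * E / C) = 125 / 343 * E := by field_simp; ring
  rw [e1, e2, e3, e4] at key
  exact key

/-- the weight of the product is at most `5/2` -/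
theorem dot_le {a b c p q r : ℝ} (h : Simp a b c) (h' : Msg p q r) :
    3 * a * p + 3 * b * q + 3 * c * r ≤ 5 / 2 := by
  obtain ⟨h1, h2, h3, h4⟩ := h
  obtain ⟨h5, h6, h7, h8⟩ := h'
  have hp : p ≤ 17 / 21 := by linarith
  have hq : q ≤ 17 / 21 := by linarith
  have hr : r ≤ 17 / 21 := by linarith
  nlinarith [mul_le_mul_of_nonneg_left hp h1, mul_le_mul_of_nonneg_left hq h2,
    mul_le_mul_of_nonneg_left hr h3]

theorem wt_ge {a b c p q r : ℝ} (h : Simp a b c) (h' : Msg p q r) :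
    LL (3 * (3 * a * p) * (3 * b * q) * (3 * c * r)) (3 * a * p + 3 * b * q + 3 * c * r)
        ((3 * a * p) ^ 2 + (3 * b * q) ^ 2 + (3 * c * r) ^ 2
          - (3 * a * p + 3 * b * q + 3 * c * r) ^ 2 / 3)
      ≤ wt fK a b c p q r := by
  have hS := dot_pos h h'
  have hp := h'.simp
  have h1 : 0 ≤ 3 * a * p := by have := h.ha; have := hp.ha; positivity
  have h2 : 0 ≤ 3 * b * q := by have := h.hb; have := hp.hb; positivity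
  have h3 : 0 ≤ 3 * c * r := by have := h.hc; have := hp.hc; positivity
  have hD : 0 < 3 * a * p + 3 * b * q + 3 * c * r := by nlinarith
  have key := perpi h1 h2 h3 hD (dot_le h h')
  refine le_trans key (le_of_eq ?_)
  unfold wt
  have e : 3 * a * p + 3 * b * q + 3 * c * r = 3 * (a * p + b * q + c * r) := by ring
  rw [e]
  have hne : a * p + b * q + c * r ≠ 0 := hS.ne'
  have z1 : 3 * a * p / (3 * (a * p + b * q + c * r)) = a * p / (a * p + b * q + c * r) := by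
    field_simp
  have z2 : 3 * b * q / (3 * (a * p + b * q + c * r)) = b * q / (a * p + b * q + c * r) := by
    field_simp
  have z3 : 3 * c * r / (3 * (a * p + b * q + c * r)) = c * r / (a * p + b * q + c * r) := by
    field_simp
  rw [z1, z2, z3]

/-- The second kernel inequality, pointwise. -/
theorem k2_pointwise {a b c p q r : ℝ} (h : Simp a b c) (h' : Msg p q r) :
    (1 - 147 / 50 * I2 p q r) * (I3 a b c - 1 / 10 * (I2 a b c) ^ 2)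
        + (1 - 3 / 2 * I2 a b c) * (I3 p q r - 7 / 50 * (I2 p q r) ^ 2)
      ≤ (1 / 6) * (wt fK a b c p q r + wt fK a b c q r p + wt fK a b c r p q
        + wt fK a b c q p r + wt fK a b c p r q + wt fK a b c r q p) := by
  have hP := P2_nonneg h h'
  have w1 := wt_ge h h'
  have w2 := wt_ge h h'.cyc
  have w3 := wt_ge h h'.cyc.cyc
  have w4 := wt_ge h h'.swap
  have w5 := wt_ge h h'.swap.cyc
  have w6 := wt_ge h h'.swap.cyc.cyc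
  obtain ⟨y1, rfl⟩ : ∃ y1, a = 1 / 3 + y1 := ⟨a - 1 / 3, by ring⟩
  obtain ⟨y2, rfl⟩ : ∃ y2, b = 1 / 3 + y2 := ⟨b - 1 / 3, by ring⟩
  obtain rfl : c = 1 / 3 + (-y1 - y2) := by have := h.hs; linarith
  obtain ⟨v1, rfl⟩ : ∃ v1, p = 1 / 3 + v1 := ⟨p - 1 / 3, by ring⟩
  obtain ⟨v2, rfl⟩ : ∃ v2, q = 1 / 3 + v2 := ⟨q - 1 / 3, by ring⟩
  obtain rfl : r = 1 / 3 + (-v1 - v2) := by have := h'.hs; linarith
  have hA : I2 (1 / 3 + y1) (1 / 3 + y2) (1 / 3 + (-y1 - y2)) = Ic2 y1 y2 := by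
    unfold I2 Ic2; ring
  have hB : I3 (1 / 3 + y1) (1 / 3 + y2) (1 / 3 + (-y1 - y2)) = Ic3 y1 y2 := by
    unfold I3 Ic3; ring
  have hC : I2 (1 / 3 + v1) (1 / 3 + v2) (1 / 3 + (-v1 - v2)) = Ic2 v1 v2 := by
    unfold I2 Ic2; ring
  have hE : I3 (1 / 3 + v1) (1 / 3 + v2) (1 / 3 + (-v1 - v2)) = Ic3 v1 v2 := by
    unfold I3 Ic3; ring
  rw [hA, hB, hC, hE] at hP
  rw [hA, hB, hC, hE]
  have havg := avg_Gv y1 y2 v1 v2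
  have n : ∀ s t : ℝ, 3 * (1 / 3 + s) * (1 / 3 + t) = (1 / 3 + s) * (1 + 3 * t) := by
    intro s t; ring
  simp only [n] at w1 w2 w3 w4 w5 w6
  have g1 : Gv y1 y2 (-y1 - y2) v1 v2 (-v1 - v2) ≤ _ := w1
  have g2 : Gv y1 y2 (-y1 - y2) v2 (-v1 - v2) v1 ≤ _ := w2
  have g3 : Gv y1 y2 (-y1 - y2) (-v1 - v2) v1 v2 ≤ _ := w3
  have g4 : Gv y1 y2 (-y1 - y2) v2 v1 (-v1 - v2) ≤ _ := w4
  have g5 : Gv y1 y2 (-y1 - y2) v1 (-v1 - v2) v2 ≤ _ := w5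
  have g6 : Gv y1 y2 (-y1 - y2) (-v1 - v2) v2 v1 ≤ _ := w6
  unfold P2f at hP
  have hC2 : 0 ≤ 1 / 25 * (Ic2 v1 v2) ^ 2 := by positivity
  linarith

end Vale.Agent.Lib.P154
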