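import Vale.Agent.Lib.P154.NegDefs

namespace Vale.Agent.Lib.P154

set_option maxRecDepth 100000 in
set_option maxHeartbeats 8000000 in
theorem avg_NN0 (y1 y2 v1 v2 : ℝ) :
    (1 / 6) * (FF_NN0 y1 y2 (-y1 - y2) v1 v2 (-v1 - v2) + FF_NN0 y1 y2 (-y1 - y2) v2 (-v1 - v2) v1
      + FF_NN0 y1 y2 (-y1 - y2) (-v1 - v2) v1 v2 + FF_NN0 y1 y2 (-y1 - y2) v2 v1 (-v1 - v2)
      + FF_NN0 y1 y2 (-y1 - y2) v1 (-v1 - v2) v2 + FF_NN0 y1 y2 (-y1 - y2) (-v1 - v2) v2 v1)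
    = PP_NN0 (Ic2 y1 y2) (Ic3 y1 y2) (Ic2 v1 v2) (Ic3 v1 v2) := by
  simp only [FF_NN0, PP_NN0, Ic2, Ic3, NqC, tauC]
  ring

end Vale.Agent.Lib.P154
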