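import Vale.Agent.Lib.P154.NegRec
import Vale.Agent.Lib.P154.NegCertK1n
import Vale.Agent.Lib.P154.NegCertK2n
import Vale.Agent.Lib.P154.Tree

/-!
The class method for a small negative eigenvalue: nonreconstruction for `-197/1000 <= lam <= 0`.
-/

namespace Vale.Agent.Lib.P154

open Filter Topology

/-- messages of a channel with eigenvalue in `[-197/1000, 0]` -/
structure MsgL (p q r : ℝ) : Prop where
  ha : p ≤ (1 + 197 / 1000) / 3
  hb : q ≤ (1 + 197 / 1000) / 3
  hc : r ≤ (1 + 197 / 1000) / 3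
  hs : p + q + r = 1

theorem MsgL.msgN {p q r : ℝ} (h : MsgL p q r) : MsgN p q r := by
  obtain ⟨h1, h2, h3, hs⟩ := h
  exact ⟨by linarith, by linarith, by linarith, by linarith, by linarith, by linarith, hs⟩

/-- stretching a message back to a point of the simplex -/
theorem MsgL.stretch {p q r : ℝ} (h : MsgL p q r) :
    Simp (1 / 3 - 1000 / 197 * (p - 1 / 3)) (1 / 3 - 1000 / 197 * (q - 1 / 3))
      (1 / 3 - 1000 / 197 * (r - 1 / 3)) := by
  obtain ⟨h1, h2, h3, hs⟩ := h
  exact ⟨by linarith, by linarith, by linarith, by linarith⟩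

theorem I2_stretchL (p q r : ℝ) :
    I2 p q r = (197 / 1000) ^ 2 * I2 (1 / 3 - 1000 / 197 * (p - 1 / 3))
      (1 / 3 - 1000 / 197 * (q - 1 / 3)) (1 / 3 - 1000 / 197 * (r - 1 / 3)) := by
  unfold I2; ring

theorem I3_stretchL (p q r : ℝ) :
    I3 p q r = (-(197 / 1000) ^ 3) * I3 (1 / 3 - 1000 / 197 * (p - 1 / 3))
      (1 / 3 - 1000 / 197 * (q - 1 / 3)) (1 / 3 - 1000 / 197 * (r - 1 / 3)) := by
  unfold I3; ring

theorem MsgL.I2_le {p q r : ℝ} (h : MsgL p q r) : I2 p q r ≤ (197 / 1000) ^ 2 * (2 / 3) := by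
  rw [I2_stretchL]
  have := Vale.Agent.Lib.P154.I2_le h.stretch
  nlinarith

/-- the invariant of the class on messages, pointwise -/
theorem MsgL.fN_nonneg {p q r : ℝ} (h : MsgL p q r) : 0 ≤ fN (I2 p q r) (I3 p q r) := by
  unfold fN
  rw [I2_stretchL, I3_stretchL]
  have h1 := Vale.Agent.Lib.P154.I2_le h.stretch
  have h2 := I2_sub_nonneg h.stretch
  have h3 := I2_nonneg (1 / 3 - 1000 / 197 * (p - 1 / 3)) (1 / 3 - 1000 / 197 * (q - 1 / 3))
    (1 / 3 - 1000 / 197 * (r - 1 / 3))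
  set a' := I2 (1 / 3 - 1000 / 197 * (p - 1 / 3)) (1 / 3 - 1000 / 197 * (q - 1 / 3))
    (1 / 3 - 1000 / 197 * (r - 1 / 3))
  set b' := I3 (1 / 3 - 1000 / 197 * (p - 1 / 3)) (1 / 3 - 1000 / 197 * (q - 1 / 3))
    (1 / 3 - 1000 / 197 * (r - 1 / 3))
  have h4 : a' ^ 2 ≤ 2 / 3 * a' := by nlinarith
  have e : (-(197 / 1000 : ℝ) ^ 3) * b' + 761 / 10000 * ((197 / 1000) ^ 2 * a')
      - 2 / 5 * ((197 / 1000) ^ 2 * a') ^ 2
      = (197 / 1000 : ℝ) ^ 3 / 3 * (a' - 3 * b')
        + 2 / 5 * (197 / 1000) ^ 4 * (2 / 3 * a' - a' ^ 2)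
        + ((761 / 10000 * (197 / 1000) ^ 2 - (197 / 1000) ^ 3 / 3
          - 2 / 5 * (197 / 1000) ^ 4 * (2 / 3)) * a') := by
    ring
  rw [e]
  have c0 : (0 : ℝ) ≤ 761 / 10000 * (197 / 1000) ^ 2 - (197 / 1000) ^ 3 / 3
      - 2 / 5 * (197 / 1000) ^ 4 * (2 / 3) := by norm_num
  have t1 : 0 ≤ (197 / 1000 : ℝ) ^ 3 / 3 * (a' - 3 * b') := mul_nonneg (by norm_num) (by linarith)
  have t2 : 0 ≤ 2 / 5 * (197 / 1000 : ℝ) ^ 4 * (2 / 3 * a' - a' ^ 2) :=
    mul_nonneg (by norm_num) (by linarith)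
  have t3 := mul_nonneg c0 h3
  linarith

/-- the test function of the class -/
noncomputable def fL (x y z : ℝ) : ℝ := fN (I2 x y z) (I3 x y z)

theorem P1n_nonneg {a b c p q r : ℝ} (h : Simp a b c) (h' : MsgL p q r) :
    0 ≤ P1n (I2 a b c) (I3 a b c) (I2 p q r) (I3 p q r) := by
  by_cases hA : I2 a b c = 0
  · rw [hA, I3_eq_zero_of_I2 hA]
    unfold P1n R1n fN E0f Yf
    apply le_of_eq
    ring
  by_cases hC : I2 p q r = 0
  · rw [hC, I3_eq_zero_of_I2 hC]
    unfold P1n R1n fN E0f Yf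
    apply le_of_eq
    ring
  have hs := h'.stretch
  rw [I2_stretchL p q r] at hC
  rw [I2_stretchL p q r, I3_stretchL p q r]
  have hC2 : I2 (1 / 3 - 1000 / 197 * (p - 1 / 3)) (1 / 3 - 1000 / 197 * (q - 1 / 3))
      (1 / 3 - 1000 / 197 * (r - 1 / 3)) ≠ 0 := by
    intro h0
    rw [h0] at hC
    simp at hC
  have a1 := h.atoms hA
  have a2 := hs.atoms hC2
  have key := certK1n a1 a2
  set A := I2 a b c
  set B := I3 a b c
  set C := I2 (1 / 3 - 1000 / 197 * (p - 1 / 3)) (1 / 3 - 1000 / 197 * (q - 1 / 3))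
      (1 / 3 - 1000 / 197 * (r - 1 / 3))
  set E := I3 (1 / 3 - 1000 / 197 * (p - 1 / 3)) (1 / 3 - 1000 / 197 * (q - 1 / 3))
      (1 / 3 - 1000 / 197 * (r - 1 / 3))
  have e1 : 2 / 3 * (3 / 2 * A) = A := by ring
  have e2 : 2 / 9 * (3 / 2 * A) * (3 * B / A) = B := by field_simp; ring
  have e3 : 2 / 3 * (((197 / 1000) ^ 2) * (3 / 2 * C)) = (197 / 1000) ^ 2 * C := by ring
  have e4 : 2 / 9 * ((-(197 / 1000) ^ 3) * (3 / 2 * C)) * (3 * E / C)
      = (-(197 / 1000) ^ 3) * E := by field_simp; ring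
  rw [e1, e2, e3, e4] at key
  exact key

theorem P2n_nonneg {a b c p q r : ℝ} (h : Simp a b c) (h' : MsgL p q r) :
    0 ≤ P2n (I2 a b c) (I3 a b c) (I2 p q r) (I3 p q r) := by
  by_cases hA : I2 a b c = 0
  · rw [hA, I3_eq_zero_of_I2 hA]
    simp only [P2n, fN, LVf, LUf, UWf, PP_Nq0, PP_Nq1, PP_Nq2, PP_Nq3, PP_t4, PP_t5, PP_t6, PP_t7,
      PP_NN0, PP_NN1, PP_NN2, PP_NN3]
    apply le_of_eq
    ring
  by_cases hC : I2 p q r = 0
  · rw [hC, I3_eq_zero_of_I2 hC]
    simp only [P2n, fN, LVf, LUf, UWf, PP_Nq0, PP_Nq1, PP_Nq2, PP_Nq3, PP_t4, PP_t5, PP_t6, PP_t7,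
      PP_NN0, PP_NN1, PP_NN2, PP_NN3]
    apply le_of_eq
    ring
  have hs := h'.stretch
  rw [I2_stretchL p q r] at hC
  rw [I2_stretchL p q r, I3_stretchL p q r]
  have hC2 : I2 (1 / 3 - 1000 / 197 * (p - 1 / 3)) (1 / 3 - 1000 / 197 * (q - 1 / 3))
      (1 / 3 - 1000 / 197 * (r - 1 / 3)) ≠ 0 := by
    intro h0
    rw [h0] at hC
    simp at hC
  have a1 := h.atoms hA
  have a2 := hs.atoms hC2
  have key := certK2n a1 a2
  set A := I2 a b c
  set B := I3 a b c
  set C := I2 (1 / 3 - 1000 / 197 * (p - 1 / 3)) (1 / 3 - 1000 / 197 * (q - 1 / 3))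
      (1 / 3 - 1000 / 197 * (r - 1 / 3))
  set E := I3 (1 / 3 - 1000 / 197 * (p - 1 / 3)) (1 / 3 - 1000 / 197 * (q - 1 / 3))
      (1 / 3 - 1000 / 197 * (r - 1 / 3))
  have e1 : 2 / 3 * (3 / 2 * A) = A := by ring
  have e2 : 2 / 9 * (3 / 2 * A) * (3 * B / A) = B := by field_simp; ring
  have e3 : 2 / 3 * (((197 / 1000) ^ 2) * (3 / 2 * C)) = (197 / 1000) ^ 2 * C := by ring
  have e4 : 2 / 9 * ((-(197 / 1000) ^ 3) * (3 / 2 * C)) * (3 * E / C)
      = (-(197 / 1000) ^ 3) * E := by field_simp; ring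
  rw [e1, e2, e3, e4] at key
  exact key

theorem k1n_pointwise {a b c p q r : ℝ} (h : Simp a b c) (h' : MsgL p q r) :
    av6 I2 a b c p q r ≤ R1n (I2 a b c) (I3 a b c) (I2 p q r) := by
  refine av6_I2_le_of h h'.msgN (P1n_nonneg h h') ?_
  intro _ _ h3 _
  have := h'.I2_le
  rw [h3] at this
  norm_num at this

theorem k2n_pointwise {a b c p q r : ℝ} (h : Simp a b c) (h' : MsgL p q r) :
    (1 - 11 * I2 p q r) * fN (I2 a b c) (I3 a b c) + (1 - 3 / 2 * I2 a b c) * fN (I2 p q r) (I3 p q r)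
      ≤ av6 fL a b c p q r := by
  have hwt : ∀ a b c p q r : ℝ, wt fL a b c p q r = wt I3 a b c p q r
      + 761 / 10000 * wt I2 a b c p q r - 2 / 5 * wt I2sq a b c p q r := by
    intro a b c p q r
    unfold wt fL fN I2sq
    ring
  have hav : av6 fL a b c p q r = av6 I3 a b c p q r + 761 / 10000 * av6 I2 a b c p q r
      - 2 / 5 * av6 I2sq a b c p q r := by
    unfold av6
    simp only [hwt]
    ring
  have h3 := av6_I3_ge h h'.msgN
  have h2 := av6_I2_ge h h'.msgN
  have h4 := av6_I2sq_le h h'.msgN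
  have hP := P2n_nonneg h h'
  unfold P2n at hP
  rw [hav]
  linarith

/-- the channel of a small negative eigenvalue -/
theorem chan_symExp_L {E : Ex3} (hE : SymExp E Simp) {lam : ℝ} (h0 : -(197 / 1000) ≤ lam)
    (h1 : lam ≤ 0) : SymExp (chan lam E) MsgL where
  add f g := hE.add _ _
  smul t f := hE.smul _ _
  nonneg f hf := by
    refine hE.nonneg _ (fun a b c hK => hf _ _ _ ?_)
    have key : ∀ x : ℝ, 0 ≤ x → chanPt lam x ≤ (1 + 197 / 1000) / 3 := by
      intro x hx
      unfold chanPt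
      nlinarith [mul_nonneg (neg_nonneg.2 h1) hx]
    refine ⟨key _ hK.ha, key _ hK.hb, key _ hK.hc, ?_⟩
    unfold chanPt
    have := hK.hs
    linear_combination lam * this
  one := hE.one
  swap f := hE.swap (fun a b c => f (chanPt lam a) (chanPt lam b) (chanPt lam c))
  cyc f := hE.cyc (fun a b c => f (chanPt lam a) (chanPt lam b) (chanPt lam c))

theorem SymExp.lin2 {E : Ex3} {K : ℝ → ℝ → ℝ → Prop} (h : SymExp E K) (k0 k1 : ℝ) (f : Fn3) :
    E (fun a b c => k0 + k1 * f a b c) = k0 + k1 * E f := by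
  rw [h.add (fun _ _ _ => k0) (fun a b c => k1 * f a b c), h.const, h.smul]

/-- integrated form of the first kernel inequality -/
theorem m2_bprodL {E E' : Ex3} (hE : SymExp E Simp) (hE' : SymExp E' MsgL) (h1 : 0 ≤ E fL) :
    bprod E E' I2 ≤ E I2 + E' I2 - 1 / 50 * E I2 * E' I2 := by
  have hm' : 0 ≤ E' I2 := hE'.nonneg _ (fun p q r _ => I2_nonneg p q r)
  have hinner : ∀ a b c, Simp a b c →
      E' (fun p q r => wt I2 a b c p q r)
        ≤ E' I2 + (1 - 1 / 50 * E' I2) * I2 a b c + (-(49 / 5) * E' I2) * fL a b c := by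
    intro a b c hK
    rw [← hE'.sym6 (fun p q r => wt I2 a b c p q r)]
    have hmono := hE'.mono (f := fun p q r => (1 / 6) * (wt I2 a b c p q r + wt I2 a b c q r p
        + wt I2 a b c r p q + wt I2 a b c q p r + wt I2 a b c p r q + wt I2 a b c r q p))
      (g := fun p q r => I2 a b c + (1 - 49 / 5 * fL a b c - 1 / 50 * I2 a b c) * I2 p q r)
      (fun p q r hK' => by
        refine le_trans (k1n_pointwise hK hK') (le_of_eq ?_)
        unfold R1n fL
        ring)
    refine le_trans hmono (le_of_eq ?_)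
    rw [hE'.lin2]
    ring
  have h3 : bprod E E' I2 ≤ E (fun a b c => E' I2 + (1 - 1 / 50 * E' I2) * I2 a b c
      + (-(49 / 5) * E' I2) * fL a b c) :=
    hE.mono hinner
  rw [hE.lin3] at h3
  have h5 : 0 ≤ E' I2 * E fL := mul_nonneg hm' h1
  nlinarith

/-- integrated form of the second kernel inequality -/
theorem class_bprodL {E E' : Ex3} (hE : SymExp E Simp) (hE' : SymExp E' MsgL)
    (h1 : 0 ≤ E fL) (h2 : 0 ≤ E' fL) :
    0 ≤ bprod E E' fL := by
  have hinner : ∀ a b c, Simp a b c →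
      (1 - 11 * E' I2) * fL a b c + (E' fL) * (1 - 3 / 2 * I2 a b c)
        ≤ E' (fun p q r => wt fL a b c p q r) := by
    intro a b c hK
    rw [← hE'.sym6 (fun p q r => wt fL a b c p q r)]
    have hmono := hE'.mono
      (f := fun p q r => fL a b c + (-11 * fL a b c) * I2 p q r
        + (1 - 3 / 2 * I2 a b c) * fL p q r)
      (g := fun p q r => (1 / 6) * (wt fL a b c p q r + wt fL a b c q r p
        + wt fL a b c r p q + wt fL a b c q p r + wt fL a b c p r q + wt fL a b c r q p))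
      (fun p q r hK' => by
        refine le_trans (le_of_eq ?_) (k2n_pointwise hK hK')
        unfold fL
        ring)
    refine le_trans (le_of_eq ?_) hmono
    rw [hE'.lin3]
    ring
  have h3 := hE.mono (f := fun a b c => 0 + (1 - 11 * E' I2) * fL a b c
      + (E' fL) * (1 - 3 / 2 * I2 a b c)) (g := fun a b c => E' (fun p q r => wt fL a b c p q r))
    (fun a b c hK => by simpa using hinner a b c hK)
  rw [hE.lin3] at h3
  have h4 : 0 ≤ E (fun a b c => 1 - 3 / 2 * I2 a b c) :=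
    hE.nonneg _ (fun a b c hK => by have := Vale.Agent.Lib.P154.I2_le hK; linarith)
  have h5 : 0 ≤ 1 - 11 * E' I2 := by
    have hb : 0 ≤ E' (fun a b c => 1 - 11 * I2 a b c) :=
      hE'.nonneg _ (fun a b c hK => by
        have := hK.I2_le
        norm_num at this
        linarith)
    have e := hE'.lin2 1 (-11) I2
    have e2 : E' (fun a b c => 1 - 11 * I2 a b c) = 1 + -11 * E' I2 := by
      rw [← e]
      congr 1
      funext a b c
      ring
    rw [e2] at hb
    linarith
  have h6 : 0 ≤ (1 - 11 * E' I2) * E fL := mul_nonneg h5 h1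
  have h7 : 0 ≤ E' fL * E (fun a b c => 1 - 3 / 2 * I2 a b c) := mul_nonneg h2 h4
  have : bprod E E' fL = E (fun a b c => E' (fun p q r => wt fL a b c p q r)) := rfl
  rw [this]
  linarith

theorem Pk_propsL {E' : Ex3} (hE' : SymExp E' MsgL) (h2 : 0 ≤ E' fL) (k : ℕ) :
    SymExp (Pk E' k) Simp ∧ 0 ≤ Pk E' k fL := by
  induction k with
  | zero =>
    refine ⟨centre_symExp, ?_⟩
    show 0 ≤ fL (1 / 3) (1 / 3) (1 / 3)
    unfold fL fN I2 I3
    norm_num
  | succ k ih =>
    exact ⟨bprod_symExp0 ih.1 (hE'.of_subset fun a b c h => h.msgN.simp),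
      class_bprodL ih.1 hE' ih.2 h2⟩

theorem Pk_stepL {E' : Ex3} (hE' : SymExp E' MsgL) (h2 : 0 ≤ E' fL) (k : ℕ) :
    Pk E' (k + 1) I2 ≤ Pk E' k I2 + E' I2 - 1 / 50 * Pk E' k I2 * E' I2 :=
  m2_bprodL (Pk_propsL hE' h2 k).1 hE' (Pk_propsL hE' h2 k).2

/-- The second moment after `d >= 2` products. -/
theorem Pk_boundL {E' : Ex3} (hE' : SymExp E' MsgL) (h2 : 0 ≤ E' fL) {d : ℕ} (hd : 2 ≤ d) :
    Pk E' d I2 ≤ d * E' I2 - 1 / 50 * (E' I2) ^ 2 := by
  set b := E' I2 with hb
  have hb0 : 0 ≤ b := E_I2_nonneg hE'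
  have hb1 : b ≤ 1 := by
    have h3 : E' I2 ≤ E' (fun _ _ _ => 1) :=
      hE'.mono (fun a b c hK => by
        have := hK.I2_le
        norm_num at this
        linarith)
    rw [hE'.one] at h3
    exact h3
  have a0 := Pk_zero_I2 E'
  have step : ∀ k, Pk E' (k + 1) I2 ≤ Pk E' k I2 + b - 1 / 50 * Pk E' k I2 * b :=
    fun k => Pk_stepL hE' h2 k
  have nn : ∀ k, 0 ≤ Pk E' k I2 := fun k => E_I2_nonneg (Pk_propsL hE' h2 k).1
  have a1 : Pk E' 1 I2 ≤ b := by
    have := step 0
    rw [a0] at this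
    linarith
  have a2 : Pk E' 2 I2 ≤ 2 * b - 1 / 50 * b ^ 2 := by
    have := step 1
    have h3 : 0 ≤ (b - Pk E' 1 I2) * (1 - 1 / 50 * b) :=
      mul_nonneg (by linarith) (by linarith)
    nlinarith
  obtain ⟨j, rfl⟩ : ∃ j, d = j + 2 := ⟨d - 2, by omega⟩
  have key : ∀ j : ℕ, Pk E' (j + 2) I2 ≤ (j + 2) * b - 1 / 50 * b ^ 2 := by
    intro j
    induction j with
    | zero =>
      simpa using a2
    | succ j ih =>
      have h3 := step (j + 2)
      have h4 := nn (j + 2)
      have h5 : 0 ≤ Pk E' (j + 2) I2 * b := mul_nonneg h4 hb0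
      have e : j + 1 + 2 = j + 2 + 1 := by ring
      rw [e]
      push_cast
      nlinarith
  have := key j
  push_cast
  linarith

theorem Ehat_propsL (d : ℕ) {lam : ℝ} (h0 : -(197 / 1000) ≤ lam) (h1 : lam ≤ 0) (n : ℕ) :
    SymExp (Ehat d lam n) Simp ∧ 0 ≤ Ehat d lam n fL := by
  induction n with
  | zero =>
    refine ⟨vertexEx_symExp, ?_⟩
    show 0 ≤ vertexEx fL
    unfold vertexEx fL fN I2 I3
    norm_num
  | succ n ih =>
    have hc := chan_symExp_L ih.1 h0 h1
    have hm : 0 ≤ chan lam (Ehat d lam n) fL := hc.nonneg _ (fun p q r hK => hK.fN_nonneg)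
    exact Pk_propsL hc hm d

/-- the recursion of the functionals for small negative eigenvalue -/
theorem EhatL_step {d : ℕ} (hd : 2 ≤ d) {lam : ℝ} (h0 : -(197 / 1000) ≤ lam) (h1 : lam ≤ 0) (n : ℕ) :
    Ehat d lam (n + 1) I2
      ≤ d * lam ^ 2 * Ehat d lam n I2 - 1 / 50 * lam ^ 4 * (Ehat d lam n I2) ^ 2 := by
  have hp := Ehat_propsL d h0 h1 n
  have hc := chan_symExp_L hp.1 h0 h1
  have hm : 0 ≤ chan lam (Ehat d lam n) fL := hc.nonneg _ (fun p q r hK => hK.fN_nonneg)
  have := Pk_boundL hc hm hd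
  rw [m2_chan hp.1] at this
  have e : Ehat d lam (n + 1) I2 = Pk (chan lam (Ehat d lam n)) d I2 := rfl
  rw [e]
  refine le_trans this (le_of_eq ?_)
  ring

/-- The second moment tends to zero. -/
theorem EhatL_tendsto {d : ℕ} (hd : 2 ≤ d) {lam : ℝ} (h0 : -(197 / 1000) ≤ lam) (h1 : lam ≤ 0)
    (hKS : d * lam ^ 2 ≤ 1) :
    Tendsto (fun n => Ehat d lam n I2) atTop (𝓝 0) := by
  set m : ℕ → ℝ := fun n => Ehat d lam n I2 with hm
  have hnn : ∀ n, 0 ≤ m n := fun n => E_I2_nonneg (Ehat_propsL d h0 h1 n).1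
  have hrec : ∀ n, m (n + 1) ≤ m n - 1 / 50 * lam ^ 4 * (m n) ^ 2 := by
    intro n
    have h2 := EhatL_step hd h0 h1 n
    have h3 : (d : ℝ) * lam ^ 2 * m n ≤ 1 * m n :=
      mul_le_mul_of_nonneg_right hKS (hnn n)
    simp only [hm] at h2 h3 ⊢
    linarith
  have hanti : Antitone m := by
    refine antitone_nat_of_succ_le (fun n => ?_)
    have := hrec n
    have h4 : 0 ≤ 1 / 50 * lam ^ 4 * (m n) ^ 2 := by positivity
    linarith
  have hbdd : BddBelow (Set.range m) := ⟨0, by rintro _ ⟨n, rfl⟩; exact hnn n⟩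
  have hlim := tendsto_atTop_ciInf hanti hbdd
  set L := ⨅ n, m n with hL
  have hL0 : 0 ≤ L := le_ciInf hnn
  by_cases hlam : lam = 0
  · -- then the sequence vanishes from the first step on
    have hzero : ∀ n, m (n + 1) = 0 := by
      intro n
      have := hrec n
      have h2 := EhatL_step hd h0 h1 n
      have hl2 : lam ^ 2 = 0 := by rw [hlam]; norm_num
      have hl4 : lam ^ 4 = 0 := by rw [hlam]; norm_num
      rw [hl2, hl4] at h2
      have h3 := hnn (n + 1)
      simp only [hm] at h3 ⊢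
      refine le_antisymm ?_ h3
      simpa using h2
    have : L = 0 := by
      refine le_antisymm ?_ hL0
      exact (ciInf_le hbdd 1).trans (by rw [show (1 : ℕ) = 0 + 1 from rfl, hzero 0])
    rwa [this] at hlim
  · have hlpos : 0 < 1 / 50 * lam ^ 4 := by positivity
    have hl1 : Tendsto (fun n => m (n + 1)) atTop (𝓝 L) := hlim.comp (tendsto_add_atTop_nat 1)
    have hl2 : Tendsto (fun n => m n - 1 / 50 * lam ^ 4 * (m n) ^ 2) atTop
        (𝓝 (L - 1 / 50 * lam ^ 4 * L ^ 2)) :=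
      hlim.sub ((hlim.pow 2).const_mul _)
    have hle : L ≤ L - 1 / 50 * lam ^ 4 * L ^ 2 :=
      le_of_tendsto_of_tendsto' hl1 hl2 hrec
    have hL2 : L ^ 2 = 0 := by
      have h5 : 0 ≤ 1 / 50 * lam ^ 4 * L ^ 2 := by positivity
      have h6 : 1 / 50 * lam ^ 4 * L ^ 2 = 0 := by linarith
      rcases mul_eq_zero.1 h6 with h7 | h7
      · exact absurd h7 hlpos.ne'
      · exact h7
    have : L = 0 := by simpa using hL2
    rwa [this] at hlim

section treeLink

variable {d : ℕ} {lam : ℝ}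

/-- the channel keeps a point of `[0,1]` positive when `-1/2 < lam < 1` -/
theorem chanPt_pos' (h0 : -(1 / 2) < lam) (h1 : lam < 1) {x : ℝ} (hx0 : 0 ≤ x) (hx1 : x ≤ 1) :
    0 < chanPt lam x := by
  unfold chanPt
  rcases le_total 0 lam with h | h
  · have := mul_nonneg h hx0
    linarith
  · have : lam * 1 ≤ lam * x := mul_le_mul_of_nonpos_left hx1 h
    linarith

/-- positivity of the likelihoods -/
theorem leafLik_props' (h0 : -(1 / 2) < lam) (h1 : lam < 1) (n : ℕ) :
    ∀ s : LeafConfig d 3 n, (∀ i, 0 ≤ leafLik d 3 lam n i s) ∧ 0 < totLik d lam n s := by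
  induction n with
  | zero =>
    show ∀ s : Fin 3, (∀ i : Fin 3, 0 ≤ spinDelta 3 i s)
      ∧ 0 < spinDelta 3 0 s + spinDelta 3 1 s + spinDelta 3 2 s
    intro s
    constructor
    · intro i
      unfold spinDelta
      split_ifs <;> norm_num
    · rw [delta_sum]
      norm_num
  | succ n ih =>
    intro s
    have hf : ∀ (i : Fin 3) (c : Fin d),
        0 < lam * leafLik d 3 lam n i ((s : Fin d → LeafConfig d 3 n) c)
          + (1 - lam) / 3 * totLik d lam n ((s : Fin d → LeafConfig d 3 n) c) := by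
      intro i c
      have h2 := ih ((s : Fin d → LeafConfig d 3 n) c)
      have h3 := h2.1
      have h4 := h2.2
      set t := (s : Fin d → LeafConfig d 3 n) c
      have hle : leafLik d 3 lam n i t ≤ totLik d lam n t := by
        unfold totLik
        have a0 := h3 0
        have a1 := h3 1
        have a2 := h3 2
        have hs : ∀ j : Fin 3, j = 0 ∨ j = 1 ∨ j = 2 := by decide
        rcases hs i with h | h | h <;> rw [h] <;> linarith
      have hx0 : 0 ≤ leafLik d 3 lam n i t / totLik d lam n t := div_nonneg (h3 i) h4.le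
      have hx1 : leafLik d 3 lam n i t / totLik d lam n t ≤ 1 := (div_le_one h4).2 hle
      have := chanPt_pos' h0 h1 hx0 hx1
      unfold chanPt at this
      have e : lam * leafLik d 3 lam n i t + (1 - lam) / 3 * totLik d lam n t
          = totLik d lam n t * (lam * (leafLik d 3 lam n i t / totLik d lam n t) + (1 - lam) / 3) := by
        have := h4.ne'
        field_simp
      rw [e]
      positivity
    have hpos : ∀ i, 0 < leafLik d 3 lam (n + 1) i s := by
      intro i
      rw [leafLik_succ]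
      exact Finset.prod_pos (fun c _ => hf i c)
    refine ⟨fun i => (hpos i).le, ?_⟩
    unfold totLik
    have := hpos 0
    have := hpos 1
    have := hpos 2
    positivity

/-- The functional of the recursion is the law of the posterior. -/
theorem Ehat_eq_sum' (h0 : -(1 / 2) < lam) (h1 : lam < 1) (n : ℕ) :
    ∀ f : Fn3, Ehat d lam n f = ∑ s : LeafConfig d 3 n,
      (1 / 3 * totLik d lam n s) * f (postC d lam n 0 s) (postC d lam n 1 s) (postC d lam n 2 s) := by
  induction n with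
  | zero =>
    intro f
    show 1 / 3 * (f 1 0 0 + f 0 1 0 + f 0 0 1) = ∑ s : Fin 3, _
    rw [Fin.sum_univ_three]
    have T : ∀ (s : Fin 3), totLik d lam 0 s = spinDelta 3 0 s + spinDelta 3 1 s + spinDelta 3 2 s :=
      fun _ => rfl
    have v : ∀ (s i : Fin 3), postC d lam 0 i s
        = spinDelta 3 i s / (spinDelta 3 0 s + spinDelta 3 1 s + spinDelta 3 2 s) :=
      fun _ _ => rfl
    have d00 : spinDelta 3 0 0 = 1 := by simp [spinDelta]
    have d01 : spinDelta 3 0 1 = 0 := by simp [spinDelta]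
    have d02 : spinDelta 3 0 2 = 0 := by simp [spinDelta]
    have d10 : spinDelta 3 1 0 = 0 := by simp [spinDelta]
    have d11 : spinDelta 3 1 1 = 1 := by simp [spinDelta]
    have d12 : spinDelta 3 1 2 = 0 := by simp [spinDelta]
    have d20 : spinDelta 3 2 0 = 0 := by simp [spinDelta]
    have d21 : spinDelta 3 2 1 = 0 := by simp [spinDelta]
    have d22 : spinDelta 3 2 2 = 1 := by simp [spinDelta]
    simp only [v, T, d00, d01, d02, d10, d11, d12, d20, d21, d22]
    norm_num
    ring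
  | succ n ih =>
    intro f
    -- the message functional
    set C := LeafConfig d 3 n
    have htot : ∀ t : C, 0 < totLik d lam n t := fun t => (leafLik_props' h0 h1 n t).2
    have hlik : ∀ (t : C) (i : Fin 3), 0 ≤ leafLik d 3 lam n i t :=
      fun t i => (leafLik_props' h0 h1 n t).1 i
    have hy : ∀ (i : Fin 3) (t : C), 0 < chanPt lam (postC d lam n i t) := by
      intro i t
      have h2 : 0 ≤ leafLik d 3 lam n i t / totLik d lam n t :=
        div_nonneg (hlik t i) (htot t).le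
      have h3 : leafLik d 3 lam n i t / totLik d lam n t ≤ 1 := by
        refine (div_le_one (htot t)).2 ?_
        unfold totLik
        have a0 := hlik t 0
        have a1 := hlik t 1
        have a2 := hlik t 2
        have hs : ∀ j : Fin 3, j = 0 ∨ j = 1 ∨ j = 2 := by decide
        rcases hs i with h | h | h <;> rw [h] <;> linarith
      exact chanPt_pos' h0 h1 h2 h3
    have hE' : ∀ g : Fn3, chan lam (Ehat d lam n) g
        = ∑ t : C, (1 / 3 * totLik d lam n t) *
          g (chanPt lam (postC d lam n 0 t)) (chanPt lam (postC d lam n 1 t))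
            (chanPt lam (postC d lam n 2 t)) := by
      intro g
      unfold chan
      rw [ih]
    have hstep : Ehat d lam (n + 1) f = Pk (chan lam (Ehat d lam n)) d f := rfl
    rw [hstep, Pk_sum _ _ _ _ (hy 0) (hy 1) (hy 2) _ hE' d f]
    show _ = ∑ s : Fin d → C, _
    refine Finset.sum_congr rfl (fun s _ => ?_)
    -- the likelihood of a tuple
    have hchild : ∀ (i : Fin 3) (t : C),
        lam * leafLik d 3 lam n i t + (1 - lam) / 3 * totLik d lam n t
          = totLik d lam n t * chanPt lam (postC d lam n i t) := by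
      intro i t
      unfold chanPt postC
      have := (htot t).ne'
      field_simp
    have hL : ∀ i : Fin 3, leafLik d 3 lam (n + 1) i s
        = (∏ c, totLik d lam n (s c)) * ∏ c, chanPt lam (postC d lam n i (s c)) := by
      intro i
      rw [← Finset.prod_mul_distrib]
      refine (leafLik_succ lam n i s).trans ?_
      refine Finset.prod_congr rfl (fun c _ => ?_)
      exact hchild i (s c)
    have hT : 0 < ∏ c, totLik d lam n (s c) := Finset.prod_pos (fun c _ => htot _)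
    have p0 : 0 < ∏ c, chanPt lam (postC d lam n 0 (s c)) := Finset.prod_pos (fun c _ => hy 0 _)
    have p1 : 0 < ∏ c, chanPt lam (postC d lam n 1 (s c)) := Finset.prod_pos (fun c _ => hy 1 _)
    have p2 : 0 < ∏ c, chanPt lam (postC d lam n 2 (s c)) := Finset.prod_pos (fun c _ => hy 2 _)
    set L0 := ∏ c, chanPt lam (postC d lam n 0 (s c))
    set L1 := ∏ c, chanPt lam (postC d lam n 1 (s c))
    set L2 := ∏ c, chanPt lam (postC d lam n 2 (s c))
    set T := ∏ c, totLik d lam n (s c)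
    have hS : 0 < L0 + L1 + L2 := by positivity
    have hL0 : leafLik d 3 lam (n + 1) 0 s = T * L0 := hL 0
    have hL1 : leafLik d 3 lam (n + 1) 1 s = T * L1 := hL 1
    have hL2 : leafLik d 3 lam (n + 1) 2 s = T * L2 := hL 2
    have htt : totLik d lam (n + 1) s = T * (L0 + L1 + L2) := by
      unfold totLik
      rw [hL0, hL1, hL2]
      ring
    have hx0 : postC d lam (n + 1) 0 s = L0 / (L0 + L1 + L2) := by
      unfold postC
      rw [htt, hL0]
      field_simp
    have hx1 : postC d lam (n + 1) 1 s = L1 / (L0 + L1 + L2) := by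
      unfold postC
      rw [htt, hL1]
      field_simp
    have hx2 : postC d lam (n + 1) 2 s = L2 / (L0 + L1 + L2) := by
      unfold postC
      rw [htt, hL2]
      field_simp
    rw [hx0, hx1, hx2, htt]
    have hW : ∏ c, (1 / 3 * totLik d lam n (s c)) = (1 / 3) ^ d * T := by
      rw [Finset.prod_mul_distrib]
      simp
      rfl
    rw [hW]
    congr 1
    have : ((1 : ℝ) / 3) ^ d * 3 ^ d = 1 := by
      rw [← mul_pow]
      norm_num
    linear_combination (1 / 3 * T * (L0 + L1 + L2)) * this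

end treeLink

/-- the link with the tree for `-1/2 < lam < 1` -/
theorem reconError_eq' {d : ℕ} {lam : ℝ} (h0 : -(1 / 2) < lam) (h1 : lam < 1) (n : ℕ) :
    reconError d 3 lam n
      = Ehat d lam n (fun a b c => 1 / 2 * (|a - 1 / 3| + |b - 1 / 3| + |c - 1 / 3|)) := by
  rw [Ehat_eq_sum' h0 h1]
  unfold reconError
  refine Finset.sum_congr rfl (fun s _ => ?_)
  have hT := (leafLik_props' h0 h1 n s).2
  have hprob : leafProb d 3 lam n s = 1 / 3 * totLik d lam n s := by
    unfold leafProb totLik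
    rw [Fin.sum_univ_three]
    push_cast
    ring
  have hpost : ∀ i, rootPosterior d 3 lam n s i = postC d lam n i s := by
    intro i
    unfold rootPosterior postC
    rw [hprob]
    have := hT.ne'
    push_cast
    field_simp
  rw [hprob, Fin.sum_univ_three, hpost, hpost, hpost]
  push_cast
  ring

/-- Nonreconstruction for a small negative eigenvalue at and below the Kesten-Stigum bound. -/
theorem tendsto_reconError_negSmall {d : ℕ} (hd : 2 ≤ d) {lam : ℝ} (h0 : -(197 / 1000) ≤ lam)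
    (h1 : lam ≤ 0) (hKS : (d : ℝ) * lam ^ 2 ≤ 1) :
    Tendsto (reconError d 3 lam) atTop (𝓝 0) := by
  have hm := EhatL_tendsto hd h0 h1 hKS
  rw [Metric.tendsto_atTop] at hm ⊢
  intro ε hε
  set e := ε / 3 with he
  have hepos : 0 < e := by positivity
  obtain ⟨N, hN⟩ := hm (8 * e * e) (by positivity)
  refine ⟨N, fun n hn => ?_⟩
  have hp := (Ehat_propsL d h0 h1 n).1
  have hb := hN n hn
  rw [Real.dist_eq, sub_zero] at hb ⊢
  have hm0 := E_I2_nonneg hp
  rw [abs_of_nonneg hm0] at hb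
  rw [reconError_eq' (by linarith) (by linarith)]
  have hnn : 0 ≤ Ehat d lam n (fun a b c => 1 / 2 * (|a - 1 / 3| + |b - 1 / 3| + |c - 1 / 3|)) :=
    hp.nonneg _ (fun a b c _ => by positivity)
  rw [abs_of_nonneg hnn]
  have hle := hp.mono (f := fun a b c => 1 / 2 * (|a - 1 / 3| + |b - 1 / 3| + |c - 1 / 3|))
    (g := fun a b c => 3 / 2 * e + 1 / (8 * e) * I2 a b c + 0 * I2 a b c)
    (fun a b c _ => by
      have := abs_bound (a := a) (b := b) (c := c) hepos
      linarith)
  rw [hp.lin3] at hle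
  have h8 : 1 / (8 * e) * Ehat d lam n I2 < e := by
    rw [div_mul_eq_mul_div, one_mul, div_lt_iff₀ (by positivity)]
    linarith
  have he3 : ε = 3 * e := by rw [he]; ring
  linarith

end Vale.Agent.Lib.P154
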