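import Vale.Agent.Lib.P154.Inv
import Vale.Agent.Lib.P154.Defs2

/-!
More polynomials in centred coordinates: the pieces `Nq^2 * tau^j` and `tau^j` with their averages.
-/

namespace Vale.Agent.Lib.P154

/-- integrand -/
noncomputable def FF_NN0 (y1 y2 y3 v1 v2 v3 : ℝ) : ℝ := NqC y1 y2 y3 v1 v2 v3 ^ 2

/-- its average -/
noncomputable def PP_NN0 (A B C E : ℝ) : ℝ :=
  (1)*C^2 + (36)*B*E + (12)*B*C + (12)*A*E + (4)*A*C + (6)*A*C^2 + (1)*A^2 + (6)*A^2*C + (9/4)*A^2*C^2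

/-- integrand -/
noncomputable def FF_NN1 (y1 y2 y3 v1 v2 v3 : ℝ) : ℝ := NqC y1 y2 y3 v1 v2 v3 ^ 2 * tauC y1 y2 y3 v1 v2 v3

/-- its average -/
noncomputable def PP_NN1 (A B C E : ℝ) : ℝ :=
  (18)*B*E + (27)*B*C*E + (36)*B*C^2 + (18)*A*C*E + (6)*A*C^2 + (27)*A*B*E + (18)*A*B*C + (27)*A*B*C^2 + (36)*A^2*E + (6)*A^2*C + (27)*A^2*C*E + (18)*A^2*C^2

/-- integrand -/
noncomputable def FF_NN2 (y1 y2 y3 v1 v2 v3 : ℝ) : ℝ := NqC y1 y2 y3 v1 v2 v3 ^ 2 * tauC y1 y2 y3 v1 v2 v3 ^ 2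

/-- its average -/
noncomputable def PP_NN2 (A B C E : ℝ) : ℝ :=
  (54)*B*C*E + (27)*B*C^3 + (81)*B^2*C^2 + (9/2)*A*C^3 + (54)*A*B*E + (324)*A*B*C*E + (108)*A*B*C^2 + (81/2)*A*B*C^3 + (81)*A^2*E^2 + (108)*A^2*C*E + (45/2)*A^2*C^2 + (81/4)*A^2*C^3 + (27)*A^3*E + (9/2)*A^3*C + (81/2)*A^3*C*E + (81/4)*A^3*C^2 + (81/8)*A^3*C^3

/-- integrand -/
noncomputable def FF_NN3 (y1 y2 y3 v1 v2 v3 : ℝ) : ℝ := NqC y1 y2 y3 v1 v2 v3 ^ 2 * tauC y1 y2 y3 v1 v2 v3 ^ 3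

/-- its average -/
noncomputable def PP_NN3 (A B C E : ℝ) : ℝ :=
  (81/2)*B*C^2*E + (486)*B^2*C*E + (243)*B^2*C^3 + (486)*A*B*E^2 + (567/2)*A*B*C*E + (1701/4)*A*B*C^2*E + (243)*A*B*C^3 + (243/2)*A^2*C^2*E + (81/2)*A^2*C^3 + (81/2)*A^2*B*E + (1701/4)*A^2*B*C*E + (243/2)*A^2*B*C^2 + (729/8)*A^2*B*C^2*E + (729/4)*A^2*B*C^3 + (243)*A^3*E^2 + (243)*A^3*C*E + (81/2)*A^3*C^2 + (729/4)*A^3*C^2*E + (81)*A^3*C^3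

/-- integrand -/
noncomputable def FF_t4 (y1 y2 y3 v1 v2 v3 : ℝ) : ℝ := tauC y1 y2 y3 v1 v2 v3 ^ 4

/-- its average -/
noncomputable def PP_t4 (A B C E : ℝ) : ℝ :=
  (243/8)*A^2*C^2

/-- integrand -/
noncomputable def FF_t5 (y1 y2 y3 v1 v2 v3 : ℝ) : ℝ := tauC y1 y2 y3 v1 v2 v3 ^ 5

/-- its average -/
noncomputable def PP_t5 (A B C E : ℝ) : ℝ :=
  (3645/8)*A*B*C*E

/-- integrand -/
noncomputable def FF_t6 (y1 y2 y3 v1 v2 v3 : ℝ) : ℝ := tauC y1 y2 y3 v1 v2 v3 ^ 6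

/-- its average -/
noncomputable def PP_t6 (A B C E : ℝ) : ℝ :=
  (6561/2)*B^2*E^2 + (-2187/8)*B^2*C^3 + (-2187/8)*A^3*E^2 + (8019/32)*A^3*C^3

/-- integrand -/
noncomputable def FF_t7 (y1 y2 y3 v1 v2 v3 : ℝ) : ℝ := tauC y1 y2 y3 v1 v2 v3 ^ 7

/-- its average -/
noncomputable def PP_t7 (A B C E : ℝ) : ℝ :=
  (137781/32)*A^2*B*C^2*E

end Vale.Agent.Lib.P154
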