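import Vale.Agent.Lib.P154.Cert1
import Vale.Agent.Lib.P154.NegDefs

/-!
The polynomial targets of the tail lemma and of the class method for negative eigenvalue.
-/

namespace Vale.Agent.Lib.P154

/-- the error term -/
noncomputable def errF (A C : ℝ) : ℝ := A ^ 2 * C + A * C ^ 2

/-- upper bound target for the aggregated second moment -/
noncomputable def RU (A B C E : ℝ) : ℝ :=
  A + C - 3 / 2 * A * C - 9 * (B * C + A * E) + 27 * B * E + 6 * errF A C

/-- the polynomial of the inequality for the second moment -/
noncomputable def PU (A B C E : ℝ) : ℝ := (RU A B C E - 2 / 3) * E0f A B C E - Yf A B C E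

/-- the main terms of the aggregated third moment -/
noncomputable def baseV (A B C E : ℝ) : ℝ :=
  B + E + 3 * A * C - 9 * (B * C + A * E) + 9 / 2 * B * E

/-- the polynomial lower bound for the average of `wt I2` -/
noncomputable def LUf (A B C E : ℝ) : ℝ :=
  PP_Nq0 A B C E - PP_Nq1 A B C E + PP_Nq2 A B C E - PP_Nq3 A B C E

/-- the polynomial lower bound for the average of `wt I3` -/
noncomputable def LVf (A B C E : ℝ) : ℝ :=
  1 / 9 * (1 - 9 / 2 * A + 9 * B) * (1 - 9 / 2 * C + 9 * E) * (1 + 27 / 2 * A * C - 162 * B * E) - 1 / 9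
    + 1 / 2 * LUf A B C E

/-- the polynomial upper bound for the average of `wt I3` -/
noncomputable def UVf (A B C E : ℝ) : ℝ :=
  LVf A B C E + 1 / 9 * (5 * PP_t4 A B C E + 9 * PP_t5 A B C E + 4 * PP_t6 A B C E)
    + 1 / 3 * (PP_t4 A B C E + PP_t5 A B C E)

/-- the polynomial upper bound for the average of `wt (I2^2)` -/
noncomputable def UWf (A B C E : ℝ) : ℝ :=
  PP_NN0 A B C E - 3 * PP_NN1 A B C E + 6 * PP_NN2 A B C E - 10 * PP_NN3 A B C E
    + 4 / 9 * (15 * PP_t4 A B C E + 39 * PP_t5 A B C E + 34 * PP_t6 A B C E + 10 * PP_t7 A B C E)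

/-- the main terms of the aggregated fourth moment -/
noncomputable def baseW (A B C E : ℝ) : ℝ :=
  A ^ 2 + C ^ 2 + 4 * A * C + 12 * (B * C + A * E) - 18 * B * E

/-- polynomial behind the lower bound for the third moment -/
noncomputable def PT2 (A B C E : ℝ) : ℝ := LVf A B C E - baseV A B C E + 7 * errF A C

/-- polynomial behind the upper bound for the third moment -/
noncomputable def PT3 (A B C E : ℝ) : ℝ := baseV A B C E + 2 * errF A C - UVf A B C E

/-- polynomial behind the upper bound for the fourth moment -/
noncomputable def PT4 (A B C E : ℝ) : ℝ := baseW A B C E + 70 * errF A C - UWf A B C E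

/-- the test function of the class for small negative eigenvalue -/
noncomputable def fN (A B : ℝ) : ℝ := B + 761 / 10000 * A - 2 / 5 * A ^ 2

/-- upper bound target for the class method -/
noncomputable def R1n (A B C : ℝ) : ℝ := A + C - 1 / 50 * A * C - 49 / 5 * fN A B * C

/-- polynomial of the first inequality of the class method -/
noncomputable def P1n (A B C E : ℝ) : ℝ := (R1n A B C - 2 / 3) * E0f A B C E - Yf A B C E

/-- polynomial of the second inequality of the class method -/
noncomputable def P2n (A B C E : ℝ) : ℝ :=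
  LVf A B C E + 761 / 10000 * LUf A B C E - 2 / 5 * UWf A B C E
    - (1 - 11 * C) * fN A B - (1 - 3 / 2 * A) * fN C E

end Vale.Agent.Lib.P154
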