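import Vale.Agent.Lib.P154.NegTail
import Vale.Agent.Lib.P154.Rec

/-!
The recursion of the moments under the Bayesian product with a message of negative eigenvalue.
-/

namespace Vale.Agent.Lib.P154

/-- a functional supported on a subset of the simplex is a functional on the simplex -/
theorem SymExp.of_subset {E : Ex3} {K : ℝ → ℝ → ℝ → Prop} (h : SymExp E K)
    (hK : ∀ a b c, K a b c → Simp a b c) : SymExp E Simp where
  add := h.add
  smul := h.smul
  nonneg f hf := h.nonneg f (fun a b c hk => hf a b c (hK a b c hk))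
  one := h.one
  swap := h.swap
  cyc := h.cyc

/-- the Bayesian product, for messages that may vanish -/
theorem bprod_symExp0 {E E' : Ex3} (hE : SymExp E Simp) (hE' : SymExp E' Simp) :
    SymExp (bprod E E') Simp where
  add f g := by
    unfold bprod
    rw [← hE.add]
    congr 1
    funext a b c
    rw [← hE'.add]
    congr 1
    funext p q r
    exact wt_add f g a b c p q r
  smul t f := by
    unfold bprod
    rw [← hE.smul]
    congr 1
    funext a b c
    rw [← hE'.smul]
    congr 1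
    funext p q r
    exact wt_smul t f a b c p q r
  nonneg f hf := by
    refine hE.nonneg _ (fun a b c hK => hE'.nonneg _ (fun p q r hp => ?_))
    have hS : 0 ≤ a * p + b * q + c * r := by
      have h1 := mul_nonneg hK.ha hp.ha
      have h2 := mul_nonneg hK.hb hp.hb
      have h3 := mul_nonneg hK.hc hp.hc
      linarith
    rcases hS.eq_or_lt with h0 | hS
    · unfold wt
      rw [← h0]
      simp
    · unfold wt
      refine mul_nonneg (by positivity) (hf _ _ _ ?_)
      refine ⟨div_nonneg (mul_nonneg hK.ha hp.ha) hS.le, div_nonneg (mul_nonneg hK.hb hp.hb) hS.le,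
        div_nonneg (mul_nonneg hK.hc hp.hc) hS.le, ?_⟩
      field_simp
  one := by
    unfold bprod
    refine Eq.trans (hE.congr_on (g := fun _ _ _ => 1) (fun a b c hK => ?_)) hE.one
    obtain ⟨m1, m2, m3⟩ := hE'.means (fun _ _ _ h => h.hs)
    have e1 : (fun p q r => wt (fun _ _ _ => 1) a b c p q r)
        = fun p q r => ((3 * a) * p + (3 * b) * q) + (3 * c) * r := by
      funext p q r
      rw [wt_one]
    rw [e1, hE'.add (fun p q _ => (3 * a) * p + (3 * b) * q) (fun _ _ r => (3 * c) * r),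
      hE'.add (fun p _ _ => (3 * a) * p) (fun _ q _ => (3 * b) * q),
      hE'.smul (3 * a) (fun p _ _ => p), hE'.smul (3 * b) (fun _ q _ => q),
      hE'.smul (3 * c) (fun _ _ r => r), m1, m2, m3]
    have := hK.hs
    linarith
  swap f := by
    unfold bprod
    have := hE.swap (fun a b c => E' (fun p q r => wt f a b c p q r))
    rw [← this]
    congr 1
    funext a b c
    rw [← hE'.swap (fun p q r => wt f b a c p q r)]
    congr 1
    funext p q r
    exact wt_swap f a b c p q r
  cyc f := by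
    unfold bprod
    have := hE.cyc (fun a b c => E' (fun p q r => wt f a b c p q r))
    rw [← this]
    congr 1
    funext a b c
    rw [← hE'.cyc (fun p q r => wt f b c a p q r)]
    congr 1
    funext p q r
    exact wt_cyc f a b c p q r

theorem MsgN.simp {p q r : ℝ} (h : MsgN p q r) : Simp p q r :=
  ⟨h.ha, h.hb, h.hc, h.hs⟩

/-- the channel of negative eigenvalue -/
theorem chan_symExp_neg {E : Ex3} (hE : SymExp E Simp) {lam : ℝ} (h0 : -(1 / 2) ≤ lam) (h1 : lam ≤ 0) :
    SymExp (chan lam E) MsgN where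
  add f g := hE.add _ _
  smul t f := hE.smul _ _
  nonneg f hf := by
    refine hE.nonneg _ (fun a b c hK => hf _ _ _ ?_)
    have hle : ∀ x y z : ℝ, 0 ≤ x → 0 ≤ y → 0 ≤ z → x + y + z = 1 →
        0 ≤ chanPt lam x ∧ chanPt lam x ≤ 1 / 2 := by
      intro x y z hx hy hz hs
      have hx1 : x ≤ 1 := by linarith
      unfold chanPt
      constructor
      · nlinarith [mul_nonneg (neg_nonneg.2 h1) (sub_nonneg.2 hx1)]
      · nlinarith [mul_nonneg (neg_nonneg.2 h1) hx]
    have ha := hle a b c hK.ha hK.hb hK.hc hK.hs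
    have hb := hle b a c hK.hb hK.ha hK.hc (by linarith [hK.hs])
    have hc := hle c a b hK.hc hK.ha hK.hb (by linarith [hK.hs])
    refine ⟨ha.1, hb.1, hc.1, ha.2, hb.2, hc.2, ?_⟩
    unfold chanPt
    have := hK.hs
    linear_combination lam * this
  one := hE.one
  swap f := hE.swap (fun a b c => f (chanPt lam a) (chanPt lam b) (chanPt lam c))
  cyc f := hE.cyc (fun a b c => f (chanPt lam a) (chanPt lam b) (chanPt lam c))

/-- integrate an upper bound of the average over the permutations of the message -/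
theorem inner_le {E' : Ex3} (hE' : SymExp E' MsgN) (f : Fn3) {a b c k0 k1 k2 k3 : ℝ}
    (hpt : ∀ p q r, MsgN p q r →
      av6 f a b c p q r ≤ k0 + k1 * I2 p q r + k2 * I3 p q r + k3 * I2sq p q r) :
    E' (fun p q r => wt f a b c p q r) ≤ k0 + k1 * E' I2 + k2 * E' I3 + k3 * E' I2sq := by
  rw [← hE'.sym6 (fun p q r => wt f a b c p q r), ← hE'.lin4 k0 k1 k2 k3 I2 I3 I2sq]
  exact hE'.mono (fun p q r h => hpt p q r h)

/-- integrate a lower bound of the average over the permutations of the message -/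
theorem inner_ge {E' : Ex3} (hE' : SymExp E' MsgN) (f : Fn3) {a b c k0 k1 k2 k3 : ℝ}
    (hpt : ∀ p q r, MsgN p q r →
      k0 + k1 * I2 p q r + k2 * I3 p q r + k3 * I2sq p q r ≤ av6 f a b c p q r) :
    k0 + k1 * E' I2 + k2 * E' I3 + k3 * E' I2sq ≤ E' (fun p q r => wt f a b c p q r) := by
  rw [← hE'.sym6 (fun p q r => wt f a b c p q r), ← hE'.lin4 k0 k1 k2 k3 I2 I3 I2sq]
  exact hE'.mono (fun p q r h => hpt p q r h)

theorem outer_le {E : Ex3} (hE : SymExp E Simp) {F : Fn3} {c0 c1 c2 c3 : ℝ}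
    (h : ∀ a b c, Simp a b c → F a b c ≤ c0 + c1 * I2 a b c + c2 * I3 a b c + c3 * I2sq a b c) :
    E F ≤ c0 + c1 * E I2 + c2 * E I3 + c3 * E I2sq := by
  rw [← hE.lin4 c0 c1 c2 c3 I2 I3 I2sq]
  exact hE.mono h

theorem outer_ge {E : Ex3} (hE : SymExp E Simp) {F : Fn3} {c0 c1 c2 c3 : ℝ}
    (h : ∀ a b c, Simp a b c → c0 + c1 * I2 a b c + c2 * I3 a b c + c3 * I2sq a b c ≤ F a b c) :
    c0 + c1 * E I2 + c2 * E I3 + c3 * E I2sq ≤ E F := by
  rw [← hE.lin4 c0 c1 c2 c3 I2 I3 I2sq]
  exact hE.mono h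

theorem bprod_R1 {E E' : Ex3} (hE : SymExp E Simp) (hE' : SymExp E' MsgN) :
    bprod E E' I2 ≤ E I2 + E' I2 - 3 / 2 * (E I2 * E' I2) - 9 * (E I3 * E' I2 + E I2 * E' I3)
      + 27 * (E I3 * E' I3) + 6 * (E I2sq * E' I2 + E I2 * E' I2sq) := by
  have hinner : ∀ a b c, Simp a b c →
      E' (fun p q r => wt I2 a b c p q r) ≤
        (E' I2) + (1 - 3 / 2 * E' I2 - 9 * E' I3 + 6 * E' I2sq) * I2 a b c
          + (-9 * E' I2 + 27 * E' I3) * I3 a b c + (6 * E' I2) * I2sq a b c := by
    intro a b c hK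
    have h1 := inner_le hE' I2 (a := a) (b := b) (c := c)
      (k0 := I2 a b c) (k1 := 1 - 3 / 2 * I2 a b c - 9 * I3 a b c + 6 * (I2 a b c) ^ 2)
      (k2 := -9 * I2 a b c + 27 * I3 a b c) (k3 := 6 * I2 a b c)
      (fun p q r hK' => by
        refine le_trans (tail_T1 hK hK') (le_of_eq ?_)
        unfold RU errF I2sq
        ring)
    refine le_trans h1 (le_of_eq ?_)
    unfold I2sq
    ring
  refine le_trans (outer_le hE hinner) (le_of_eq ?_)
  ring

theorem bprod_R2 {E E' : Ex3} (hE : SymExp E Simp) (hE' : SymExp E' MsgN) :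
    E I3 + E' I3 + 3 * (E I2 * E' I2) - 9 * (E I3 * E' I2 + E I2 * E' I3) + 9 / 2 * (E I3 * E' I3)
      - 7 * (E I2sq * E' I2 + E I2 * E' I2sq) ≤ bprod E E' I3 := by
  have hinner : ∀ a b c, Simp a b c →
        (E' I3) + (3 * E' I2 - 9 * E' I3 - 7 * E' I2sq) * I2 a b c
          + (1 - 9 * E' I2 + 9 / 2 * E' I3) * I3 a b c + (-7 * E' I2) * I2sq a b c
        ≤ E' (fun p q r => wt I3 a b c p q r) := by
    intro a b c hK
    have h1 := inner_ge hE' I3 (a := a) (b := b) (c := c)
      (k0 := I3 a b c) (k1 := 3 * I2 a b c - 9 * I3 a b c - 7 * (I2 a b c) ^ 2)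
      (k2 := 1 - 9 * I2 a b c + 9 / 2 * I3 a b c) (k3 := -7 * I2 a b c)
      (fun p q r hK' => by
        refine le_trans (le_of_eq ?_) (tail_T2 hK hK')
        unfold baseV errF I2sq
        ring)
    refine le_trans (le_of_eq ?_) h1
    unfold I2sq
    ring
  refine le_trans (le_of_eq ?_) (outer_ge hE hinner)
  ring

theorem bprod_R3 {E E' : Ex3} (hE : SymExp E Simp) (hE' : SymExp E' MsgN) :
    bprod E E' I3 ≤ E I3 + E' I3 + 3 * (E I2 * E' I2) - 9 * (E I3 * E' I2 + E I2 * E' I3)
      + 9 / 2 * (E I3 * E' I3) + 2 * (E I2sq * E' I2 + E I2 * E' I2sq) := by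
  have hinner : ∀ a b c, Simp a b c →
      E' (fun p q r => wt I3 a b c p q r) ≤
        (E' I3) + (3 * E' I2 - 9 * E' I3 + 2 * E' I2sq) * I2 a b c
          + (1 - 9 * E' I2 + 9 / 2 * E' I3) * I3 a b c + (2 * E' I2) * I2sq a b c := by
    intro a b c hK
    have h1 := inner_le hE' I3 (a := a) (b := b) (c := c)
      (k0 := I3 a b c) (k1 := 3 * I2 a b c - 9 * I3 a b c + 2 * (I2 a b c) ^ 2)
      (k2 := 1 - 9 * I2 a b c + 9 / 2 * I3 a b c) (k3 := 2 * I2 a b c)
      (fun p q r hK' => by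
        refine le_trans (tail_T3 hK hK') (le_of_eq ?_)
        unfold baseV errF I2sq
        ring)
    refine le_trans h1 (le_of_eq ?_)
    unfold I2sq
    ring
  refine le_trans (outer_le hE hinner) (le_of_eq ?_)
  ring

theorem bprod_R4 {E E' : Ex3} (hE : SymExp E Simp) (hE' : SymExp E' MsgN) :
    bprod E E' I2sq ≤ E I2sq + E' I2sq + 4 * (E I2 * E' I2) + 12 * (E I3 * E' I2 + E I2 * E' I3)
      - 18 * (E I3 * E' I3) + 70 * (E I2sq * E' I2 + E I2 * E' I2sq) := by
  have hinner : ∀ a b c, Simp a b c →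
      E' (fun p q r => wt I2sq a b c p q r) ≤
        (E' I2sq) + (4 * E' I2 + 12 * E' I3 + 70 * E' I2sq) * I2 a b c
          + (12 * E' I2 - 18 * E' I3) * I3 a b c + (1 + 70 * E' I2) * I2sq a b c := by
    intro a b c hK
    have h1 := inner_le hE' I2sq (a := a) (b := b) (c := c)
      (k0 := (I2 a b c) ^ 2)
      (k1 := 4 * I2 a b c + 12 * I3 a b c + 70 * (I2 a b c) ^ 2)
      (k2 := 12 * I2 a b c - 18 * I3 a b c) (k3 := 1 + 70 * I2 a b c)
      (fun p q r hK' => by
        refine le_trans (tail_T4 hK hK') (le_of_eq ?_)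
        unfold baseW errF I2sq
        ring)
    refine le_trans h1 (le_of_eq ?_)
    unfold I2sq
    ring
  refine le_trans (outer_le hE hinner) (le_of_eq ?_)
  ring

theorem I2sq_chan {E : Ex3} (hE : SymExp E Simp) (lam : ℝ) : chan lam E I2sq = lam ^ 4 * E I2sq := by
  unfold chan
  rw [← hE.smul]
  congr 1
  funext a b c
  unfold I2sq
  rw [I2_chan]
  ring

theorem I3_chan_E {E : Ex3} (hE : SymExp E Simp) (lam : ℝ) : chan lam E I3 = lam ^ 3 * E I3 := by
  unfold chan
  rw [← hE.smul]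
  congr 1
  funext a b c
  exact I3_chan lam a b c

end Vale.Agent.Lib.P154
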