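import Vale.Agent.Lib.P154.K2
import Vale.Agent.Lib.P154.NegPolys
import Vale.Agent.Lib.P154.NegAvgNN0
import Vale.Agent.Lib.P154.NegAvgNN1
import Vale.Agent.Lib.P154.NegAvgNN2
import Vale.Agent.Lib.P154.NegAvgNN3
import Vale.Agent.Lib.P154.NegAvgt4
import Vale.Agent.Lib.P154.NegAvgt5
import Vale.Agent.Lib.P154.NegAvgt6
import Vale.Agent.Lib.P154.NegAvgt7
import Vale.Agent.Lib.P154.NegCertT1
import Vale.Agent.Lib.P154.NegCertT2
import Vale.Agent.Lib.P154.NegCertT3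
import Vale.Agent.Lib.P154.NegCertT4

/-!
Pointwise bounds for the Bayesian product with a message of negative eigenvalue.
-/

namespace Vale.Agent.Lib.P154

/-- messages of a channel with eigenvalue in `[-1/2, 0]` -/
structure MsgN (p q r : ℝ) : Prop where
  ha : 0 ≤ p
  hb : 0 ≤ q
  hc : 0 ≤ r
  ha' : p ≤ 1 / 2
  hb' : q ≤ 1 / 2
  hc' : r ≤ 1 / 2
  hs : p + q + r = 1

/-- the average over the six permutations of the message -/
noncomputable def av6 (f : Fn3) (a b c p q r : ℝ) : ℝ :=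
  (1 / 6) * (wt f a b c p q r + wt f a b c q r p + wt f a b c r p q
    + wt f a b c q p r + wt f a b c p r q + wt f a b c r q p)

/-- the squared second moment as a test function -/
noncomputable def I2sq (a b c : ℝ) : ℝ := (I2 a b c) ^ 2

/-! ### Pointwise bounds for one permutation, in terms of the pointwise product `N`. -/

section Pointwise

variable {K D Nq w t : ℝ}

theorem w1_expand (hw : (1 + t) * w = 1) :
    w = (1 - t + t ^ 2 - t ^ 3) + w * t ^ 4 := by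
  linear_combination (1 - t + t ^ 2 - t ^ 3) * hw

theorem w2_expand (hw : (1 + t) * w = 1) :
    w ^ 2 = (1 - 2 * t + 3 * t ^ 2 - 4 * t ^ 3) + w ^ 2 * (t ^ 4 * (5 + 4 * t)) := by
  have hw2 : (1 + t) ^ 2 * w ^ 2 = 1 := by
    have : (1 + t) ^ 2 * w ^ 2 = ((1 + t) * w) ^ 2 := by ring
    rw [this, hw]; norm_num
  linear_combination (1 - 2 * t + 3 * t ^ 2 - 4 * t ^ 3) * hw2

theorem w3_expand (hw : (1 + t) * w = 1) :
    w ^ 3 = (1 - 3 * t + 6 * t ^ 2 - 10 * t ^ 3) + w ^ 3 * (t ^ 4 * (15 + 24 * t + 10 * t ^ 2)) := by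
  have hw3 : (1 + t) ^ 3 * w ^ 3 = 1 := by
    have : (1 + t) ^ 3 * w ^ 3 = ((1 + t) * w) ^ 3 := by ring
    rw [this, hw]; norm_num
  linear_combination (1 - 3 * t + 6 * t ^ 2 - 10 * t ^ 3) * hw3

end Pointwise

/-- the scalar inequalities behind the pointwise bounds -/
theorem bounds_abs {D w t K Nq : ℝ} (hw : D * w = 1) (hDt : D = 1 + t) (hD : 0 < D)
    (hNq0 : 0 ≤ Nq) (hNq1 : Nq ≤ 2 / 3 * D ^ 2) (hK0 : 0 ≤ K) (hK1 : K ≤ D ^ 3 / 9) :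
    Nq * (1 - t + t ^ 2 - t ^ 3) ≤ Nq * w ∧
    K * (1 - 2 * t + 3 * t ^ 2 - 4 * t ^ 3) + 1 / 2 * (Nq * (1 - t + t ^ 2 - t ^ 3)) - D / 9
      ≤ K * w ^ 2 - D / 9 + 1 / 2 * (Nq * w) ∧
    K * w ^ 2 - D / 9 + 1 / 2 * (Nq * w) ≤
      K * (1 - 2 * t + 3 * t ^ 2 - 4 * t ^ 3) + 1 / 2 * (Nq * (1 - t + t ^ 2 - t ^ 3)) - D / 9
        + D * (t ^ 4 * (5 + 4 * t)) / 9 + 1 / 3 * (D * t ^ 4) ∧
    Nq ^ 2 * w ^ 3 ≤
      Nq ^ 2 * (1 - 3 * t + 6 * t ^ 2 - 10 * t ^ 3)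
        + 4 / 9 * (D * (t ^ 4 * (15 + 24 * t + 10 * t ^ 2))) := by
  have hwpos : 0 < w := by
    by_contra hneg
    have : D * w ≤ 0 := mul_nonpos_of_nonneg_of_nonpos hD.le (not_lt.1 hneg)
    linarith
  have hwt : (1 + t) * w = 1 := by rw [← hDt]; exact hw
  have ht1 : -1 < t := by
    have : 0 < 1 + t := by rw [← hDt]; exact hD
    linarith
  have hD2 : D ^ 2 * w ^ 2 = 1 := by
    have : D ^ 2 * w ^ 2 = (D * w) ^ 2 := by ring
    rw [this, hw]; norm_num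
  have ex1 := w1_expand hwt
  have ex2 := w2_expand hwt
  have ex3 := w3_expand hwt
  have ht4 : 0 ≤ t ^ 4 := by positivity
  have h54 : 0 ≤ 5 + 4 * t := by linarith
  have h15 : 0 ≤ 15 + 24 * t + 10 * t ^ 2 := by nlinarith [sq_nonneg (t + 6 / 5)]
  have hw0 : 0 ≤ w := hwpos.le
  have r1 : Nq * w ≤ 2 / 3 * D := by
    have h1 : Nq * w ≤ (2 / 3 * D ^ 2) * w := mul_le_mul_of_nonneg_right hNq1 hw0
    have e : (2 / 3 * D ^ 2) * w = 2 / 3 * D := by linear_combination (2 / 3 * D) * hw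
    rw [e] at h1
    exact h1
  have r2 : K * w ^ 2 ≤ D / 9 := by
    have h1 : K * w ^ 2 ≤ (D ^ 3 / 9) * w ^ 2 := mul_le_mul_of_nonneg_right hK1 (by positivity)
    have e : (D ^ 3 / 9) * w ^ 2 = D / 9 := by linear_combination (D / 9) * hD2
    rw [e] at h1
    exact h1
  have r3 : Nq ^ 2 * w ^ 3 ≤ 4 / 9 * D := by
    have hq2 : Nq ^ 2 ≤ (2 / 3 * D ^ 2) ^ 2 := pow_le_pow_left₀ hNq0 hNq1 2
    have h1 : Nq ^ 2 * w ^ 3 ≤ (2 / 3 * D ^ 2) ^ 2 * w ^ 3 :=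
      mul_le_mul_of_nonneg_right hq2 (by positivity)
    have e : (2 / 3 * D ^ 2) ^ 2 * w ^ 3 = 4 / 9 * D := by
      have h3 : D ^ 3 * w ^ 3 = 1 := by
        have : D ^ 3 * w ^ 3 = (D * w) ^ 3 := by ring
        rw [this, hw]; norm_num
      linear_combination (4 / 9 * D) * h3
    rw [e] at h1
    exact h1
  have p1 : Nq * (1 - t + t ^ 2 - t ^ 3) ≤ Nq * w := by
    refine mul_le_mul_of_nonneg_left ?_ hNq0
    have : 0 ≤ w * t ^ 4 := by positivity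
    linarith
  have p2 : K * (1 - 2 * t + 3 * t ^ 2 - 4 * t ^ 3) ≤ K * w ^ 2 := by
    refine mul_le_mul_of_nonneg_left ?_ hK0
    have : 0 ≤ w ^ 2 * (t ^ 4 * (5 + 4 * t)) := by positivity
    linarith
  refine ⟨p1, by linarith, ?_, ?_⟩
  · have u1 : K * w ^ 2 ≤ K * (1 - 2 * t + 3 * t ^ 2 - 4 * t ^ 3) + D * (t ^ 4 * (5 + 4 * t)) / 9 := by
      have e : K * w ^ 2 = K * (1 - 2 * t + 3 * t ^ 2 - 4 * t ^ 3)
          + (K * w ^ 2) * (t ^ 4 * (5 + 4 * t)) := by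
        nth_rewrite 1 [ex2]
        ring
      have h1 : (K * w ^ 2) * (t ^ 4 * (5 + 4 * t)) ≤ (D / 9) * (t ^ 4 * (5 + 4 * t)) :=
        mul_le_mul_of_nonneg_right r2 (by positivity)
      have e2 : (D / 9) * (t ^ 4 * (5 + 4 * t)) = D * (t ^ 4 * (5 + 4 * t)) / 9 := by ring
      linarith
    have u2 : Nq * w ≤ Nq * (1 - t + t ^ 2 - t ^ 3) + 2 / 3 * (D * t ^ 4) := by
      have e : Nq * w = Nq * (1 - t + t ^ 2 - t ^ 3) + (Nq * w) * t ^ 4 := by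
        nth_rewrite 1 [ex1]
        ring
      have h1 : (Nq * w) * t ^ 4 ≤ (2 / 3 * D) * t ^ 4 := mul_le_mul_of_nonneg_right r1 ht4
      have e2 : (2 / 3 * D) * t ^ 4 = 2 / 3 * (D * t ^ 4) := by ring
      linarith
    linarith
  · have e : Nq ^ 2 * w ^ 3 = Nq ^ 2 * (1 - 3 * t + 6 * t ^ 2 - 10 * t ^ 3)
        + (Nq ^ 2 * w ^ 3) * (t ^ 4 * (15 + 24 * t + 10 * t ^ 2)) := by
      nth_rewrite 1 [ex3]
      ring
    have h1 : (Nq ^ 2 * w ^ 3) * (t ^ 4 * (15 + 24 * t + 10 * t ^ 2))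
        ≤ (4 / 9 * D) * (t ^ 4 * (15 + 24 * t + 10 * t ^ 2)) :=
      mul_le_mul_of_nonneg_right r3 (by positivity)
    have e2 : (4 / 9 * D) * (t ^ 4 * (15 + 24 * t + 10 * t ^ 2))
        = 4 / 9 * (D * (t ^ 4 * (15 + 24 * t + 10 * t ^ 2))) := by ring
    linarith

/-- the identities for the posterior, with `w = 1 / D` -/
theorem post_eqs {N1 N2 N3 D w K Nq : ℝ} (hDe : D = N1 + N2 + N3) (hw : D * w = 1)
    (hKe : K = 3 * N1 * N2 * N3) (hNqe : Nq = N1 ^ 2 + N2 ^ 2 + N3 ^ 2 - D ^ 2 / 3) :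
    D * I2 (N1 * w) (N2 * w) (N3 * w) = Nq * w ∧
    D * I3 (N1 * w) (N2 * w) (N3 * w) = K * w ^ 2 - D / 9 + 1 / 2 * (Nq * w) ∧
    D * I2sq (N1 * w) (N2 * w) (N3 * w) = Nq ^ 2 * w ^ 3 := by
  have hsum : N1 * w + N2 * w + N3 * w = 1 := by
    have : N1 * w + N2 * w + N3 * w = D * w := by rw [hDe]; ring
    rw [this, hw]
  have hD2 : D ^ 2 * w ^ 2 = 1 := by
    have : D ^ 2 * w ^ 2 = (D * w) ^ 2 := by ring
    rw [this, hw]; norm_num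
  have hI : I2 (N1 * w) (N2 * w) (N3 * w) = Nq * w ^ 2 := by
    have e : I2 (N1 * w) (N2 * w) (N3 * w)
        = (N1 ^ 2 + N2 ^ 2 + N3 ^ 2) * w ^ 2 - 2 / 3 * (N1 * w + N2 * w + N3 * w) + 1 / 3 := by
      unfold I2; ring
    rw [e, hsum, hNqe]
    linear_combination (1 / 3) * hD2
  have hD3 : D * w ^ 2 = w := by linear_combination w * hw
  have hD4 : D * w ^ 4 = w ^ 3 := by linear_combination w ^ 3 * hw
  refine ⟨?_, ?_, ?_⟩
  · rw [hI]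
    calc D * (Nq * w ^ 2) = Nq * (D * w ^ 2) := by ring
      _ = Nq * w := by rw [hD3]
  · rw [I3_simplex hsum, hI]
    have e1 : D * (3 * (N1 * w * (N2 * w) * (N3 * w))) = K * w ^ 2 := by
      rw [hKe]
      linear_combination (3 * N1 * N2 * N3 * w ^ 2) * hw
    calc D * (3 * (N1 * w * (N2 * w) * (N3 * w)) - 1 / 9 + 1 / 2 * (Nq * w ^ 2))
        = D * (3 * (N1 * w * (N2 * w) * (N3 * w))) - D / 9 + 1 / 2 * (Nq * (D * w ^ 2)) := by ring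
      _ = K * w ^ 2 - D / 9 + 1 / 2 * (Nq * w) := by rw [e1, hD3]
  · unfold I2sq
    rw [hI]
    calc D * (Nq * w ^ 2) ^ 2 = Nq ^ 2 * (D * w ^ 4) := by ring
      _ = Nq ^ 2 * w ^ 3 := by rw [hD4]

/-- the pieces for the product `N`, when the total is positive -/
theorem wN_bounds {N1 N2 N3 D t K Nq : ℝ} (h1 : 0 ≤ N1) (h2 : 0 ≤ N2) (h3 : 0 ≤ N3)
    (hDe : D = N1 + N2 + N3) (hte : t = D - 1) (hKe : K = 3 * N1 * N2 * N3)
    (hNqe : Nq = N1 ^ 2 + N2 ^ 2 + N3 ^ 2 - D ^ 2 / 3) (hD : 0 < D) :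
    Nq * (1 - t + t ^ 2 - t ^ 3) ≤ D * I2 (N1 / D) (N2 / D) (N3 / D) ∧
    K * (1 - 2 * t + 3 * t ^ 2 - 4 * t ^ 3) + 1 / 2 * (Nq * (1 - t + t ^ 2 - t ^ 3)) - D / 9
      ≤ D * I3 (N1 / D) (N2 / D) (N3 / D) ∧
    D * I3 (N1 / D) (N2 / D) (N3 / D) ≤
      K * (1 - 2 * t + 3 * t ^ 2 - 4 * t ^ 3) + 1 / 2 * (Nq * (1 - t + t ^ 2 - t ^ 3)) - D / 9
        + D * (t ^ 4 * (5 + 4 * t)) / 9 + 1 / 3 * (D * t ^ 4) ∧
    D * I2sq (N1 / D) (N2 / D) (N3 / D) ≤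
      Nq ^ 2 * (1 - 3 * t + 6 * t ^ 2 - 10 * t ^ 3)
        + 4 / 9 * (D * (t ^ 4 * (15 + 24 * t + 10 * t ^ 2))) := by
  have hne : D ≠ 0 := hD.ne'
  obtain ⟨w, hw⟩ : ∃ w, D * w = 1 := ⟨1 / D, by field_simp⟩
  have hw' : 1 / D = w := by
    field_simp
    linarith
  have z1 : N1 / D = N1 * w := by rw [div_eq_mul_one_div, hw']
  have z2 : N2 / D = N2 * w := by rw [div_eq_mul_one_div, hw']
  have z3 : N3 / D = N3 * w := by rw [div_eq_mul_one_div, hw']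
  rw [z1, z2, z3]
  have hDt : D = 1 + t := by rw [hte]; ring
  have hNq0 : 0 ≤ Nq := by
    have e : Nq = ((N1 - N2) ^ 2 + (N2 - N3) ^ 2 + (N3 - N1) ^ 2) / 3 := by
      rw [hNqe, hDe]; ring
    rw [e]; positivity
  have hNq1 : Nq ≤ 2 / 3 * D ^ 2 := by
    have e : 2 / 3 * D ^ 2 - Nq = 2 * (N1 * N2 + N2 * N3 + N3 * N1) := by
      rw [hNqe, hDe]; ring
    have : 0 ≤ 2 * (N1 * N2 + N2 * N3 + N3 * N1) := by positivity
    linarith
  have hK0 : 0 ≤ K := by rw [hKe]; positivity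
  have hK1 : K ≤ D ^ 3 / 9 := by
    have key : (N1 + N2 + N3) ^ 3 - 27 * (N1 * N2 * N3) =
        (N1 + N2 + N3) * ((N1 - N2) ^ 2 + (N2 - N3) ^ 2 + (N3 - N1) ^ 2) / 2
          + 3 * (N1 * (N2 - N3) ^ 2 + N2 * (N3 - N1) ^ 2 + N3 * (N1 - N2) ^ 2) := by ring
    have h5 : 0 ≤ (N1 + N2 + N3) ^ 3 - 27 * (N1 * N2 * N3) := by rw [key]; positivity
    rw [hKe, hDe]
    linarith
  obtain ⟨e1, e2, e3⟩ := post_eqs (N1 := N1) (N2 := N2) (N3 := N3) hDe hw hKe hNqe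
  obtain ⟨b1, b2, b3, b4⟩ := bounds_abs hw hDt hD hNq0 hNq1 hK0 hK1
  rw [e1, e2, e3]
  exact ⟨b1, b2, b3, b4⟩

/-- the pieces for `wt`, all cases -/
theorem wt_bounds {a b c p q r D t K Nq : ℝ} (ha : 0 ≤ a) (hb : 0 ≤ b) (hc : 0 ≤ c)
    (hp : 0 ≤ p) (hq : 0 ≤ q) (hr : 0 ≤ r)
    (hDe : D = 3 * a * p + 3 * b * q + 3 * c * r) (hte : t = D - 1)
    (hKe : K = 3 * (3 * a * p) * (3 * b * q) * (3 * c * r))
    (hNqe : Nq = (3 * a * p) ^ 2 + (3 * b * q) ^ 2 + (3 * c * r) ^ 2 - D ^ 2 / 3) :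
    Nq * (1 - t + t ^ 2 - t ^ 3) ≤ wt I2 a b c p q r ∧
    K * (1 - 2 * t + 3 * t ^ 2 - 4 * t ^ 3) + 1 / 2 * (Nq * (1 - t + t ^ 2 - t ^ 3)) - D / 9
      ≤ wt I3 a b c p q r ∧
    wt I3 a b c p q r ≤
      K * (1 - 2 * t + 3 * t ^ 2 - 4 * t ^ 3) + 1 / 2 * (Nq * (1 - t + t ^ 2 - t ^ 3)) - D / 9
        + D * (t ^ 4 * (5 + 4 * t)) / 9 + 1 / 3 * (D * t ^ 4) ∧
    wt I2sq a b c p q r ≤
      Nq ^ 2 * (1 - 3 * t + 6 * t ^ 2 - 10 * t ^ 3)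
        + 4 / 9 * (D * (t ^ 4 * (15 + 24 * t + 10 * t ^ 2))) := by
  have h1 : 0 ≤ 3 * a * p := by positivity
  have h2 : 0 ≤ 3 * b * q := by positivity
  have h3 : 0 ≤ 3 * c * r := by positivity
  have hDS : D = 3 * (a * p + b * q + c * r) := by rw [hDe]; ring
  by_cases hD0 : D = 0
  · have z1 : 3 * a * p = 0 := by rw [hDe] at hD0; linarith
    have z2 : 3 * b * q = 0 := by rw [hDe] at hD0; linarith
    have z3 : 3 * c * r = 0 := by rw [hDe] at hD0; linarith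
    have hS : a * p + b * q + c * r = 0 := by linarith
    have hK : K = 0 := by rw [hKe, z1]; ring
    have hNq : Nq = 0 := by rw [hNqe, hD0, z1, z2, z3]; norm_num
    have wz : ∀ f : Fn3, wt f a b c p q r = 0 := by
      intro f
      unfold wt
      rw [hS]
      ring
    rw [wz, wz, wz, hK, hNq, hD0]
    norm_num
  · have hDpos : 0 < D := lt_of_le_of_ne (by rw [hDe]; positivity) (Ne.symm hD0)
    have hS : a * p + b * q + c * r ≠ 0 := by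
      intro h
      rw [hDS, h] at hD0
      simp at hD0
    have key := wN_bounds h1 h2 h3 hDe hte hKe hNqe hDpos
    have z : ∀ f : Fn3, wt f a b c p q r =
        D * f (3 * a * p / D) (3 * b * q / D) (3 * c * r / D) := by
      intro f
      unfold wt
      rw [hDS]
      have z1 : 3 * a * p / (3 * (a * p + b * q + c * r)) = a * p / (a * p + b * q + c * r) := by
        field_simp
      have z2 : 3 * b * q / (3 * (a * p + b * q + c * r)) = b * q / (a * p + b * q + c * r) := by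
        field_simp
      have z3 : 3 * c * r / (3 * (a * p + b * q + c * r)) = c * r / (a * p + b * q + c * r) := by
        field_simp
      rw [z1, z2, z3]
    rw [z, z, z]
    exact key

/-! ### Averaging over the six permutations -/

/-- centred form of the four pieces -/
theorem wt_centred {y1 y2 y3 v1 v2 v3 K : ℝ} (hy : y1 + y2 + y3 = 0) (hv : v1 + v2 + v3 = 0)
    (ha : 0 ≤ 1 / 3 + y1) (hb : 0 ≤ 1 / 3 + y2) (hc : 0 ≤ 1 / 3 + y3)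
    (hp : 0 ≤ 1 / 3 + v1) (hq : 0 ≤ 1 / 3 + v2) (hr : 0 ≤ 1 / 3 + v3)
    (hK : K = 3 * ((1 / 3 + y1) * (1 / 3 + y2) * (1 / 3 + y3))
      * ((1 + 3 * v1) * (1 + 3 * v2) * (1 + 3 * v3))) :
    FF_Nq0 y1 y2 y3 v1 v2 v3 - FF_Nq1 y1 y2 y3 v1 v2 v3
        + FF_Nq2 y1 y2 y3 v1 v2 v3 - FF_Nq3 y1 y2 y3 v1 v2 v3
      ≤ wt I2 (1 / 3 + y1) (1 / 3 + y2) (1 / 3 + y3) (1 / 3 + v1) (1 / 3 + v2) (1 / 3 + v3) ∧
    K * (1 - 2 * tauC y1 y2 y3 v1 v2 v3 + 3 * tauC y1 y2 y3 v1 v2 v3 ^ 2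
            - 4 * tauC y1 y2 y3 v1 v2 v3 ^ 3)
        + 1 / 2 * (FF_Nq0 y1 y2 y3 v1 v2 v3 - FF_Nq1 y1 y2 y3 v1 v2 v3
            + FF_Nq2 y1 y2 y3 v1 v2 v3 - FF_Nq3 y1 y2 y3 v1 v2 v3)
        - (1 + tauC y1 y2 y3 v1 v2 v3) / 9
      ≤ wt I3 (1 / 3 + y1) (1 / 3 + y2) (1 / 3 + y3) (1 / 3 + v1) (1 / 3 + v2) (1 / 3 + v3) ∧
    wt I3 (1 / 3 + y1) (1 / 3 + y2) (1 / 3 + y3) (1 / 3 + v1) (1 / 3 + v2) (1 / 3 + v3)
      ≤ K * (1 - 2 * tauC y1 y2 y3 v1 v2 v3 + 3 * tauC y1 y2 y3 v1 v2 v3 ^ 2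
              - 4 * tauC y1 y2 y3 v1 v2 v3 ^ 3)
        + 1 / 2 * (FF_Nq0 y1 y2 y3 v1 v2 v3 - FF_Nq1 y1 y2 y3 v1 v2 v3
            + FF_Nq2 y1 y2 y3 v1 v2 v3 - FF_Nq3 y1 y2 y3 v1 v2 v3)
        - (1 + tauC y1 y2 y3 v1 v2 v3) / 9
        + 1 / 9 * (5 * FF_t4 y1 y2 y3 v1 v2 v3 + 9 * FF_t5 y1 y2 y3 v1 v2 v3
            + 4 * FF_t6 y1 y2 y3 v1 v2 v3)
        + 1 / 3 * (FF_t4 y1 y2 y3 v1 v2 v3 + FF_t5 y1 y2 y3 v1 v2 v3) ∧
    wt I2sq (1 / 3 + y1) (1 / 3 + y2) (1 / 3 + y3) (1 / 3 + v1) (1 / 3 + v2) (1 / 3 + v3)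
      ≤ FF_NN0 y1 y2 y3 v1 v2 v3 - 3 * FF_NN1 y1 y2 y3 v1 v2 v3 + 6 * FF_NN2 y1 y2 y3 v1 v2 v3
          - 10 * FF_NN3 y1 y2 y3 v1 v2 v3
        + 4 / 9 * (15 * FF_t4 y1 y2 y3 v1 v2 v3 + 39 * FF_t5 y1 y2 y3 v1 v2 v3
            + 34 * FF_t6 y1 y2 y3 v1 v2 v3 + 10 * FF_t7 y1 y2 y3 v1 v2 v3) := by
  have hD : 3 * (1 / 3 + y1) * (1 / 3 + v1) + 3 * (1 / 3 + y2) * (1 / 3 + v2)
      + 3 * (1 / 3 + y3) * (1 / 3 + v3) = 1 + tauC y1 y2 y3 v1 v2 v3 := by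
    unfold tauC
    linear_combination (1 : ℝ) * hv + (1 : ℝ) * hy
  have n : ∀ s t : ℝ, 3 * (1 / 3 + s) * (1 / 3 + t) = (1 / 3 + s) * (1 + 3 * t) := by
    intro s t; ring
  have hNq : (3 * (1 / 3 + y1) * (1 / 3 + v1)) ^ 2 + (3 * (1 / 3 + y2) * (1 / 3 + v2)) ^ 2
      + (3 * (1 / 3 + y3) * (1 / 3 + v3)) ^ 2 - (1 + tauC y1 y2 y3 v1 v2 v3) ^ 2 / 3
      = NqC y1 y2 y3 v1 v2 v3 := by
    rw [n, n, n]
    rfl
  obtain ⟨k1, k2, k3, k4⟩ := wt_bounds (t := tauC y1 y2 y3 v1 v2 v3)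
    (K := K) (Nq := NqC y1 y2 y3 v1 v2 v3)
    ha hb hc hp hq hr hD.symm (by ring) (by rw [hK]; ring) hNq.symm
  have hU : NqC y1 y2 y3 v1 v2 v3 * (1 - tauC y1 y2 y3 v1 v2 v3 + tauC y1 y2 y3 v1 v2 v3 ^ 2
      - tauC y1 y2 y3 v1 v2 v3 ^ 3) = FF_Nq0 y1 y2 y3 v1 v2 v3 - FF_Nq1 y1 y2 y3 v1 v2 v3
        + FF_Nq2 y1 y2 y3 v1 v2 v3 - FF_Nq3 y1 y2 y3 v1 v2 v3 := by
    simp only [FF_Nq0, FF_Nq1, FF_Nq2, FF_Nq3]
    ring
  rw [hU] at k1 k2 k3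
  refine ⟨k1, k2, le_trans k3 (le_of_eq ?_), le_trans k4 (le_of_eq ?_)⟩
  · simp only [FF_t4, FF_t5, FF_t6]
    ring
  · simp only [FF_NN0, FF_NN1, FF_NN2, FF_NN3, FF_t4, FF_t5, FF_t6, FF_t7]
    ring

/-- the four averaged bounds together -/
theorem av6_all {a b c p q r : ℝ} (h : Simp a b c) (h' : Simp p q r) :
    LUf (I2 a b c) (I3 a b c) (I2 p q r) (I3 p q r) ≤ av6 I2 a b c p q r ∧
    LVf (I2 a b c) (I3 a b c) (I2 p q r) (I3 p q r) ≤ av6 I3 a b c p q r ∧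
    av6 I3 a b c p q r ≤ UVf (I2 a b c) (I3 a b c) (I2 p q r) (I3 p q r) ∧
    av6 I2sq a b c p q r ≤ UWf (I2 a b c) (I3 a b c) (I2 p q r) (I3 p q r) := by
  obtain ⟨h1, h2, h3, hs⟩ := h
  obtain ⟨h4, h5, h6, hs'⟩ := h'
  obtain ⟨y1, rfl⟩ : ∃ y1, a = 1 / 3 + y1 := ⟨a - 1 / 3, by ring⟩
  obtain ⟨y2, rfl⟩ : ∃ y2, b = 1 / 3 + y2 := ⟨b - 1 / 3, by ring⟩
  obtain rfl : c = 1 / 3 + (-y1 - y2) := by linarith
  obtain ⟨v1, rfl⟩ : ∃ v1, p = 1 / 3 + v1 := ⟨p - 1 / 3, by ring⟩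
  obtain ⟨v2, rfl⟩ : ∃ v2, q = 1 / 3 + v2 := ⟨q - 1 / 3, by ring⟩
  obtain rfl : r = 1 / 3 + (-v1 - v2) := by linarith
  have hA : I2 (1 / 3 + y1) (1 / 3 + y2) (1 / 3 + (-y1 - y2)) = Ic2 y1 y2 := by
    unfold I2 Ic2; ring
  have hB : I3 (1 / 3 + y1) (1 / 3 + y2) (1 / 3 + (-y1 - y2)) = Ic3 y1 y2 := by
    unfold I3 Ic3; ring
  have hC : I2 (1 / 3 + v1) (1 / 3 + v2) (1 / 3 + (-v1 - v2)) = Ic2 v1 v2 := by
    unfold I2 Ic2; ring
  have hE : I3 (1 / 3 + v1) (1 / 3 + v2) (1 / 3 + (-v1 - v2)) = Ic3 v1 v2 := by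
    unfold I3 Ic3; ring
  rw [hA, hB, hC, hE]
  have hy : y1 + y2 + (-y1 - y2) = 0 := by ring
  have hv1 : v1 + v2 + (-v1 - v2) = 0 := by ring
  have hv2 : v2 + (-v1 - v2) + v1 = 0 := by ring
  have hv3 : (-v1 - v2) + v1 + v2 = 0 := by ring
  have hv4 : v2 + v1 + (-v1 - v2) = 0 := by ring
  have hv5 : v1 + (-v1 - v2) + v2 = 0 := by ring
  have hv6 : (-v1 - v2) + v2 + v1 = 0 := by ring
  obtain ⟨K, hK⟩ : ∃ K, K = 3 * ((1 / 3 + y1) * (1 / 3 + y2) * (1 / 3 + (-y1 - y2)))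
        * ((1 + 3 * v1) * (1 + 3 * v2) * (1 + 3 * (-v1 - v2))) := ⟨_, rfl⟩
  obtain ⟨a1, b1, c1, d1⟩ := wt_centred hy hv1 h1 h2 h3 h4 h5 h6 hK
  obtain ⟨a2, b2, c2, d2⟩ := wt_centred hy hv2 h1 h2 h3 h5 h6 h4 (K := K) (by rw [hK]; ring)
  obtain ⟨a3, b3, c3, d3⟩ := wt_centred hy hv3 h1 h2 h3 h6 h4 h5 (K := K) (by rw [hK]; ring)
  obtain ⟨a4, b4, c4, d4⟩ := wt_centred hy hv4 h1 h2 h3 h5 h4 h6 (K := K) (by rw [hK]; ring)
  obtain ⟨a5, b5, c5, d5⟩ := wt_centred hy hv5 h1 h2 h3 h4 h6 h5 (K := K) (by rw [hK]; ring)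
  obtain ⟨a6, b6, c6, d6⟩ := wt_centred hy hv6 h1 h2 h3 h6 h5 h4 (K := K) (by rw [hK]; ring)
  have e1 := avg_Nq0 y1 y2 v1 v2
  have e2 := avg_Nq1 y1 y2 v1 v2
  have e3 := avg_Nq2 y1 y2 v1 v2
  have e4 := avg_Nq3 y1 y2 v1 v2
  have e5 := avg_P2 y1 y2 v1 v2
  have e6 := avg_tau y1 y2 v1 v2
  have e7 := KK_eq y1 y2 v1 v2
  have e8 := avg_t4 y1 y2 v1 v2
  have e9 := avg_t5 y1 y2 v1 v2
  have e10 := avg_t6 y1 y2 v1 v2
  have e11 := avg_t7 y1 y2 v1 v2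
  have e12 := avg_NN0 y1 y2 v1 v2
  have e13 := avg_NN1 y1 y2 v1 v2
  have e14 := avg_NN2 y1 y2 v1 v2
  have e15 := avg_NN3 y1 y2 v1 v2
  rw [← hK] at e7
  -- the averaged third-moment main term
  set P1 := 1 - 2 * tauC y1 y2 (-y1 - y2) v1 v2 (-v1 - v2)
    + 3 * (tauC y1 y2 (-y1 - y2) v1 v2 (-v1 - v2)) ^ 2
    - 4 * (tauC y1 y2 (-y1 - y2) v1 v2 (-v1 - v2)) ^ 3 with hP1
  set P2 := 1 - 2 * tauC y1 y2 (-y1 - y2) v2 (-v1 - v2) v1
    + 3 * (tauC y1 y2 (-y1 - y2) v2 (-v1 - v2) v1) ^ 2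
    - 4 * (tauC y1 y2 (-y1 - y2) v2 (-v1 - v2) v1) ^ 3 with hP2
  set P3 := 1 - 2 * tauC y1 y2 (-y1 - y2) (-v1 - v2) v1 v2
    + 3 * (tauC y1 y2 (-y1 - y2) (-v1 - v2) v1 v2) ^ 2
    - 4 * (tauC y1 y2 (-y1 - y2) (-v1 - v2) v1 v2) ^ 3 with hP3
  set P4 := 1 - 2 * tauC y1 y2 (-y1 - y2) v2 v1 (-v1 - v2)
    + 3 * (tauC y1 y2 (-y1 - y2) v2 v1 (-v1 - v2)) ^ 2
    - 4 * (tauC y1 y2 (-y1 - y2) v2 v1 (-v1 - v2)) ^ 3 with hP4
  set P5 := 1 - 2 * tauC y1 y2 (-y1 - y2) v1 (-v1 - v2) v2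
    + 3 * (tauC y1 y2 (-y1 - y2) v1 (-v1 - v2) v2) ^ 2
    - 4 * (tauC y1 y2 (-y1 - y2) v1 (-v1 - v2) v2) ^ 3 with hP5
  set P6 := 1 - 2 * tauC y1 y2 (-y1 - y2) (-v1 - v2) v2 v1
    + 3 * (tauC y1 y2 (-y1 - y2) (-v1 - v2) v2 v1) ^ 2
    - 4 * (tauC y1 y2 (-y1 - y2) (-v1 - v2) v2 v1) ^ 3 with hP6
  have hKP : (1 / 6) * (K * P1 + K * P2 + K * P3 + K * P4 + K * P5 + K * P6)
      = 1 / 9 * (1 - 9 / 2 * Ic2 y1 y2 + 9 * Ic3 y1 y2) * (1 - 9 / 2 * Ic2 v1 v2 + 9 * Ic3 v1 v2)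
        * (1 + 27 / 2 * Ic2 y1 y2 * Ic2 v1 v2 - 162 * Ic3 y1 y2 * Ic3 v1 v2) := by
    rw [← e7, ← e5]
    ring
  have hv1' : (1 / 3 + (-v1 - v2)) = (1 / 3 + (-v1 - v2)) := rfl
  unfold av6
  refine ⟨?_, ?_, ?_, ?_⟩
  · unfold LUf
    rw [← e1, ← e2, ← e3, ← e4]
    linarith
  · unfold LVf LUf
    rw [← hKP, ← e1, ← e2, ← e3, ← e4]
    linarith
  · unfold UVf LVf LUf
    rw [← hKP, ← e1, ← e2, ← e3, ← e4, ← e8, ← e9, ← e10]
    linarith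
  · unfold UWf
    rw [← e12, ← e13, ← e14, ← e15, ← e8, ← e9, ← e10, ← e11]
    linarith

theorem MsgN.toSimp {p q r : ℝ} (h : MsgN p q r) : Simp p q r :=
  ⟨h.ha, h.hb, h.hc, h.hs⟩

theorem av6_I2_ge {a b c p q r : ℝ} (h : Simp a b c) (h' : MsgN p q r) :
    LUf (I2 a b c) (I3 a b c) (I2 p q r) (I3 p q r) ≤ av6 I2 a b c p q r :=
  (av6_all h h'.toSimp).1

theorem av6_I3_ge {a b c p q r : ℝ} (h : Simp a b c) (h' : MsgN p q r) :
    LVf (I2 a b c) (I3 a b c) (I2 p q r) (I3 p q r) ≤ av6 I3 a b c p q r :=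
  (av6_all h h'.toSimp).2.1

theorem av6_I3_le {a b c p q r : ℝ} (h : Simp a b c) (h' : MsgN p q r) :
    av6 I3 a b c p q r ≤ UVf (I2 a b c) (I3 a b c) (I2 p q r) (I3 p q r) :=
  (av6_all h h'.toSimp).2.2.1

theorem av6_I2sq_le {a b c p q r : ℝ} (h : Simp a b c) (h' : MsgN p q r) :
    av6 I2sq a b c p q r ≤ UWf (I2 a b c) (I3 a b c) (I2 p q r) (I3 p q r) :=
  (av6_all h h'.toSimp).2.2.2

/-! ### The upper bound for the second moment -/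

section Positive

/-- `Qsq` is at most the square of the total -/
theorem Qsq_le' {a b c p q r : ℝ} (h : Simp a b c) (hp : Simp p q r) :
    Qsq a b c p q r ≤ (Dd a b c p q r) ^ 2 := by
  have e : (Dd a b c p q r) ^ 2 - Qsq a b c p q r
      = 18 * ((a * p) * (b * q) + (b * q) * (c * r) + (c * r) * (a * p)) := by
    unfold Dd Qsq; ring
  have h1 := h.ha
  have h2 := h.hb
  have h3 := h.hc
  have h4 := hp.ha
  have h5 := hp.hb
  have h6 := hp.hc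
  have : 0 ≤ 18 * ((a * p) * (b * q) + (b * q) * (c * r) + (c * r) * (a * p)) := by positivity
  linarith

/-- the sum over a cyclic triple, when the three dot products are positive -/
theorem triple_sum' {a b c p q r : ℝ} (h : Simp a b c) (hp : Simp p q r)
    (h1 : 0 < a * p + b * q + c * r) (h2 : 0 < a * q + b * r + c * p)
    (h3 : 0 < a * r + b * p + c * q) :
    wt I2 a b c p q r + wt I2 a b c q r p + wt I2 a b c r p q
      = 2 + 3 * Yf (I2 a b c) (I3 a b c) (I2 p q r) (I3 p q r) / Pi3 a b c p q r := by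
  have d1 : 0 < Dd a b c p q r := by unfold Dd; positivity
  have d2 : 0 < Dd a b c q r p := by unfold Dd; positivity
  have d3 : 0 < Dd a b c r p q := by unfold Dd; positivity
  rw [wt_I2 h1, wt_I2 h2, wt_I2 h3]
  have hS : (a * p + b * q + c * r) + (a * q + b * r + c * p) + (a * r + b * p + c * q) = 1 := by
    have hs := h.hs
    have hs' := hp.hs
    have : (a * p + b * q + c * r) + (a * q + b * r + c * p) + (a * r + b * p + c * q)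
        = (a + b + c) * (p + q + r) := by ring
    rw [this, hs, hs']
    norm_num
  have hQ := triple_identity h.hs hp.hs
  have hPi : 0 < Pi3 a b c p q r := by
    unfold Pi3
    positivity
  have e : Qsq a b c p q r / Dd a b c p q r + Qsq a b c q r p / Dd a b c q r p
      + Qsq a b c r p q / Dd a b c r p q
      = 3 + 3 * Yf (I2 a b c) (I3 a b c) (I2 p q r) (I3 p q r) / Pi3 a b c p q r := by
    have e2 : Qsq a b c p q r / Dd a b c p q r + Qsq a b c q r p / Dd a b c q r p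
        + Qsq a b c r p q / Dd a b c r p q
        = (Qsq a b c p q r * (Dd a b c q r p * Dd a b c r p q)
          + Qsq a b c q r p * (Dd a b c p q r * Dd a b c r p q)
          + Qsq a b c r p q * (Dd a b c p q r * Dd a b c q r p)) / Pi3 a b c p q r := by
      unfold Pi3
      field_simp
    rw [e2, hQ]
    field_simp
  linarith

/-- the quantity `Y` is not positive, when the three dot products are positive -/
theorem Yf_nonpos' {a b c p q r : ℝ} (h : Simp a b c) (hp : Simp p q r)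
    (h1 : 0 < a * p + b * q + c * r) (h2 : 0 < a * q + b * r + c * p)
    (h3 : 0 < a * r + b * p + c * q) :
    Yf (I2 a b c) (I3 a b c) (I2 p q r) (I3 p q r) ≤ 0 := by
  have hQ := triple_identity h.hs hp.hs
  have d1 : 0 < Dd a b c p q r := by unfold Dd; positivity
  have d2 : 0 < Dd a b c q r p := by unfold Dd; positivity
  have d3 : 0 < Dd a b c r p q := by unfold Dd; positivity
  have hpc : Simp q r p := ⟨hp.hb, hp.hc, hp.ha, by linarith [hp.hs]⟩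
  have hpc2 : Simp r p q := ⟨hp.hc, hp.ha, hp.hb, by linarith [hp.hs]⟩
  have q1 := Qsq_le' h hp
  have q2 := Qsq_le' h hpc
  have q3 := Qsq_le' h hpc2
  have hsum := Dd_sum h.hs hp.hs
  have t1 := mul_le_mul_of_nonneg_right q1 (mul_pos d2 d3).le
  have t2 := mul_le_mul_of_nonneg_right q2 (mul_pos d1 d3).le
  have t3 := mul_le_mul_of_nonneg_right q3 (mul_pos d1 d2).le
  have e : (Dd a b c p q r) ^ 2 * (Dd a b c q r p * Dd a b c r p q)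
      + (Dd a b c q r p) ^ 2 * (Dd a b c p q r * Dd a b c r p q)
      + (Dd a b c r p q) ^ 2 * (Dd a b c p q r * Dd a b c q r p)
      = 3 * Pi3 a b c p q r := by
    unfold Pi3
    calc _ = (Dd a b c p q r + Dd a b c q r p + Dd a b c r p q)
          * (Dd a b c p q r * Dd a b c q r p * Dd a b c r p q) := by ring
      _ = _ := by rw [hsum]
  linarith

end Positive

/-- a vanishing dot product against a message: vertex against a permutation of `(0, 1/2, 1/2)` -/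
theorem dot_zero_cases {a b c p q r : ℝ} (h : Simp a b c) (h' : MsgN p q r)
    (h0 : a * p + b * q + c * r = 0) :
    (a = 1 ∧ b = 0 ∧ c = 0 ∧ p = 0 ∧ q = 1 / 2 ∧ r = 1 / 2) ∨
    (a = 0 ∧ b = 1 ∧ c = 0 ∧ p = 1 / 2 ∧ q = 0 ∧ r = 1 / 2) ∨
    (a = 0 ∧ b = 0 ∧ c = 1 ∧ p = 1 / 2 ∧ q = 1 / 2 ∧ r = 0) := by
  obtain ⟨ha, hb, hc, hs⟩ := h
  obtain ⟨hp, hq, hr, hp', hq', hr', hs'⟩ := h'
  have h1 : 0 ≤ a * p := mul_nonneg ha hp
  have h2 : 0 ≤ b * q := mul_nonneg hb hq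
  have h3 : 0 ≤ c * r := mul_nonneg hc hr
  have z1 : a * p = 0 := by linarith
  have z2 : b * q = 0 := by linarith
  have z3 : c * r = 0 := by linarith
  rcases mul_eq_zero.mp z1 with ea | ep <;> rcases mul_eq_zero.mp z2 with eb | eq <;>
    rcases mul_eq_zero.mp z3 with ec | er
  · exfalso; linarith
  · right; right
    subst ea eb er
    refine ⟨rfl, rfl, by linarith, by linarith, by linarith, rfl⟩
  · right; left
    subst ea eq ec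
    refine ⟨rfl, by linarith, rfl, by linarith, rfl, by linarith⟩
  · exfalso; linarith
  · left
    subst ep eb ec
    refine ⟨by linarith, rfl, rfl, rfl, by linarith, by linarith⟩
  · exfalso; linarith
  · exfalso; linarith
  · exfalso; linarith

theorem MsgN.cyc {p q r : ℝ} (h : MsgN p q r) : MsgN q r p :=
  ⟨h.hb, h.hc, h.ha, h.hb', h.hc', h.ha', by linarith [h.hs]⟩

theorem MsgN.swap {p q r : ℝ} (h : MsgN p q r) : MsgN q p r :=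
  ⟨h.hb, h.ha, h.hc, h.hb', h.ha', h.hc', by linarith [h.hs]⟩

/-- first kernel bound given the polynomial inequality; the degenerate case is a vertex against a permutation of `(0, 1/2, 1/2)` -/
theorem av6_I2_le_of {R a b c p q r : ℝ} (h : Simp a b c) (h' : MsgN p q r)
    (hP : 0 ≤ (R - 2 / 3) * E0f (I2 a b c) (I3 a b c) (I2 p q r) (I3 p q r)
      - Yf (I2 a b c) (I3 a b c) (I2 p q r) (I3 p q r))
    (hdeg : I2 a b c = 2 / 3 → I3 a b c = 2 / 9 → I2 p q r = 1 / 6 → I3 p q r = -1 / 36 → 2 / 3 ≤ R) :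
    av6 I2 a b c p q r ≤ R := by
  have hps := h'.toSimp
  have hnn : ∀ {x y z : ℝ}, Simp x y z → 0 ≤ a * x + b * y + c * z := by
    intro x y z hx
    have := h.ha
    have := h.hb
    have := h.hc
    have := hx.ha
    have := hx.hb
    have := hx.hc
    positivity
  by_cases hall : 0 < a * p + b * q + c * r ∧ 0 < a * q + b * r + c * p ∧
      0 < a * r + b * p + c * q ∧ 0 < a * q + b * p + c * r ∧ 0 < a * p + b * r + c * q ∧
      0 < a * r + b * q + c * p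
  · obtain ⟨p1, p2, p3, p4, p5, p6⟩ := hall
    have hps2 : Simp q p r := h'.swap.toSimp
    have t1 := triple_sum' h hps p1 p2 p3
    have t2 := triple_sum' h hps2 p4 p5 p6
    rw [I2_swap p q r, I3_swap p q r] at t2
    have hY := Yf_nonpos' h hps p1 p2 p3
    have hE := E0_identity h.hs hps.hs
    set A := I2 a b c
    set B := I3 a b c
    set C := I2 p q r
    set E := I3 p q r
    have d1 : 0 < Dd a b c p q r := by unfold Dd; positivity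
    have d2 : 0 < Dd a b c q r p := by unfold Dd; positivity
    have d3 : 0 < Dd a b c r p q := by unfold Dd; positivity
    have d4 : 0 < Dd a b c q p r := by unfold Dd; positivity
    have d5 : 0 < Dd a b c p r q := by unfold Dd; positivity
    have d6 : 0 < Dd a b c r q p := by unfold Dd; positivity
    have hP1 : 0 < Pi3 a b c p q r := by unfold Pi3; positivity
    have hP2 : 0 < Pi3 a b c q p r := by unfold Pi3; positivity
    have hE0 : 0 < E0f A B C E := by linarith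
    have ahm : 2 / E0f A B C E ≤ 1 / Pi3 a b c p q r + 1 / Pi3 a b c q p r := by
      have : E0f A B C E = (Pi3 a b c p q r + Pi3 a b c q p r) / 2 := by linarith
      rw [this]
      rw [div_add_div _ _ hP1.ne' hP2.ne', div_le_div_iff₀ (by positivity) (by positivity)]
      nlinarith [sq_nonneg (Pi3 a b c p q r - Pi3 a b c q p r)]
    have h3 : Yf A B C E * (1 / Pi3 a b c p q r + 1 / Pi3 a b c q p r)
        ≤ Yf A B C E * (2 / E0f A B C E) :=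
      mul_le_mul_of_nonpos_left ahm hY
    have h4 : Yf A B C E / E0f A B C E ≤ R - 2 / 3 := by
      rw [div_le_iff₀ hE0]
      linarith
    have h5 : Yf A B C E * (2 / E0f A B C E) = 2 * (Yf A B C E / E0f A B C E) := by ring
    have h6 : 3 * Yf A B C E / Pi3 a b c p q r + 3 * Yf A B C E / Pi3 a b c q p r
        = 3 * (Yf A B C E * (1 / Pi3 a b c p q r + 1 / Pi3 a b c q p r)) := by ring
    unfold av6
    have t3 : wt I2 a b c p q r + wt I2 a b c q r p + wt I2 a b c r p q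
          + wt I2 a b c q p r + wt I2 a b c p r q + wt I2 a b c r q p
        = 4 + 3 * (Yf A B C E * (1 / Pi3 a b c p q r + 1 / Pi3 a b c q p r)) := by
      rw [← h6]
      linarith
    rw [t3]
    linarith
  · -- the degenerate case
    have hex : a * p + b * q + c * r = 0 ∨ a * q + b * r + c * p = 0 ∨
        a * r + b * p + c * q = 0 ∨ a * q + b * p + c * r = 0 ∨ a * p + b * r + c * q = 0 ∨
        a * r + b * q + c * p = 0 := by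
      by_contra hno
      push Not at hno
      obtain ⟨n1, n2, n3, n4, n5, n6⟩ := hno
      exact hall ⟨lt_of_le_of_ne (hnn hps) (Ne.symm n1), lt_of_le_of_ne (hnn h'.cyc.toSimp) (Ne.symm n2),
        lt_of_le_of_ne (hnn h'.cyc.cyc.toSimp) (Ne.symm n3),
        lt_of_le_of_ne (hnn h'.swap.toSimp) (Ne.symm n4),
        lt_of_le_of_ne (hnn h'.swap.cyc.toSimp) (Ne.symm n5),
        lt_of_le_of_ne (hnn h'.swap.cyc.cyc.toSimp) (Ne.symm n6)⟩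
    have hcases : ∀ a' b' c' p' q' r' : ℝ,
        (a' = 1 ∧ b' = 0 ∧ c' = 0 ∨ a' = 0 ∧ b' = 1 ∧ c' = 0 ∨ a' = 0 ∧ b' = 0 ∧ c' = 1) →
        (p' = 0 ∧ q' = 1 / 2 ∧ r' = 1 / 2 ∨ p' = 1 / 2 ∧ q' = 0 ∧ r' = 1 / 2 ∨
          p' = 1 / 2 ∧ q' = 1 / 2 ∧ r' = 0) →
        (I2 a' b' c' = 2 / 3 → I3 a' b' c' = 2 / 9 → I2 p' q' r' = 1 / 6 →
          I3 p' q' r' = -1 / 36 → 2 / 3 ≤ R) → av6 I2 a' b' c' p' q' r' ≤ R := by
      intro a' b' c' p' q' r' hv hm hd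
      rcases hv with ⟨rfl, rfl, rfl⟩ | ⟨rfl, rfl, rfl⟩ | ⟨rfl, rfl, rfl⟩ <;>
        rcases hm with ⟨rfl, rfl, rfl⟩ | ⟨rfl, rfl, rfl⟩ | ⟨rfl, rfl, rfl⟩ <;>
        · have hR := hd (by norm_num [I2]) (by norm_num [I3]) (by norm_num [I2]) (by norm_num [I3])
          refine le_trans (le_of_eq ?_) hR
          norm_num [av6, wt, I2]
    have hvert : (a = 1 ∧ b = 0 ∧ c = 0 ∨ a = 0 ∧ b = 1 ∧ c = 0 ∨ a = 0 ∧ b = 0 ∧ c = 1) ∧
        (p = 0 ∧ q = 1 / 2 ∧ r = 1 / 2 ∨ p = 1 / 2 ∧ q = 0 ∧ r = 1 / 2 ∨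
          p = 1 / 2 ∧ q = 1 / 2 ∧ r = 0) := by
      rcases hex with e | e | e | e | e | e
      · rcases dot_zero_cases h h' e with ⟨e1, e2, e3, e4, e5, e6⟩ | ⟨e1, e2, e3, e4, e5, e6⟩ |
          ⟨e1, e2, e3, e4, e5, e6⟩
        · exact ⟨Or.inl ⟨e1, e2, e3⟩, Or.inl ⟨e4, e5, e6⟩⟩
        · exact ⟨Or.inr (Or.inl ⟨e1, e2, e3⟩), Or.inr (Or.inl ⟨e4, e5, e6⟩)⟩
        · exact ⟨Or.inr (Or.inr ⟨e1, e2, e3⟩), Or.inr (Or.inr ⟨e4, e5, e6⟩)⟩
      · rcases dot_zero_cases h h'.cyc e with ⟨e1, e2, e3, e4, e5, e6⟩ | ⟨e1, e2, e3, e4, e5, e6⟩ |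
          ⟨e1, e2, e3, e4, e5, e6⟩
        · exact ⟨Or.inl ⟨e1, e2, e3⟩, Or.inr (Or.inl ⟨e6, e4, e5⟩)⟩
        · exact ⟨Or.inr (Or.inl ⟨e1, e2, e3⟩), Or.inr (Or.inr ⟨e6, e4, e5⟩)⟩
        · exact ⟨Or.inr (Or.inr ⟨e1, e2, e3⟩), Or.inl ⟨e6, e4, e5⟩⟩
      · rcases dot_zero_cases h h'.cyc.cyc e with ⟨e1, e2, e3, e4, e5, e6⟩ |
          ⟨e1, e2, e3, e4, e5, e6⟩ | ⟨e1, e2, e3, e4, e5, e6⟩
        · exact ⟨Or.inl ⟨e1, e2, e3⟩, Or.inr (Or.inr ⟨e5, e6, e4⟩)⟩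
        · exact ⟨Or.inr (Or.inl ⟨e1, e2, e3⟩), Or.inl ⟨e5, e6, e4⟩⟩
        · exact ⟨Or.inr (Or.inr ⟨e1, e2, e3⟩), Or.inr (Or.inl ⟨e5, e6, e4⟩)⟩
      · rcases dot_zero_cases h h'.swap e with ⟨e1, e2, e3, e4, e5, e6⟩ | ⟨e1, e2, e3, e4, e5, e6⟩ |
          ⟨e1, e2, e3, e4, e5, e6⟩
        · exact ⟨Or.inl ⟨e1, e2, e3⟩, Or.inr (Or.inl ⟨e5, e4, e6⟩)⟩
        · exact ⟨Or.inr (Or.inl ⟨e1, e2, e3⟩), Or.inl ⟨e5, e4, e6⟩⟩
        · exact ⟨Or.inr (Or.inr ⟨e1, e2, e3⟩), Or.inr (Or.inr ⟨e5, e4, e6⟩)⟩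
      · rcases dot_zero_cases h h'.swap.cyc e with ⟨e1, e2, e3, e4, e5, e6⟩ |
          ⟨e1, e2, e3, e4, e5, e6⟩ | ⟨e1, e2, e3, e4, e5, e6⟩
        · exact ⟨Or.inl ⟨e1, e2, e3⟩, Or.inl ⟨e4, e6, e5⟩⟩
        · exact ⟨Or.inr (Or.inl ⟨e1, e2, e3⟩), Or.inr (Or.inr ⟨e4, e6, e5⟩)⟩
        · exact ⟨Or.inr (Or.inr ⟨e1, e2, e3⟩), Or.inr (Or.inl ⟨e4, e6, e5⟩)⟩
      · rcases dot_zero_cases h h'.swap.cyc.cyc e with ⟨e1, e2, e3, e4, e5, e6⟩ |
          ⟨e1, e2, e3, e4, e5, e6⟩ | ⟨e1, e2, e3, e4, e5, e6⟩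
        · exact ⟨Or.inl ⟨e1, e2, e3⟩, Or.inr (Or.inr ⟨e6, e5, e4⟩)⟩
        · exact ⟨Or.inr (Or.inl ⟨e1, e2, e3⟩), Or.inr (Or.inl ⟨e6, e5, e4⟩)⟩
        · exact ⟨Or.inr (Or.inr ⟨e1, e2, e3⟩), Or.inl ⟨e6, e5, e4⟩⟩
    exact hcases a b c p q r hvert.1 hvert.2 hdeg

/-! ### Using the certificates -/

theorem MsgN.stretch {p q r : ℝ} (h : MsgN p q r) : Simp (1 - 2 * p) (1 - 2 * q) (1 - 2 * r) := by
  obtain ⟨h1, h2, h3, h4, h5, h6, h7⟩ := h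
  exact ⟨by linarith, by linarith, by linarith, by linarith⟩

theorem I2_msg (p q r : ℝ) :
    I2 p q r = 1 / 4 * I2 (1 - 2 * p) (1 - 2 * q) (1 - 2 * r) := by
  unfold I2; ring

theorem I3_msg (p q r : ℝ) :
    I3 p q r = -1 / 8 * I3 (1 - 2 * p) (1 - 2 * q) (1 - 2 * r) := by
  unfold I3; ring

/-- a polynomial with a certificate is nonnegative on simplex times messages -/
theorem of_cert {P : ℝ → ℝ → ℝ → ℝ → ℝ}
    (hc : ∀ {u x v y : ℝ}, Atoms u x → Atoms v y →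
      0 ≤ P (2 / 3 * u) (2 / 9 * u * x) (2 / 3 * ((1/4) * v)) (2 / 9 * ((-1/8) * v) * y))
    (h0 : ∀ C E, 0 ≤ P 0 0 C E) (h1 : ∀ A B, 0 ≤ P A B 0 0)
    {a b c p q r : ℝ} (h : Simp a b c) (h' : MsgN p q r) :
    0 ≤ P (I2 a b c) (I3 a b c) (I2 p q r) (I3 p q r) := by
  by_cases hA : I2 a b c = 0
  · rw [hA, I3_eq_zero_of_I2 hA]
    exact h0 _ _
  by_cases hC : I2 p q r = 0
  · rw [hC, I3_eq_zero_of_I2 hC]
    exact h1 _ _
  have hs := h'.stretch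
  rw [I2_msg p q r] at hC
  rw [I2_msg p q r, I3_msg p q r]
  have hC2 : I2 (1 - 2 * p) (1 - 2 * q) (1 - 2 * r) ≠ 0 := by
    intro h0
    rw [h0] at hC
    simp at hC
  have a1 := h.atoms hA
  have a2 := hs.atoms hC2
  have key := hc a1 a2
  set A := I2 a b c
  set B := I3 a b c
  set C := I2 (1 - 2 * p) (1 - 2 * q) (1 - 2 * r)
  set E := I3 (1 - 2 * p) (1 - 2 * q) (1 - 2 * r)
  have e1 : 2 / 3 * (3 / 2 * A) = A := by ring
  have e2 : 2 / 9 * (3 / 2 * A) * (3 * B / A) = B := by field_simp; ring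
  have e3 : 2 / 3 * ((1 / 4) * (3 / 2 * C)) = 1 / 4 * C := by ring
  have e4 : 2 / 9 * ((-1 / 8) * (3 / 2 * C)) * (3 * E / C) = -1 / 8 * E := by field_simp; ring
  rw [e1, e2, e3, e4] at key
  exact key

theorem tail_T1 {a b c p q r : ℝ} (h : Simp a b c) (h' : MsgN p q r) :
    av6 I2 a b c p q r ≤ RU (I2 a b c) (I3 a b c) (I2 p q r) (I3 p q r) := by
  refine av6_I2_le_of h h' ?_ ?_
  · have := of_cert (P := PU) (fun h1 h2 => certT1 h1 h2)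
      (fun C E => by
        apply le_of_eq
        simp only [PU, RU, errF, E0f, Yf]
        ring)
      (fun A B => by
        apply le_of_eq
        simp only [PU, RU, errF, E0f, Yf]
        ring) h h'
    exact this
  · intro h1 h2 h3 h4
    rw [h1, h2, h3, h4]
    norm_num [RU, errF]

theorem tail_T2 {a b c p q r : ℝ} (h : Simp a b c) (h' : MsgN p q r) :
    baseV (I2 a b c) (I3 a b c) (I2 p q r) (I3 p q r) - 7 * errF (I2 a b c) (I2 p q r)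
      ≤ av6 I3 a b c p q r := by
  have hP := of_cert (P := PT2) (fun h1 h2 => certT2 h1 h2)
    (fun C E => by
      apply le_of_eq
      simp only [PT2, LVf, LUf, baseV, errF, PP_Nq0, PP_Nq1, PP_Nq2, PP_Nq3]
      ring)
    (fun A B => by
      apply le_of_eq
      simp only [PT2, LVf, LUf, baseV, errF, PP_Nq0, PP_Nq1, PP_Nq2, PP_Nq3]
      ring) h h'
  have := av6_I3_ge h h'
  unfold PT2 at hP
  linarith

theorem tail_T3 {a b c p q r : ℝ} (h : Simp a b c) (h' : MsgN p q r) :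
    av6 I3 a b c p q r
      ≤ baseV (I2 a b c) (I3 a b c) (I2 p q r) (I3 p q r) + 2 * errF (I2 a b c) (I2 p q r) := by
  have hP := of_cert (P := PT3) (fun h1 h2 => certT3 h1 h2)
    (fun C E => by
      apply le_of_eq
      simp only [PT3, UVf, LVf, LUf, baseV, errF, PP_Nq0, PP_Nq1, PP_Nq2, PP_Nq3, PP_t4, PP_t5, PP_t6]
      ring)
    (fun A B => by
      apply le_of_eq
      simp only [PT3, UVf, LVf, LUf, baseV, errF, PP_Nq0, PP_Nq1, PP_Nq2, PP_Nq3, PP_t4, PP_t5, PP_t6]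
      ring) h h'
  have := av6_I3_le h h'
  unfold PT3 at hP
  linarith

theorem tail_T4 {a b c p q r : ℝ} (h : Simp a b c) (h' : MsgN p q r) :
    av6 I2sq a b c p q r
      ≤ baseW (I2 a b c) (I3 a b c) (I2 p q r) (I3 p q r) + 70 * errF (I2 a b c) (I2 p q r) := by
  have hP := of_cert (P := PT4) (fun h1 h2 => certT4 h1 h2)
    (fun C E => by
      apply le_of_eq
      simp only [PT4, UWf, baseW, errF, PP_NN0, PP_NN1, PP_NN2, PP_NN3, PP_t4, PP_t5, PP_t6, PP_t7]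
      ring)
    (fun A B => by
      apply le_of_eq
      simp only [PT4, UWf, baseW, errF, PP_NN0, PP_NN1, PP_NN2, PP_NN3, PP_t4, PP_t5, PP_t6, PP_t7]
      ring) h h'
  have := av6_I2sq_le h h'
  unfold PT4 at hP
  linarith

end Vale.Agent.Lib.P154
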