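import Mathlib

/-!
A small checker for positivity certificates.  Dense polynomials with integer coefficients in two
pairs of variables are evaluated by the Horner scheme; the checker verifies that a target polynomial
is a sum of nonnegative multiples of products of atoms, by a computation in the kernel.
-/

namespace Vale.Agent.Lib.P154.PolyCheck

/-- addition of dense lists, given addition of coefficients -/
def addL {R : Type} (f : R → R → R) : List R → List R → List R
  | [], q => q
  | a :: p, [] => a :: p
  | a :: p, b :: q => f a b :: addL f p q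

/-- multiplication of dense lists, given the coefficient operations -/
def mulL {R : Type} (f : R → R → R) (g : R → R → R) (z : R) : List R → List R → List R
  | [], _ => []
  | a :: p, q => addL f (q.map (g a)) (z :: mulL f g z p q)

/-- Horner evaluation -/
noncomputable def evL {R : Type} (e : R → ℝ) (t : ℝ) : List R → ℝ
  | [] => 0
  | a :: p => e a + t * evL e t p

theorem evL_add {R : Type} (f : R → R → R) (e : R → ℝ) (he : ∀ a b, e (f a b) = e a + e b) (t : ℝ) :
    ∀ p q : List R, evL e t (addL f p q) = evL e t p + evL e t q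
  | [], q => by simp [addL, evL]
  | a :: p, [] => by simp [addL, evL]
  | a :: p, b :: q => by
    simp only [addL, evL, he, evL_add f e he t p q]
    ring

theorem evL_map {R : Type} (g : R → R) (e : R → ℝ) (c : ℝ) (hg : ∀ b, e (g b) = c * e b) (t : ℝ) :
    ∀ q : List R, evL e t (q.map g) = c * evL e t q
  | [] => by simp [evL]
  | b :: q => by
    simp only [List.map, evL, hg, evL_map g e c hg t q]
    ring

theorem evL_mul {R : Type} (f g : R → R → R) (z : R) (e : R → ℝ)
    (he : ∀ a b, e (f a b) = e a + e b) (hm : ∀ a b, e (g a b) = e a * e b) (hz : e z = 0) (t : ℝ) :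
    ∀ p q : List R, evL e t (mulL f g z p q) = evL e t p * evL e t q
  | [], q => by simp [mulL, evL]
  | a :: p, q => by
    simp only [mulL, evL_add f e he t, evL, hz]
    rw [evL_map (g a) e (e a) (hm a) t q, evL_mul f g z e he hm hz t p q]
    ring

/-- all coefficients pass the given test -/
theorem evL_zero {R : Type} (b : R → Bool) (e : R → ℝ) (h : ∀ a, b a = true → e a = 0) (t : ℝ) :
    ∀ p : List R, p.all b = true → evL e t p = 0
  | [], _ => rfl
  | a :: p, hp => by
    simp only [List.all_cons, Bool.and_eq_true] at hp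
    simp only [evL, h a hp.1, evL_zero b e h t p hp.2]
    ring

/-- one variable -/
abbrev P1 := List ℤ

/-- two variables: the outer index is the power of the first one -/
abbrev P2 := List P1

/-- four variables: a polynomial in the first pair with coefficients in the second pair -/
abbrev P4 := List (List P2)

/-- addition in one variable -/
def add1 : P1 → P1 → P1 := addL Int.add

/-- multiplication in one variable -/
def mul1 : P1 → P1 → P1 := mulL Int.add Int.mul 0

/-- addition in two variables -/
def add2 : P2 → P2 → P2 := addL add1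

/-- multiplication in two variables -/
def mul2 : P2 → P2 → P2 := mulL add1 mul1 []

/-- addition in four variables -/
def add4 : P4 → P4 → P4 := addL (addL add2)

/-- evaluation in one variable -/
noncomputable def ev1 (x : ℝ) : P1 → ℝ := evL (fun a : ℤ => (a : ℝ)) x

/-- evaluation in two variables -/
noncomputable def ev2 (u x : ℝ) : P2 → ℝ := evL (ev1 x) u

/-- evaluation in four variables -/
noncomputable def ev4 (u x v y : ℝ) : P4 → ℝ := evL (evL (ev2 v y) x) u

theorem ev1_add (x : ℝ) (p q : P1) : ev1 x (add1 p q) = ev1 x p + ev1 x q :=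
  evL_add _ _ (fun a b => by push_cast [Int.add_def]; rfl) x p q

theorem ev1_mul (x : ℝ) (p q : P1) : ev1 x (mul1 p q) = ev1 x p * ev1 x q :=
  evL_mul _ _ _ _ (fun a b => by push_cast [Int.add_def]; rfl)
    (fun a b => by push_cast [Int.mul_def]; rfl) (by norm_num) x p q

theorem ev2_add (u x : ℝ) (p q : P2) : ev2 u x (add2 p q) = ev2 u x p + ev2 u x q :=
  evL_add _ _ (ev1_add x) u p q

theorem ev2_mul (u x : ℝ) (p q : P2) : ev2 u x (mul2 p q) = ev2 u x p * ev2 u x q :=
  evL_mul _ _ _ _ (ev1_add x) (ev1_mul x) rfl u p q

theorem ev4_add (u x v y : ℝ) (p q : P4) : ev4 u x v y (add4 p q) = ev4 u x v y p + ev4 u x v y q :=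
  evL_add _ _ (evL_add _ _ (ev2_add v y) x) u p q

/-- the scalar multiple of a polynomial of two variables -/
def smul2 (c : ℤ) (Q : P2) : P2 := Q.map (fun r => r.map (fun a => c * a))

theorem ev1_smul (c : ℤ) (x : ℝ) (r : P1) : ev1 x (r.map (fun a => c * a)) = c * ev1 x r :=
  evL_map _ _ _ (fun b => by push_cast; rfl) x r

theorem ev2_smul (c : ℤ) (u x : ℝ) (Q : P2) : ev2 u x (smul2 c Q) = c * ev2 u x Q :=
  evL_map _ _ _ (fun r => ev1_smul c x r) u Q

/-- the product of a polynomial in the first pair and one in the second pair, with a factor -/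
def kron (c : ℤ) (F G : P2) : P4 := F.map (fun r => r.map (fun a => smul2 (c * a) G))

theorem ev4_kron (c : ℤ) (F G : P2) (u x v y : ℝ) :
    ev4 u x v y (kron c F G) = c * ev2 u x F * ev2 v y G := by
  have h1 : ∀ r : P1, evL (ev2 v y) x (r.map (fun a => smul2 (c * a) G)) = c * ev1 x r * ev2 v y G := by
    intro r
    induction r with
    | nil => simp [evL, ev1]
    | cons a r ih =>
      simp only [List.map, evL, ev2_smul]
      have e : ev1 x (a :: r) = (a : ℝ) + x * ev1 x r := rfl
      rw [ih, e]
      push_cast
      ring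
  unfold ev4 kron
  induction F with
  | nil => simp [evL, ev2]
  | cons r F ih =>
    simp only [List.map, evL, h1]
    have e : ev2 u x (r :: F) = ev1 x r + u * ev2 u x F := rfl
    rw [ih, e]
    ring

/-- the entry of a list of polynomials, the empty polynomial when out of range -/
def nth2 : List P2 → ℕ → P2
  | [], _ => []
  | a :: _, 0 => a
  | _ :: l, n + 1 => nth2 l n

theorem nth2_nonneg {u x : ℝ} {A : List P2} (h : ∀ a ∈ A, 0 ≤ ev2 u x a) (i : ℕ) :
    0 ≤ ev2 u x (nth2 A i) := by
  induction A generalizing i with
  | nil => simp [nth2, ev2, evL]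
  | cons a l ih =>
    cases i with
    | zero => exact h a (by simp)
    | succ n =>
      exact ih (fun b hb => h b (by simp [hb])) n

/-- the product of the atoms with the given indices -/
def prodA (A : List P2) : List ℕ → P2
  | [] => [[1]]
  | i :: l => mul2 (nth2 A i) (prodA A l)

theorem prodA_nonneg {u x : ℝ} {A : List P2} (h : ∀ a ∈ A, 0 ≤ ev2 u x a) (l : List ℕ) :
    0 ≤ ev2 u x (prodA A l) := by
  induction l with
  | nil =>
    have : ev2 u x [[1]] = 1 := by simp [ev2, ev1, evL]
    simp only [prodA, this]
    norm_num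
  | cons i l ih =>
    simp only [prodA, ev2_mul]
    exact mul_nonneg (nth2_nonneg h i) ih

/-- the sum of the terms of a certificate -/
def sumT (A B : List P2) : List (ℕ × List ℕ × List ℕ) → P4
  | [] => []
  | t :: l => add4 (kron (t.1 : ℤ) (prodA A t.2.1) (prodA B t.2.2)) (sumT A B l)

theorem sumT_nonneg {u x v y : ℝ} {A B : List P2} (hA : ∀ a ∈ A, 0 ≤ ev2 u x a)
    (hB : ∀ a ∈ B, 0 ≤ ev2 v y a) (l : List (ℕ × List ℕ × List ℕ)) :
    0 ≤ ev4 u x v y (sumT A B l) := by
  induction l with
  | nil => simp [sumT, ev4, evL]
  | cons t l ih =>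
    simp only [sumT, ev4_add, ev4_kron]
    have h1 := prodA_nonneg hA t.2.1
    have h2 := prodA_nonneg hB t.2.2
    have h3 : (0 : ℝ) ≤ ((t.1 : ℤ) : ℝ) := by
      push_cast
      exact Nat.cast_nonneg _
    exact add_nonneg (mul_nonneg (mul_nonneg h3 h1) h2) ih

/-- the test for the zero polynomial -/
def zero1 (p : P1) : Bool := p.all (fun a => decide (a = 0))

/-- the test for the zero polynomial -/
def zero2 (p : P2) : Bool := p.all zero1

/-- the test for the zero polynomial -/
def zero4 (p : P4) : Bool := p.all (fun r => r.all zero2)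

theorem ev4_zero (u x v y : ℝ) (p : P4) (h : zero4 p = true) : ev4 u x v y p = 0 := by
  refine evL_zero _ _ ?_ u p h
  intro r hr
  refine evL_zero _ _ ?_ x r hr
  intro s hs
  refine evL_zero _ _ ?_ v s hs
  intro w hw
  refine evL_zero _ _ ?_ y w hw
  intro a ha
  have : a = 0 := by simpa using ha
  simp [this]

/-- the negative of a polynomial of four variables -/
def neg4 (p : P4) : P4 := p.map (fun r => r.map (fun s => smul2 (-1) s))

theorem ev4_neg (u x v y : ℝ) (p : P4) : ev4 u x v y (neg4 p) = - ev4 u x v y p := by
  have h1 : ∀ s : P2, ev2 v y (smul2 (-1) s) = (-1) * ev2 v y s := by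
    intro s
    have := ev2_smul (-1) v y s
    simpa using this
  have h2 : ∀ r : List P2, evL (ev2 v y) x (r.map (fun s => smul2 (-1) s))
      = (-1) * evL (ev2 v y) x r := fun r => evL_map _ _ _ h1 x r
  have := evL_map (fun r : List P2 => r.map (fun s => smul2 (-1) s)) (evL (ev2 v y) x) (-1) h2 u p
  unfold ev4 neg4
  rw [this]
  ring

/-- the test performed by the kernel -/
def check (A B : List P2) (l : List (ℕ × List ℕ × List ℕ)) (T : P4) : Bool :=
  zero4 (add4 (sumT A B l) (neg4 T))

/-- If the test passes then the target is nonnegative wherever the atoms are. -/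
theorem check_sound {u x v y : ℝ} {A B : List P2} (hA : ∀ a ∈ A, 0 ≤ ev2 u x a)
    (hB : ∀ a ∈ B, 0 ≤ ev2 v y a) {l : List (ℕ × List ℕ × List ℕ)} {T : P4}
    (h : check A B l T = true) : 0 ≤ ev4 u x v y T := by
  have h0 := ev4_zero u x v y _ h
  rw [ev4_add, ev4_neg] at h0
  have h1 := sumT_nonneg (u := u) (x := x) (v := v) (y := y) hA hB l
  linarith

end Vale.Agent.Lib.P154.PolyCheck
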